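import Crest.Agent.Lib.GADAdd.GadIdPSD

/-!
# Normalised blocks and the upper bound for the Holevo information of `Φ ⊗ Ψ`
-/

set_option autoImplicit false
set_option linter.unusedSectionVars false

open Matrix
open scoped ComplexOrder Kronecker

namespace Crest.Agent.GADAdd
open Crest.Quantum Crest.MathPhysics.AmpDamp

variable {d e : Type} [Fintype d] [DecidableEq d] [Fintype e] [DecidableEq e]

theorem blockwise_psd {k : Type} [Fintype k] [DecidableEq k]
    {Ψ : Matrix d d ℂ → Matrix e e ℂ} (hΨ : IsChannel Ψ)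
    {M : Matrix (k × d) (k × d) ℂ} (hM : M.PosSemidef) :
    (blockwise (k := k) Ψ M).PosSemidef := by
  let f := Fintype.equivFin k
  let g : Fin (Fintype.card k) × d → k × d := fun p => (f.symm p.1, p.2)
  have h := hΨ.2.1 (Fintype.card k) (M.submatrix g g) (hM.submatrix g)
  have h2 := h.submatrix (fun p : k × e => (f p.1, p.2))
  convert h2 using 1
  ext ⟨s, i⟩ ⟨t, j⟩
  have : block (M.submatrix g g) (f s) (f t) = block M s t := by
    ext a b
    simp [block, g]
  simp [blockwise, this]

theorem trace_blockwise {k : Type} [Fintype k] [DecidableEq k]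
    {Ψ : Matrix d d ℂ → Matrix e e ℂ} (hΨ : IsChannel Ψ)
    (M : Matrix (k × d) (k × d) ℂ) :
    (blockwise (k := k) Ψ M).trace = M.trace := by
  simp only [Matrix.trace, Matrix.diag, Fintype.sum_prod_type, blockwise, Matrix.of_apply]
  refine Finset.sum_congr rfl fun s _ => ?_
  have := hΨ.2.2 (block M s s)
  simpa [Matrix.trace, block] using this

/-- `(1 ⊗ Ψ)(ρ)` is positive semidefinite of trace one. -/
theorem blockwise_density {Ψ : Matrix d d ℂ → Matrix e e ℂ} (hΨ : IsChannel Ψ)
    {ρ : Matrix (Bool × d) (Bool × d) ℂ} (hρ : IsDensity ρ) :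
    IsDensity (blockwise (k := Bool) Ψ ρ) :=
  ⟨blockwise_psd hΨ hρ.1, by rw [trace_blockwise hΨ, hρ.2]⟩

theorem block_psd {k : Type} {M : Matrix (k × d) (k × d) ℂ} (hM : M.PosSemidef) (s : k) :
    (block M s s).PosSemidef := by
  have := hM.submatrix (fun i : d => (s, i))
  convert this using 1
  ext i j
  rfl

theorem block_blockwise {k : Type} (Ψ : Matrix d d ℂ → Matrix e e ℂ)
    (M : Matrix (k × d) (k × d) ℂ) (s t : k) :
    block (blockwise (k := k) Ψ M) s t = Ψ (block M s t) := rfl

/-- The trace of a Bool-block matrix. -/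
theorem trace_bool_blocks (M : Matrix (Bool × d) (Bool × d) ℂ) :
    M.trace = (block M false false).trace + (block M true true).trace := by
  simp only [Matrix.trace, Matrix.diag, Fintype.sum_prod_type, Fintype.sum_bool, block,
    Matrix.of_apply]
  ring

/-- Real trace of a PSD matrix is nonnegative. -/
theorem au_trace_re_nonneg {A : Matrix d d ℂ} (hA : A.PosSemidef) : 0 ≤ A.trace.re := by
  have := hA.trace_nonneg
  exact (Complex.le_def.mp this).1

/-- The normalisation of a positive semidefinite matrix (a fixed pure state if it vanishes). -/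
noncomputable def normBlock [Nonempty d] (X : Matrix d d ℂ) : Matrix d d ℂ :=
  if X.trace.re = 0 then Matrix.diagonal (Pi.single (Classical.arbitrary d) 1)
  else (((X.trace.re)⁻¹ : ℝ) : ℂ) • X

theorem trace_ofReal_of_psd {A : Matrix d d ℂ} (hA : A.PosSemidef) :
    A.trace = (A.trace.re : ℂ) := by
  have := hA.trace_nonneg
  apply Complex.ext
  · simp
  · have h := (Complex.le_def.mp this).2
    simpa using h.symm

theorem normBlock_density [Nonempty d] {X : Matrix d d ℂ} (hX : X.PosSemidef) :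
    IsDensity (normBlock X) := by
  unfold normBlock
  split_ifs with h
  · refine ⟨?_, ?_⟩
    · apply Matrix.PosSemidef.diagonal
      intro i
      by_cases hi : i = Classical.arbitrary d
      · subst hi
        simp
      · simp [hi]
    · simp [Matrix.trace]
  · refine ⟨hX.smul ?_, ?_⟩
    · have : 0 ≤ (X.trace.re)⁻¹ := inv_nonneg.mpr (au_trace_re_nonneg hX)
      exact_mod_cast this
    · rw [Matrix.trace_smul, trace_ofReal_of_psd hX]
      simp only [Complex.ofReal_re, smul_eq_mul]
      rw [← Complex.ofReal_mul, inv_mul_cancel₀ h]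
      simp

theorem smul_normBlock [Nonempty d] {X : Matrix d d ℂ} (hX : X.PosSemidef) :
    ((X.trace.re : ℝ) : ℂ) • normBlock X = X := by
  unfold normBlock
  split_ifs with h
  · have : X.trace = 0 := by
      rw [trace_ofReal_of_psd hX, h]; simp
    have hX0 : X = 0 := (hX.trace_eq_zero_iff).mp this
    simp [hX0]
  · rw [smul_smul, ← Complex.ofReal_mul, mul_inv_cancel₀ h]
    simp

/-- Weighted entropy of the normalised output. -/
theorem entropy_normBlock [Nonempty d] {Ψ : Matrix d d ℂ → Matrix e e ℂ} (hΨ : IsChannel Ψ)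
    {X : Matrix d d ℂ} (hX : X.PosSemidef) (hY : (Ψ X).PosSemidef) :
    X.trace.re * vnEntropy (Ψ (normBlock X)) = vnEntropy (Ψ X) - Real.negMulLog X.trace.re := by
  by_cases h : X.trace.re = 0
  · have : X.trace = 0 := by
      rw [trace_ofReal_of_psd hX, h]; simp
    have hX0 : X = 0 := (hX.trace_eq_zero_iff).mp this
    have h0 : Ψ 0 = 0 := by
      have := hΨ.1.map_zero
      exact this
    simp [hX0, h0]
  · have hr : 0 < X.trace.re := lt_of_le_of_ne (au_trace_re_nonneg hX) (Ne.symm h)
    have hn : normBlock X = (((X.trace.re)⁻¹ : ℝ) : ℂ) • X := by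
      unfold normBlock; rw [if_neg h]
    have hΨs : Ψ (normBlock X) = (((X.trace.re)⁻¹ : ℝ) : ℂ) • Ψ X := by
      rw [hn]; exact hΨ.1.map_smul _ _
    have htr : (Ψ X).trace.re = X.trace.re := by rw [hΨ.2.2 X]
    rw [hΨs, vnEntropy_smul hY.1 (inv_nonneg.mpr hr.le) hY, htr]
    have : Real.negMulLog (X.trace.re)⁻¹ = (X.trace.re)⁻¹ * Real.log X.trace.re := by
      simp [Real.negMulLog, Real.log_inv]
    rw [this]
    simp only [Real.negMulLog]
    field_simp
    ring

/-- Additivity of `block` over finite sums with scalars. -/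
theorem block_sum_smul {ι k : Type} [Fintype ι] (c : ι → ℂ) (M : ι → Matrix (k × e) (k × e) ℂ) (s t : k) :
    block (∑ a, c a • M a) s t = ∑ a, c a • block (M a) s t := by
  ext i j
  simp [block, Matrix.sum_apply]

theorem sum_smul_psd {ι : Type} [Fintype ι] {c : ι → ℝ} {M : ι → Matrix e e ℂ} (hc : ∀ a, 0 ≤ c a)
    (hM : ∀ a, (M a).PosSemidef) : (∑ a, (c a : ℂ) • M a).PosSemidef := by
  apply Matrix.posSemidef_sum
  intro a _
  exact (hM a).smul (by exact_mod_cast hc a)

theorem re_trace_sum_smul {ι : Type} [Fintype ι] (c : ι → ℝ) (M : ι → Matrix e e ℂ) :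
    (∑ a, (c a : ℂ) • M a).trace.re = ∑ a, c a * (M a).trace.re := by
  rw [Matrix.trace_sum, Complex.re_sum]
  refine Finset.sum_congr rfl fun a _ => ?_
  rw [Matrix.trace_smul]
  simp

/-- Upper bound: the core of additivity. -/
theorem additive_upper {γ ν : ℝ} (hγ : γ ∈ Set.Icc (0 : ℝ) 1) (hν : ν ∈ Set.Icc (0 : ℝ) 1)
    [Nonempty d] [Nonempty e] {Ψ : Matrix d d ℂ → Matrix e e ℂ} (hΨ : IsChannel Ψ)
    {m : ℕ} {q : Fin m → ℝ} {ρ : Fin m → Matrix (Bool × d) (Bool × d) ℂ} (hens : IsEnsemble q ρ) :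
    ∃ (p : Fin m → ℝ) (m₂ : ℕ) (q₂ : Fin m₂ → ℝ) (ρ₂ : Fin m₂ → Matrix d d ℂ),
      (∀ a, p a ∈ Set.Icc (0 : ℝ) 1) ∧ IsEnsemble q₂ ρ₂ ∧
      holevoInfo (qubitTensor (gadMap γ ν) Ψ) q ρ ≤
        (Real.binEntropy ((1 - γ) * (∑ a, q a * p a) + γ * ν) - ∑ a, q a * gadG γ ν (p a))
          + holevoInfo Ψ q₂ ρ₂ := by
  obtain ⟨hq0, hq1, hρ⟩ := hens
  let W : Fin m → Matrix (Bool × e) (Bool × e) ℂ := fun a => blockwise (k := Bool) Ψ (ρ a)
  have hWd : ∀ a, IsDensity (W a) := fun a => blockwise_density hΨ (hρ a)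
  let B : Fin m → Bool → Matrix d d ℂ := fun a s => block (ρ a) s s
  let Q : Fin m → Bool → Matrix e e ℂ := fun a s => block (W a) s s
  have hQΨ : ∀ a s, Q a s = Ψ (B a s) := fun a s => rfl
  have hQpsd : ∀ a s, (Q a s).PosSemidef := fun a s => block_psd (hWd a).1 s
  have hBpsd : ∀ a s, (B a s).PosSemidef := fun a s => block_psd (hρ a).1 s
  let r : Fin m → Bool → ℝ := fun a s => (B a s).trace.re
  have hrQ : ∀ a s, (Q a s).trace.re = r a s := by
    intro a s
    rw [hQΨ, hΨ.2.2]
  have hr0 : ∀ a s, 0 ≤ r a s := fun a s => au_trace_re_nonneg (hBpsd a s)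
  have hrsum : ∀ a, r a false + r a true = 1 := by
    intro a
    have h1 := trace_bool_blocks (ρ a)
    rw [(hρ a).2] at h1
    have h2 := congrArg Complex.re h1
    simpa [r, B] using h2.symm
  let p : Fin m → ℝ := fun a => r a true
  have hp : ∀ a, p a ∈ Set.Icc (0 : ℝ) 1 := fun a =>
    ⟨hr0 a true, by have := hr0 a false; have := hrsum a; simp only [p]; linarith⟩
  have hpf : ∀ a, r a false = 1 - p a := fun a => by have := hrsum a; simp only [p]; linarith
  -- the ensemble for `Ψ`
  let E := Fintype.equivFin (Fin m × Bool)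
  have sum_E : ∀ {α : Type} [AddCommMonoid α] (f : Fin m × Bool → α),
      ∑ i, f (E.symm i) = ∑ a, (f (a, false) + f (a, true)) := by
    intro α _ f
    rw [Equiv.sum_comp E.symm f, Fintype.sum_prod_type]
    refine Finset.sum_congr rfl fun a _ => ?_
    rw [Fintype.sum_bool, add_comm]
  let w : Fin m × Bool → ℝ := fun x => q x.1 * r x.1 x.2
  let σ : Fin m × Bool → Matrix d d ℂ := fun x => normBlock (B x.1 x.2)
  refine ⟨p, _, fun i => w (E.symm i), fun i => σ (E.symm i), hp, ⟨?_, ?_, ?_⟩, ?_⟩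
  · exact fun i => mul_nonneg (hq0 _) (hr0 _ _)
  · rw [sum_E w]
    simp only [w, ← mul_add, hrsum, mul_one]
    exact hq1
  · exact fun i => normBlock_density (hBpsd _ _)
  -- the main estimate
  let T : Fin m → Matrix (Bool × e) (Bool × e) ℂ := fun a => gadId γ ν (W a)
  have hTpsd : ∀ a, (T a).PosSemidef := fun a => gadId_posSemidef hγ hν (hWd a).1
  have hTbar : (∑ a, (q a : ℂ) • T a).PosSemidef := sum_smul_psd hq0 hTpsd
  let A : Matrix e e ℂ := block (∑ a, (q a : ℂ) • T a) false false
  let A' : Matrix e e ℂ := block (∑ a, (q a : ℂ) • T a) true true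
  have hApsd : A.PosSemidef := block_psd hTbar false
  have hA'psd : A'.PosSemidef := block_psd hTbar true
  have hA : A = ∑ a, (q a : ℂ) • (((1 - γ * ν : ℝ) : ℂ) • Q a false + ((γ * (1 - ν) : ℝ) : ℂ) • Q a true) := by
    simp only [A, block_sum_smul]
    refine Finset.sum_congr rfl fun a _ => ?_
    rw [block_gadId_ff]
  have hA' : A' = ∑ a, (q a : ℂ) • (((γ * ν : ℝ) : ℂ) • Q a false + ((1 - γ + γ * ν : ℝ) : ℂ) • Q a true) := by
    simp only [A', block_sum_smul]
    refine Finset.sum_congr rfl fun a _ => ?_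
    rw [block_gadId_tt]
  let C : Matrix e e ℂ := ∑ a, (q a : ℂ) • (Q a false + Q a true)
  have hAC : A + A' = C := by
    rw [hA, hA', ← Finset.sum_add_distrib]
    refine Finset.sum_congr rfl fun a _ => ?_
    rw [← smul_add]
    congr 1
    ext i j
    simp only [Matrix.add_apply, Matrix.smul_apply, smul_eq_mul]
    push_cast
    ring
  have htrQ : ∀ (x y : ℝ) (a : Fin m), (((x : ℂ) • Q a false + (y : ℂ) • Q a true)).trace.re
      = x * r a false + y * r a true := by
    intro x y a
    rw [Matrix.trace_add, Matrix.trace_smul, Matrix.trace_smul, Complex.add_re]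
    simp [hrQ]
  have htrA' : A'.trace.re = (1 - γ) * (∑ a, q a * p a) + γ * ν := by
    rw [hA', re_trace_sum_smul]
    simp only [htrQ]
    have e1 : ∀ a, q a * ((γ * ν) * r a false + (1 - γ + γ * ν) * r a true)
        = (1 - γ) * (q a * p a) + q a * (γ * ν) := by
      intro a
      rw [hpf a]
      simp only [p]
      ring
    rw [Finset.sum_congr rfl (fun a _ => e1 a), Finset.sum_add_distrib, ← Finset.mul_sum,
      ← Finset.sum_mul, hq1, one_mul]
  have htrC : C.trace.re = 1 := by
    simp only [C]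
    rw [re_trace_sum_smul]
    simp only [Matrix.trace_add, Complex.add_re, hrQ, hrsum, mul_one]
    exact hq1
  have htrA : A.trace.re + A'.trace.re = 1 := by
    rw [← htrC, ← hAC, Matrix.trace_add, Complex.add_re]
  -- dephasing and concavity
  have h1 := vnEntropy_le_blocks hTbar
  have h2 := vnEntropy_concave hApsd hA'psd
  rw [htrA, hAC] at h2
  have hbin : Real.binEntropy A'.trace.re = Real.negMulLog A.trace.re + Real.negMulLog A'.trace.re := by
    rw [Real.binEntropy_eq_negMulLog_add_negMulLog_one_sub]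
    have : 1 - A'.trace.re = A.trace.re := by linarith
    rw [this]; ring
  rw [← htrA'] at *
  -- (Z_g)
  have hZg : ∀ a, gadG γ ν (p a) + vnEntropy (Q a false) + vnEntropy (Q a true)
      - (Real.negMulLog (r a false) + Real.negMulLog (r a true)) ≤ vnEntropy (T a) := by
    intro a
    have h := Zg hγ hν (hWd a).1 (hWd a).2
    have hpp : (block (W a) true true).trace.re = p a := hrQ a true
    rw [hpp, Real.binEntropy_eq_negMulLog_add_negMulLog_one_sub] at h
    have : 1 - p a = r a false := (hpf a).symm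
    rw [this] at h
    simp only [Q, T, p] at *
    linarith
  -- the entropy of the `Ψ`-ensemble
  have hΨσ : ∀ a s, r a s * vnEntropy (Ψ (σ (a, s))) = vnEntropy (Q a s) - Real.negMulLog (r a s) := by
    intro a s
    exact entropy_normBlock hΨ (hBpsd a s) (hQpsd a s)
  have hΨavg : (∑ i, ((w (E.symm i) : ℝ) : ℂ) • Ψ (σ (E.symm i))) = C := by
    rw [sum_E (fun x => ((w x : ℝ) : ℂ) • Ψ (σ x))]
    refine Finset.sum_congr rfl fun a _ => ?_
    have key : ∀ s, ((w (a, s) : ℝ) : ℂ) • Ψ (σ (a, s)) = (q a : ℂ) • Q a s := by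
      intro s
      have h3 : Ψ (((r a s : ℝ) : ℂ) • σ (a, s)) = ((r a s : ℝ) : ℂ) • Ψ (σ (a, s)) :=
        hΨ.1.map_smul _ _
      have h4 : ((r a s : ℝ) : ℂ) • σ (a, s) = B a s := smul_normBlock (hBpsd a s)
      rw [h4] at h3
      rw [hQΨ, h3, smul_smul]
      simp only [w]
      push_cast
      rfl
    rw [key, key, smul_add]
  have hχΨ : holevoInfo Ψ (fun i => w (E.symm i)) (fun i => σ (E.symm i)) =
      vnEntropy C - ∑ a, q a * (vnEntropy (Q a false) - Real.negMulLog (r a false)
        + (vnEntropy (Q a true) - Real.negMulLog (r a true))) := by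
    unfold holevoInfo
    rw [hΨavg, sum_E (fun x => w x * vnEntropy (Ψ (σ x)))]
    congr 1
    refine Finset.sum_congr rfl fun a _ => ?_
    have hf := hΨσ a false
    have ht := hΨσ a true
    simp only [w, mul_assoc, hf, ht]
    ring
  have hχT : holevoInfo (qubitTensor (gadMap γ ν) Ψ) q ρ =
      vnEntropy (∑ a, (q a : ℂ) • T a) - ∑ a, q a * vnEntropy (T a) := rfl
  rw [hχT, hχΨ]
  have hsum : ∑ a, q a * gadG γ ν (p a) + ∑ a, q a * (vnEntropy (Q a false) - Real.negMulLog (r a false)
        + (vnEntropy (Q a true) - Real.negMulLog (r a true))) ≤ ∑ a, q a * vnEntropy (T a) := by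
    rw [← Finset.sum_add_distrib]
    refine Finset.sum_le_sum fun a _ => ?_
    have := mul_le_mul_of_nonneg_left (hZg a) (hq0 a)
    nlinarith [this]
  simp only [Real.negMulLog_one] at h2
  rw [hbin]
  linarith

end Crest.Agent.GADAdd
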