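import Crest.Agent.Lib.GADAdd.Spectral
import Crest.Prelude.Def_AmpDamp

/-!
# Product states and product ensembles for `gadMap ⊗ Ψ` (row 341)
-/

set_option autoImplicit false

open Matrix
open scoped ComplexOrder Kronecker

namespace Crest.Agent.GADAdd
open Crest.Quantum Crest.MathPhysics.AmpDamp

variable {d e : Type} [Fintype d] [DecidableEq d] [Fintype e] [DecidableEq e]

/-- Sum form of `gadMap`: it is given by its transfer coefficients. -/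
theorem gadMap_apply_eq_sum_coeff (γ ν : ℝ) (ρ : Matrix Bool Bool ℂ) (s t : Bool) :
    ∑ s' : Bool, ∑ t' : Bool, qubitCoeff (gadMap γ ν) s t s' t' * ρ s' t' = gadMap γ ν ρ s t := by
  cases s <;> cases t <;>
    simp [qubitCoeff, gadMap, Matrix.single_apply] <;> ring

/-- Product states: `(Φ ⊗ Ψ)(ρ₁ ⊗ ρ₂) = Φ ρ₁ ⊗ Ψ ρ₂`. -/
theorem qubitTensor_kronecker {γ ν : ℝ} {Ψ : Matrix d d ℂ → Matrix e e ℂ} (hΨ : IsLinearMap ℂ Ψ)
    (ρ₁ : Matrix Bool Bool ℂ) (ρ₂ : Matrix d d ℂ) :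
    qubitTensor (gadMap γ ν) Ψ (ρ₁ ⊗ₖ ρ₂) = gadMap γ ν ρ₁ ⊗ₖ Ψ ρ₂ := by
  ext ⟨s, i⟩ ⟨t, j⟩
  have hb : ∀ s' t', block (ρ₁ ⊗ₖ ρ₂) s' t' = ρ₁ s' t' • ρ₂ := by
    intro s' t'
    ext i j
    simp [block, kroneckerMap_apply]
  simp only [qubitTensor, of_apply, hb, hΨ.map_smul, Matrix.smul_apply, smul_eq_mul,
    kroneckerMap_apply]
  rw [← gadMap_apply_eq_sum_coeff]
  simp only [Finset.sum_mul]
  refine Finset.sum_congr rfl fun s' _ => Finset.sum_congr rfl fun t' _ => ?_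
  ring

/-! ### Positivity of `gadMap` -/

/-- Kraus operators. -/
noncomputable def gadKraus (γ ν : ℝ) : Fin 4 → Matrix Bool Bool ℂ := fun i =>
  let a : ℂ := (Real.sqrt (1 - ν) : ℝ)
  let b : ℂ := (Real.sqrt ν : ℝ)
  let c : ℂ := (Real.sqrt (1 - γ) : ℝ)
  let f : ℂ := (Real.sqrt γ : ℝ)
  match i with
  | 0 => Matrix.of fun s t => if s = false ∧ t = false then a else if s = true ∧ t = true then a * c else 0
  | 1 => Matrix.of fun s t => if s = false ∧ t = true then a * f else 0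
  | 2 => Matrix.of fun s t => if s = false ∧ t = false then b * c else if s = true ∧ t = true then b else 0
  | 3 => Matrix.of fun s t => if s = true ∧ t = false then b * f else 0

theorem gadMap_eq_kraus {γ ν : ℝ} (hγ : γ ∈ Set.Icc (0 : ℝ) 1) (hν : ν ∈ Set.Icc (0 : ℝ) 1)
    (M : Matrix Bool Bool ℂ) :
    gadMap γ ν M = ∑ i, gadKraus γ ν i * M * (gadKraus γ ν i)ᴴ := by
  have ha : ((Real.sqrt (1 - ν) : ℝ) : ℂ) * ((Real.sqrt (1 - ν) : ℝ) : ℂ) = 1 - (ν : ℂ) := by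
    rw [← Complex.ofReal_mul, Real.mul_self_sqrt (by linarith [hν.2])]; push_cast; ring
  have hb : ((Real.sqrt ν : ℝ) : ℂ) * ((Real.sqrt ν : ℝ) : ℂ) = (ν : ℂ) := by
    rw [← Complex.ofReal_mul, Real.mul_self_sqrt hν.1]
  have hc : ((Real.sqrt (1 - γ) : ℝ) : ℂ) * ((Real.sqrt (1 - γ) : ℝ) : ℂ) = 1 - (γ : ℂ) := by
    rw [← Complex.ofReal_mul, Real.mul_self_sqrt (by linarith [hγ.2])]; push_cast; ring
  have hf : ((Real.sqrt γ : ℝ) : ℂ) * ((Real.sqrt γ : ℝ) : ℂ) = (γ : ℂ) := by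
    rw [← Complex.ofReal_mul, Real.mul_self_sqrt hγ.1]
  ext s t
  simp only [Matrix.sum_apply, Fin.sum_univ_four, gadKraus, Matrix.mul_apply, Fintype.sum_bool,
    conjTranspose_apply, of_apply, gadMap]
  cases s <;> cases t <;> simp
  · generalize (Real.sqrt (1 - ν) : ℂ) = A at *
    generalize (Real.sqrt ν : ℂ) = B at *
    generalize (Real.sqrt (1 - γ) : ℂ) = C at *
    generalize (Real.sqrt γ : ℂ) = F at *
    linear_combination (-(M false false + F * F * M true true)) * ha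
      - (1 - (ν : ℂ)) * M true true * hf - C * C * M false false * hb - (ν : ℂ) * M false false * hc
  · generalize (Real.sqrt (1 - ν) : ℂ) = A at *
    generalize (Real.sqrt ν : ℂ) = B at *
    generalize (Real.sqrt (1 - γ) : ℂ) = C at *
    linear_combination (-(C * M false true)) * ha - C * M false true * hb
  · generalize (Real.sqrt (1 - ν) : ℂ) = A at *
    generalize (Real.sqrt ν : ℂ) = B at *
    generalize (Real.sqrt (1 - γ) : ℂ) = C at *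
    linear_combination (-(C * M true false)) * ha - C * M true false * hb
  · generalize (Real.sqrt (1 - ν) : ℂ) = A at *
    generalize (Real.sqrt ν : ℂ) = B at *
    generalize (Real.sqrt (1 - γ) : ℂ) = C at *
    generalize (Real.sqrt γ : ℂ) = F at *
    linear_combination (-(C * C * M true true)) * ha - (M true true + F * F * M false false) * hb
      - (ν : ℂ) * M false false * hf - (1 - (ν : ℂ)) * M true true * hc

theorem gadMap_posSemidef {γ ν : ℝ} (hγ : γ ∈ Set.Icc (0 : ℝ) 1) (hν : ν ∈ Set.Icc (0 : ℝ) 1)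
    {M : Matrix Bool Bool ℂ} (hM : M.PosSemidef) : (gadMap γ ν M).PosSemidef := by
  rw [gadMap_eq_kraus hγ hν]
  exact posSemidef_sum Finset.univ fun i _ => hM.mul_mul_conjTranspose_same _

theorem gadMap_trace (γ ν : ℝ) (M : Matrix Bool Bool ℂ) : (gadMap γ ν M).trace = M.trace := by
  simp [Matrix.trace, gadMap]
  ring

theorem gadMap_isDensity {γ ν : ℝ} (hγ : γ ∈ Set.Icc (0 : ℝ) 1) (hν : ν ∈ Set.Icc (0 : ℝ) 1)
    {M : Matrix Bool Bool ℂ} (hM : IsDensity M) : IsDensity (gadMap γ ν M) :=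
  ⟨gadMap_posSemidef hγ hν hM.1, by rw [gadMap_trace]; exact hM.2⟩

theorem IsChannel.posSemidef' {Ψ : Matrix d d ℂ → Matrix e e ℂ} (hΨ : IsChannel Ψ)
    {M : Matrix d d ℂ} (hM : M.PosSemidef) : (Ψ M).PosSemidef := by
  have h1 : (M.submatrix (Prod.snd : Fin 1 × d → d) Prod.snd).PosSemidef := hM.submatrix _
  have h2 := hΨ.2.1 1 _ h1
  have h3 := h2.submatrix (fun i : e => ((0 : Fin 1), i))
  have hb : block (M.submatrix (Prod.snd : Fin 1 × d → d) Prod.snd) (0 : Fin 1) 0 = M := by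
    ext i j; simp [block]
  convert h3 using 1
  ext i j
  simp [blockwise, hb]

theorem IsChannel.isDensity' {Ψ : Matrix d d ℂ → Matrix e e ℂ} (hΨ : IsChannel Ψ)
    {M : Matrix d d ℂ} (hM : IsDensity M) : IsDensity (Ψ M) :=
  ⟨IsChannel.posSemidef' hΨ hM.1, by rw [hΨ.2.2]; exact hM.2⟩

/-- The product of two density matrices is a density matrix. -/
theorem isDensity_kronecker {n m : Type*} [Fintype n] [Fintype m] {A : Matrix n n ℂ}
    {B : Matrix m m ℂ} (hA : IsDensity A) (hB : IsDensity B) : IsDensity (A ⊗ₖ B) :=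
  ⟨hA.1.kronecker hB.1, by rw [trace_kronecker, hA.2, hB.2, one_mul]⟩

/-- Minimum output entropy, product states. -/
theorem minEntropy_product {γ ν : ℝ} (hγ : γ ∈ Set.Icc (0 : ℝ) 1) (hν : ν ∈ Set.Icc (0 : ℝ) 1)
    {Ψ : Matrix d d ℂ → Matrix e e ℂ} (hΨ : IsChannel Ψ)
    {ρ₁ : Matrix Bool Bool ℂ} {ρ₂ : Matrix d d ℂ} (h₁ : IsDensity ρ₁) (h₂ : IsDensity ρ₂) :
    ∃ ρ : Matrix (Bool × d) (Bool × d) ℂ, IsDensity ρ ∧
      vnEntropy (qubitTensor (gadMap γ ν) Ψ ρ) = vnEntropy (gadMap γ ν ρ₁) + vnEntropy (Ψ ρ₂) := by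
  refine ⟨ρ₁ ⊗ₖ ρ₂, isDensity_kronecker h₁ h₂, ?_⟩
  rw [qubitTensor_kronecker hΨ.1]
  have h₁' := gadMap_isDensity hγ hν h₁
  have h₂' := IsChannel.isDensity' hΨ h₂
  rw [vnEntropy_kronecker h₁'.1 h₂'.1, h₁'.2, h₂'.2]
  simp

theorem sum_smul_kronecker {n m ι κ : Type*} [Fintype ι] [Fintype κ] (x : ι → ℝ) (y : κ → ℝ)
    (A : ι → Matrix n n ℂ) (B : κ → Matrix m m ℂ) :
    (∑ a, (x a : ℂ) • A a : Matrix n n ℂ) ⊗ₖ (∑ b, (y b : ℂ) • B b : Matrix m m ℂ) =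
      (∑ a, ∑ b, ((x a * y b : ℝ) : ℂ) • (A a ⊗ₖ B b) : Matrix (n × m) (n × m) ℂ) := by
  ext ⟨i, j⟩ ⟨k, l⟩
  simp only [kroneckerMap_apply, Matrix.sum_apply, Matrix.smul_apply, smul_eq_mul,
    Finset.sum_mul, Finset.mul_sum]
  rw [Finset.sum_comm]
  apply Finset.sum_congr rfl
  intro a _
  apply Finset.sum_congr rfl
  intro b _
  push_cast
  ring

theorem isDensity_sum {n : Type*} [Fintype n] {m : ℕ} {q : Fin m → ℝ} {ρ : Fin m → Matrix n n ℂ}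
    (h : IsEnsemble q ρ) : IsDensity (∑ a, (q a : ℂ) • ρ a : Matrix n n ℂ) := by
  obtain ⟨hq, hs, hd⟩ := h
  refine ⟨posSemidef_sum (x := fun a => (q a : ℂ) • ρ a) Finset.univ fun a _ => ?_, ?_⟩
  · exact (hd a).1.smul (by exact_mod_cast hq a)
  · rw [Matrix.trace_sum]
    simp only [Matrix.trace_smul, (hd _).2, smul_eq_mul, mul_one]
    exact_mod_cast hs

/-- Holevo information of a product ensemble. -/
theorem holevo_product {γ ν : ℝ} (hγ : γ ∈ Set.Icc (0 : ℝ) 1) (hν : ν ∈ Set.Icc (0 : ℝ) 1)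
    {Ψ : Matrix d d ℂ → Matrix e e ℂ} (hΨ : IsChannel Ψ)
    {m₁ m₂ : ℕ} {q₁ : Fin m₁ → ℝ} {ρ₁ : Fin m₁ → Matrix Bool Bool ℂ} {q₂ : Fin m₂ → ℝ}
    {ρ₂ : Fin m₂ → Matrix d d ℂ} (h₁ : IsEnsemble q₁ ρ₁) (h₂ : IsEnsemble q₂ ρ₂) :
    ∃ (m : ℕ) (q : Fin m → ℝ) (ρ : Fin m → Matrix (Bool × d) (Bool × d) ℂ), IsEnsemble q ρ ∧
      holevoInfo (gadMap γ ν) q₁ ρ₁ + holevoInfo Ψ q₂ ρ₂ =
        holevoInfo (qubitTensor (gadMap γ ν) Ψ) q ρ := by
  have h₁' := h₁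
  have h₂' := h₂
  obtain ⟨hq₁, hs₁, hd₁⟩ := h₁
  obtain ⟨hq₂, hs₂, hd₂⟩ := h₂
  let E : Fin m₁ × Fin m₂ ≃ Fin (m₁ * m₂) := finProdFinEquiv
  refine ⟨m₁ * m₂, fun a => q₁ (E.symm a).1 * q₂ (E.symm a).2,
    fun a => ρ₁ (E.symm a).1 ⊗ₖ ρ₂ (E.symm a).2, ⟨fun a => mul_nonneg (hq₁ _) (hq₂ _), ?_, fun a =>
      isDensity_kronecker (hd₁ _) (hd₂ _)⟩, ?_⟩
  · rw [← E.sum_comp]
    simp only [Equiv.symm_apply_apply, Fintype.sum_prod_type]
    simp only [← Finset.mul_sum, hs₂, mul_one, hs₁]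
  · have hP : IsDensity (∑ a, (q₁ a : ℂ) • gadMap γ ν (ρ₁ a)) :=
      isDensity_sum ⟨hq₁, hs₁, fun a => gadMap_isDensity hγ hν (hd₁ a)⟩
    have hQ : IsDensity (∑ b, (q₂ b : ℂ) • Ψ (ρ₂ b)) :=
      isDensity_sum ⟨hq₂, hs₂, fun b => IsChannel.isDensity' hΨ (hd₂ b)⟩
    have hkr : ∀ a b, vnEntropy (gadMap γ ν (ρ₁ a) ⊗ₖ Ψ (ρ₂ b)) =
        vnEntropy (gadMap γ ν (ρ₁ a)) + vnEntropy (Ψ (ρ₂ b)) := by
      intro a b
      have h₁ := gadMap_isDensity hγ hν (hd₁ a)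
      have h₂ := IsChannel.isDensity' hΨ (hd₂ b)
      rw [vnEntropy_kronecker h₁.1 h₂.1, h₁.2, h₂.2]
      simp
    unfold holevoInfo
    rw [← E.sum_comp (fun a => ((q₁ (E.symm a).1 * q₂ (E.symm a).2 : ℝ) : ℂ) •
        qubitTensor (gadMap γ ν) Ψ (ρ₁ (E.symm a).1 ⊗ₖ ρ₂ (E.symm a).2)),
      ← E.sum_comp (fun a => q₁ (E.symm a).1 * q₂ (E.symm a).2 *
        vnEntropy (qubitTensor (gadMap γ ν) Ψ (ρ₁ (E.symm a).1 ⊗ₖ ρ₂ (E.symm a).2)))]
    simp only [Equiv.symm_apply_apply, Fintype.sum_prod_type, qubitTensor_kronecker hΨ.1, hkr]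
    rw [← sum_smul_kronecker, vnEntropy_kronecker hP.1 hQ.1, hP.2, hQ.2]
    have hsum : ∑ a, ∑ b, q₁ a * q₂ b * (vnEntropy (gadMap γ ν (ρ₁ a)) + vnEntropy (Ψ (ρ₂ b))) =
        ∑ a, q₁ a * vnEntropy (gadMap γ ν (ρ₁ a)) + ∑ b, q₂ b * vnEntropy (Ψ (ρ₂ b)) := by
      have : ∀ a, ∑ b, q₁ a * q₂ b * (vnEntropy (gadMap γ ν (ρ₁ a)) + vnEntropy (Ψ (ρ₂ b))) =
          q₁ a * vnEntropy (gadMap γ ν (ρ₁ a)) + q₁ a * ∑ b, q₂ b * vnEntropy (Ψ (ρ₂ b)) := by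
        intro a
        calc ∑ b, q₁ a * q₂ b * (vnEntropy (gadMap γ ν (ρ₁ a)) + vnEntropy (Ψ (ρ₂ b)))
            = ∑ b, (q₁ a * vnEntropy (gadMap γ ν (ρ₁ a)) * q₂ b
                + q₁ a * (q₂ b * vnEntropy (Ψ (ρ₂ b)))) := by
              refine Finset.sum_congr rfl fun b _ => ?_
              ring
          _ = _ := by
              rw [Finset.sum_add_distrib, ← Finset.mul_sum, ← Finset.mul_sum, hs₂, mul_one]
      simp only [this, Finset.sum_add_distrib, ← Finset.sum_mul, hs₁, one_mul]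
    rw [hsum]
    simp
    ring

end Crest.Agent.GADAdd
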