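import Crest.Agent.Lib.GADAdd.Zg
import Crest.Agent.Lib.GADAdd.Product
import Crest.Agent.Lib.GADAdd.AddUpper

/-!
# Additivity statements for the GAD channel tensored with an arbitrary channel
-/

set_option autoImplicit false

open Matrix
open scoped ComplexOrder Kronecker

namespace Crest.Agent.GADAdd
open Crest.Quantum Crest.MathPhysics.AmpDamp

variable {d e : Type} [Fintype d] [DecidableEq d] [Fintype e] [DecidableEq e]

/-- The input states `u_p^{±}`: `[[1-p, ±√(p(1-p))],[±√(p(1-p)), p]]` (`ε = true` for `+`). -/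
noncomputable def uState (p : ℝ) (ε : Bool) : Matrix Bool Bool ℂ :=
  Matrix.of fun s t =>
    match s, t with
    | false, false => ((1 - p : ℝ) : ℂ)
    | true, true => (p : ℂ)
    | _, _ => (((if ε then 1 else -1) * Real.sqrt (p * (1 - p)) : ℝ) : ℂ)

theorem uS_charpoly_bool (M : Matrix Bool Bool ℂ) :
    M.charpoly = Polynomial.X ^ 2 - Polynomial.C M.trace * Polynomial.X + Polynomial.C
      (M false false * M true true - M false true * M true false) := by
  have h := Matrix.charpoly_reindex finTwoEquiv.symm M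
  rw [← h, Matrix.charpoly_fin_two]
  have e0 : finTwoEquiv 0 = false := rfl
  have e1 : finTwoEquiv 1 = true := rfl
  have h1 : (reindex finTwoEquiv.symm finTwoEquiv.symm M).trace = M.trace := by
    simp [Matrix.trace, Fin.sum_univ_two, e0, e1, add_comm]
  have h2 : (reindex finTwoEquiv.symm finTwoEquiv.symm M).det =
      M false false * M true true - M false true * M true false := by
    rw [Matrix.det_fin_two]
    simp [e0, e1]
  rw [h1, h2]

/-- Entropy of a real symmetric `2 × 2` matrix of trace one. -/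
theorem uS_vnEntropy_real (x z : ℝ) (A : Matrix Bool Bool ℂ) (hff : A false false = (x : ℂ))
    (htt : A true true = ((1 - x : ℝ) : ℂ)) (hft : A false true = (z : ℂ))
    (htf : A true false = (z : ℂ)) :
    vnEntropy A = Real.binEntropy ((1 + Real.sqrt (1 - 4 * (x * (1 - x) - z ^ 2))) / 2) := by
  have hA : A.IsHermitian := by
    ext s t
    cases s <;> cases t <;> simp [hff, htt, hft, htf, Matrix.conjTranspose_apply]
  set D : ℝ := x * (1 - x) - z ^ 2 with hD
  have hnn : 0 ≤ 1 - 4 * D := by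
    have : 1 - 4 * D = (2 * x - 1) ^ 2 + 4 * z ^ 2 := by rw [hD]; ring
    rw [this]; positivity
  set r : ℝ := Real.sqrt (1 - 4 * D) with hr
  have hr2 : r ^ 2 = 1 - 4 * D := Real.sq_sqrt hnn
  set lp : ℝ := (1 + r) / 2 with hlp
  set lm : ℝ := (1 - r) / 2 with hlm
  have hsum : lp + lm = 1 := by rw [hlp, hlm]; ring
  have hprod : lp * lm = D := by rw [hlp, hlm]; nlinarith
  have hchar : A.charpoly = ∏ b : Bool, (Polynomial.X - Polynomial.C (((fun b : Bool => if b then lp else lm) b : ℝ) : ℂ)) := by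
    rw [uS_charpoly_bool]
    have htr : A.trace = 1 := by
      simp [Matrix.trace, Fintype.sum_bool, hff, htt]
    have hdet : A false false * A true true - A false true * A true false = (D : ℂ) := by
      rw [hff, htt, hft, htf, hD]; push_cast; ring
    rw [htr, hdet, Fintype.prod_bool]
    simp only [if_true, Bool.false_eq_true, if_false]
    have e1 : (1 : ℂ) = ((lp + lm : ℝ) : ℂ) := by rw [hsum]; simp
    have e2 : (D : ℂ) = ((lp * lm : ℝ) : ℂ) := by rw [hprod]
    rw [e1, e2]
    push_cast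
    simp only [map_add, map_mul]
    ring
  rw [vnEntropy_eq_of_charpoly hA _ hchar, Fintype.sum_bool]
  simp only [if_true, Bool.false_eq_true, if_false]
  rw [Real.binEntropy_eq_negMulLog_add_negMulLog_one_sub]
  congr 2
  rw [hlp, hlm]; ring

theorem uState_density {p : ℝ} (hp : p ∈ Set.Icc (0 : ℝ) 1) (ε : Bool) : IsDensity (uState p ε) := by
  obtain ⟨hp0, hp1⟩ := hp
  constructor
  · set s : ℝ := if ε then 1 else -1 with hs
    have hs2 : s * s = 1 := by rw [hs]; cases ε <;> simp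
    let v : Bool → ℂ := fun b => if b then ((s * Real.sqrt p : ℝ) : ℂ) else (Real.sqrt (1 - p) : ℝ)
    have hv : uState p ε = Matrix.vecMulVec v (star v) := by
      have hsq1 : Real.sqrt p * Real.sqrt p = p := Real.mul_self_sqrt hp0
      have hsq2 : Real.sqrt (1 - p) * Real.sqrt (1 - p) = 1 - p := Real.mul_self_sqrt (by linarith)
      have hsq3 : Real.sqrt (p * (1 - p)) = Real.sqrt p * Real.sqrt (1 - p) := Real.sqrt_mul hp0 _
      ext a b
      cases a <;> cases b <;>
        simp only [uState, Matrix.of_apply, Matrix.vecMulVec_apply, v, Pi.star_apply, if_true,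
          Bool.false_eq_true, if_false, RCLike.star_def, Complex.conj_ofReal, ← Complex.ofReal_mul,
          Complex.ofReal_inj, hsq3, ← hs]
      · rw [hsq2]
      · ring
      · ring
      · calc p = (s * s) * (Real.sqrt p * Real.sqrt p) := by rw [hs2, hsq1]; ring
          _ = _ := by ring
    rw [hv]
    exact Matrix.posSemidef_vecMulVec_self_star v
  · simp [uState, Matrix.trace, Fintype.sum_bool]

theorem uS_gad_ff (γ ν : ℝ) (M : Matrix Bool Bool ℂ) : gadMap γ ν M false false =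
    ((1 - γ * ν : ℝ) : ℂ) * M false false + ((γ * (1 - ν) : ℝ) : ℂ) * M true true := by
  simp [gadMap]

theorem uS_gad_tt (γ ν : ℝ) (M : Matrix Bool Bool ℂ) : gadMap γ ν M true true =
    ((γ * ν : ℝ) : ℂ) * M false false + ((1 - γ + γ * ν : ℝ) : ℂ) * M true true := by
  simp [gadMap]

theorem uS_gad_ft (γ ν : ℝ) (M : Matrix Bool Bool ℂ) : gadMap γ ν M false true =
    ((Real.sqrt (1 - γ) : ℝ) : ℂ) * M false true := by
  simp [gadMap]

theorem uS_gad_tf (γ ν : ℝ) (M : Matrix Bool Bool ℂ) : gadMap γ ν M true false =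
    ((Real.sqrt (1 - γ) : ℝ) : ℂ) * M true false := by
  simp [gadMap]

theorem uS_state_ff (p : ℝ) (ε : Bool) : uState p ε false false = ((1 - p : ℝ) : ℂ) := rfl
theorem uS_state_tt (p : ℝ) (ε : Bool) : uState p ε true true = (p : ℂ) := rfl
theorem uS_state_ft (p : ℝ) (ε : Bool) : uState p ε false true =
    (((if ε then 1 else -1) * Real.sqrt (p * (1 - p)) : ℝ) : ℂ) := rfl
theorem uS_state_tf (p : ℝ) (ε : Bool) : uState p ε true false =
    (((if ε then 1 else -1) * Real.sqrt (p * (1 - p)) : ℝ) : ℂ) := rfl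

/-- `S(Φ(u_p^{±})) = g(p)`. -/
theorem vnEntropy_gad_uState {γ ν p : ℝ} (hγ : γ ∈ Set.Icc (0 : ℝ) 1) (hν : ν ∈ Set.Icc (0 : ℝ) 1)
    (hp : p ∈ Set.Icc (0 : ℝ) 1) (ε : Bool) :
    vnEntropy (gadMap γ ν (uState p ε)) = gadG γ ν p := by
  obtain ⟨hp0, hp1⟩ := hp
  obtain ⟨hγ0, hγ1⟩ := hγ
  set x : ℝ := (1 - γ * ν) * (1 - p) + (γ * (1 - ν)) * p with hx
  set z : ℝ := Real.sqrt (1 - γ) * ((if ε then 1 else -1) * Real.sqrt (p * (1 - p))) with hz
  have h := uS_vnEntropy_real x z (gadMap γ ν (uState p ε))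
    (by rw [uS_gad_ff, uS_state_ff, uS_state_tt, hx]; push_cast; ring)
    (by rw [uS_gad_tt, uS_state_ff, uS_state_tt, hx]; push_cast; ring)
    (by rw [uS_gad_ft, uS_state_ft, hz]; push_cast; ring)
    (by rw [uS_gad_tf, uS_state_tf, hz]; push_cast; ring)
  rw [h]
  unfold gadG
  have hD : x * (1 - x) - z ^ 2 = gadDet γ ν p := by
    have hz2 : z ^ 2 = (1 - γ) * (p * (1 - p)) := by
      rw [hz, mul_pow, mul_pow, Real.sq_sqrt (by linarith), Real.sq_sqrt (mul_nonneg hp0 (by linarith))]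
      cases ε <;> simp
    rw [hz2, hx]; unfold gadDet; ring
  rw [hD]

/-- The ensemble `{q_a/2, u_{p_a}^{±}}` has Holevo information
`h((1-γ) p̄ + γν) - ∑ q_a g(p_a)`. -/
theorem holevo_u_ensemble {γ ν : ℝ} (hγ : γ ∈ Set.Icc (0 : ℝ) 1) (hν : ν ∈ Set.Icc (0 : ℝ) 1)
    {m : ℕ} (q : Fin m → ℝ) (hq : ∀ a, 0 ≤ q a) (hq1 : ∑ a, q a = 1) (p : Fin m → ℝ)
    (hp : ∀ a, p a ∈ Set.Icc (0 : ℝ) 1) :
    ∃ (m₁ : ℕ) (q₁ : Fin m₁ → ℝ) (ρ₁ : Fin m₁ → Matrix Bool Bool ℂ), IsEnsemble q₁ ρ₁ ∧
      holevoInfo (gadMap γ ν) q₁ ρ₁ =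
        Real.binEntropy ((1 - γ) * (∑ a, q a * p a) + γ * ν) - ∑ a, q a * gadG γ ν (p a) := by
  classical
  let e : Fin m × Bool ≃ Fin (m * 2) := (Equiv.prodCongr (Equiv.refl _) finTwoEquiv.symm).trans finProdFinEquiv
  let Q : Fin m × Bool → ℝ := fun x => q x.1 / 2
  let R : Fin m × Bool → Matrix Bool Bool ℂ := fun x => uState (p x.1) x.2
  refine ⟨m * 2, fun i => Q (e.symm i), fun i => R (e.symm i), ⟨?_, ?_, ?_⟩, ?_⟩
  · intro i; exact div_nonneg (hq _) (by norm_num)
  · rw [Equiv.sum_comp e.symm Q, Fintype.sum_prod_type]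
    simp only [Fintype.sum_bool, Q]
    rw [← hq1]
    refine Finset.sum_congr rfl fun a _ => by ring
  · intro i; exact uState_density (hp _) _
  · unfold holevoInfo
    have hsecond : ∑ i, Q (e.symm i) * vnEntropy (gadMap γ ν (R (e.symm i))) =
        ∑ a, q a * gadG γ ν (p a) := by
      rw [Equiv.sum_comp e.symm (fun x => Q x * vnEntropy (gadMap γ ν (R x))), Fintype.sum_prod_type]
      refine Finset.sum_congr rfl fun a _ => ?_
      simp only [Fintype.sum_bool, Q, R]
      rw [vnEntropy_gad_uState hγ hν (hp a) true, vnEntropy_gad_uState hγ hν (hp a) false]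
      ring
    rw [hsecond]
    congr 1
    set pbar : ℝ := ∑ a, q a * p a with hpbar
    set xbar : ℝ := (1 - γ) * pbar + γ * ν with hxbar
    set A : Matrix Bool Bool ℂ := ∑ i, ((Q (e.symm i) : ℝ) : ℂ) • gadMap γ ν (R (e.symm i)) with hA
    have hAentry : ∀ s t : Bool, A s t = ∑ a, ((q a / 2 : ℝ) : ℂ) *
        (gadMap γ ν (uState (p a) true) s t + gadMap γ ν (uState (p a) false) s t) := by
      intro s t
      rw [hA, Matrix.sum_apply]
      simp only [Matrix.smul_apply, smul_eq_mul]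
      rw [Equiv.sum_comp e.symm (fun x => ((Q x : ℝ) : ℂ) * gadMap γ ν (R x) s t), Fintype.sum_prod_type]
      refine Finset.sum_congr rfl fun a _ => ?_
      simp only [Fintype.sum_bool, Q, R]
      ring
    have hqc : ∑ a, ((q a : ℝ) : ℂ) = 1 := by
      rw [← Complex.ofReal_sum, hq1]; simp
    have hpc : ∑ a, ((q a : ℝ) : ℂ) * ((p a : ℝ) : ℂ) = ((pbar : ℝ) : ℂ) := by
      rw [hpbar]; push_cast; rfl
    have hff : A false false = ((1 - xbar : ℝ) : ℂ) := by
      rw [hAentry]
      have : ∀ a, ((q a / 2 : ℝ) : ℂ) * (gadMap γ ν (uState (p a) true) false false +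
          gadMap γ ν (uState (p a) false) false false) =
          ((q a : ℝ) : ℂ) * ((1 - γ * ν : ℝ) : ℂ) + ((q a : ℝ) : ℂ) * ((p a : ℝ) : ℂ) * ((γ - 1 : ℝ) : ℂ) := by
        intro a
        rw [uS_gad_ff, uS_gad_ff, uS_state_ff, uS_state_ff, uS_state_tt, uS_state_tt]
        push_cast; ring
      simp only [this]
      rw [Finset.sum_add_distrib, ← Finset.sum_mul, ← Finset.sum_mul, hqc, hpc, hxbar]
      push_cast; ring
    have htt : A true true = ((1 - (1 - xbar) : ℝ) : ℂ) := by
      rw [hAentry]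
      have : ∀ a, ((q a / 2 : ℝ) : ℂ) * (gadMap γ ν (uState (p a) true) true true +
          gadMap γ ν (uState (p a) false) true true) =
          ((q a : ℝ) : ℂ) * ((γ * ν : ℝ) : ℂ) + ((q a : ℝ) : ℂ) * ((p a : ℝ) : ℂ) * ((1 - γ : ℝ) : ℂ) := by
        intro a
        rw [uS_gad_tt, uS_gad_tt, uS_state_ff, uS_state_ff, uS_state_tt, uS_state_tt]
        push_cast; ring
      simp only [this]
      rw [Finset.sum_add_distrib, ← Finset.sum_mul, ← Finset.sum_mul, hqc, hpc, hxbar]
      push_cast; ring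
    have hft : A false true = ((0 : ℝ) : ℂ) := by
      rw [hAentry]
      refine (Finset.sum_eq_zero fun a _ => ?_).trans (by simp)
      rw [uS_gad_ft, uS_gad_ft, uS_state_ft, uS_state_ft]
      simp
    have htf : A true false = ((0 : ℝ) : ℂ) := by
      rw [hAentry]
      refine (Finset.sum_eq_zero fun a _ => ?_).trans (by simp)
      rw [uS_gad_tf, uS_gad_tf, uS_state_tf, uS_state_tf]
      simp
    rw [uS_vnEntropy_real (1 - xbar) 0 A hff htt hft htf]
    have hD : 1 - 4 * ((1 - xbar) * (1 - (1 - xbar)) - 0 ^ 2) = (1 - 2 * xbar) ^ 2 := by ring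
    rw [hD, Real.sqrt_sq_eq_abs]
    rcases le_total 0 (1 - 2 * xbar) with h | h
    · rw [abs_of_nonneg h]
      have : (1 + (1 - 2 * xbar)) / 2 = 1 - xbar := by ring
      rw [this, Real.binEntropy_one_sub]
    · rw [abs_of_nonpos h]
      have : (1 + -(1 - 2 * xbar)) / 2 = xbar := by ring
      rw [this]

/-- Minimum output entropy, lower bound. -/
theorem minEntropy_lower {γ ν : ℝ} (hγ : γ ∈ Set.Icc (0 : ℝ) 1) (hν : ν ∈ Set.Icc (0 : ℝ) 1)
    [Nonempty d] [Nonempty e] {Ψ : Matrix d d ℂ → Matrix e e ℂ} (hΨ : IsChannel Ψ)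
    {ρ : Matrix (Bool × d) (Bool × d) ℂ} (hρ : IsDensity ρ) :
    ∃ (ρ₁ : Matrix Bool Bool ℂ) (ρ₂ : Matrix d d ℂ), IsDensity ρ₁ ∧ IsDensity ρ₂ ∧
      vnEntropy (gadMap γ ν ρ₁) + vnEntropy (Ψ ρ₂) ≤ vnEntropy (qubitTensor (gadMap γ ν) Ψ ρ) := by
  let W : Matrix (Bool × e) (Bool × e) ℂ := blockwise (k := Bool) Ψ ρ
  have hWd : IsDensity W := blockwise_density hΨ hρ
  let B : Bool → Matrix d d ℂ := fun s => block ρ s s
  let Q : Bool → Matrix e e ℂ := fun s => block W s s
  have hQΨ : ∀ s, Q s = Ψ (B s) := fun s => rfl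
  have hQpsd : ∀ s, (Q s).PosSemidef := fun s => block_psd hWd.1 s
  have hBpsd : ∀ s, (B s).PosSemidef := fun s => block_psd hρ.1 s
  let r : Bool → ℝ := fun s => (B s).trace.re
  have hrQ : ∀ s, (Q s).trace.re = r s := by
    intro s
    rw [hQΨ, hΨ.2.2]
  have hr0 : ∀ s, 0 ≤ r s := fun s => au_trace_re_nonneg (hBpsd s)
  have hrsum : r false + r true = 1 := by
    have h1 := trace_bool_blocks ρ
    rw [hρ.2] at h1
    have h2 := congrArg Complex.re h1
    simpa [r, B] using h2.symm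
  have hp : r true ∈ Set.Icc (0 : ℝ) 1 := ⟨hr0 true, by have := hr0 false; linarith⟩
  have hpf : 1 - r true = r false := by linarith
  have hZg := Zg hγ hν hWd.1 hWd.2
  have hpp : (block W true true).trace.re = r true := hrQ true
  rw [hpp, Real.binEntropy_eq_negMulLog_add_negMulLog_one_sub, hpf] at hZg
  have hu := vnEntropy_gad_uState hγ hν hp true
  have hσ : ∀ s, r s * vnEntropy (Ψ (normBlock (B s))) = vnEntropy (Q s) - Real.negMulLog (r s) :=
    fun s => entropy_normBlock hΨ (hBpsd s) (hQpsd s)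
  have hf := hσ false
  have ht := hσ true
  have hT : vnEntropy (qubitTensor (gadMap γ ν) Ψ ρ) = vnEntropy (gadId γ ν W) := rfl
  have hQf : block W false false = Q false := rfl
  have hQt : block W true true = Q true := rfl
  rw [hQf, hQt] at hZg
  refine ⟨uState (r true) true, ?_⟩
  rcases le_total (vnEntropy (Ψ (normBlock (B false)))) (vnEntropy (Ψ (normBlock (B true)))) with h | h
  · refine ⟨normBlock (B false), uState_density hp true, normBlock_density (hBpsd _), ?_⟩
    rw [hu, hT]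
    have h3 := mul_le_mul_of_nonneg_left h (hr0 true)
    have h4 : vnEntropy (Ψ (normBlock (B false))) =
        (r false + r true) * vnEntropy (Ψ (normBlock (B false))) := by rw [hrsum, one_mul]
    nlinarith
  · refine ⟨normBlock (B true), uState_density hp true, normBlock_density (hBpsd _), ?_⟩
    rw [hu, hT]
    have h3 := mul_le_mul_of_nonneg_left h (hr0 false)
    have h4 : vnEntropy (Ψ (normBlock (B true))) =
        (r false + r true) * vnEntropy (Ψ (normBlock (B true))) := by rw [hrsum, one_mul]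
    nlinarith

end Crest.Agent.GADAdd
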