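import Mathlib
import Crest.Prelude.Def_AmpDamp

/-!
# Convexity of `g(p) = h((1+√(1-4 D(p)))/2)` with `D(p) = γν(1-ν) + γ(1-γ)(p-ν)²` on `[0,1]`,
and continuity of the rate function.
-/

set_option autoImplicit false

open Real Set

namespace Crest.Agent.GADAdd

/-- `log(1+r) - log(1-r) ≥ 2 r` for `0 ≤ r < 1`. -/
theorem two_mul_le_log_sub {r : ℝ} (h0 : 0 ≤ r) (h1 : r < 1) :
    2 * r ≤ Real.log (1 + r) - Real.log (1 - r) := by
  have h2 : 0 < 1 - r := by linarith
  have h3 : 0 < 1 + r := by linarith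
  have hx : 0 ≤ 2 * r / (1 - r) := by positivity
  have := Real.le_log_one_add_of_nonneg hx
  have e1 : 1 + 2 * r / (1 - r) = (1 + r) / (1 - r) := by field_simp; ring
  have e2 : 2 * (2 * r / (1 - r)) / (2 * r / (1 - r) + 2) = 2 * r := by
    have : 2 * r / (1 - r) + 2 = 2 / (1 - r) := by field_simp; ring
    rw [this]; field_simp
  rw [e1, e2, Real.log_div h3.ne' h2.ne'] at this
  exact this

section Main

variable {γ ν : ℝ}

/-- Local abbreviation for the determinant function. -/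
private noncomputable def DD (γ ν p : ℝ) : ℝ := γ * ν * (1 - ν) + γ * (1 - γ) * (p - ν) ^ 2

private theorem DD_identity (γ ν p : ℝ) :
    1 - 4 * DD γ ν p = (1 - 2 * ((1 - γ) * p + γ * ν)) ^ 2 + 4 * (1 - γ) * (p * (1 - p)) := by
  unfold DD; ring

private theorem DD_lt (_hγ0 : 0 < γ) (hγ1 : γ < 1) {p : ℝ} (hp0 : 0 < p) (hp1 : p < 1) :
    0 < 1 - 4 * DD γ ν p := by
  rw [DD_identity]
  have : 0 < 4 * (1 - γ) * (p * (1 - p)) := by
    have h1 : 0 < 1 - γ := by linarith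
    have h2 : 0 < 1 - p := by linarith
    positivity
  nlinarith [sq_nonneg (1 - 2 * ((1 - γ) * p + γ * ν))]

private theorem DD_pos (hγ0 : 0 < γ) (hγ1 : γ < 1) (hν0 : 0 ≤ ν) (hν1 : ν ≤ 1) {p : ℝ}
    (hp0 : 0 < p) (hp1 : p < 1) : 0 < DD γ ν p := by
  unfold DD
  have h1 : 0 < 1 - γ := by linarith
  have hc : 0 ≤ γ * ν * (1 - ν) := by
    have : 0 ≤ 1 - ν := by linarith
    positivity
  by_cases hpν : p = ν
  · subst hpν
    have : 0 < 1 - p := by linarith
    have : 0 < γ * p * (1 - p) := by positivity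
    simpa using this
  · have : 0 < (p - ν) ^ 2 := by
      have : p - ν ≠ 0 := sub_ne_zero.mpr hpν
      positivity
    have : 0 < γ * (1 - γ) * (p - ν) ^ 2 := by positivity
    linarith

/-- The second derivative is nonnegative: pure algebra from `L ≥ 2 r`. -/
private theorem second_deriv_nonneg {κ D' L r : ℝ} (hκ : 0 ≤ κ) (hr0 : 0 < r) (hr1 : r < 1)
    (hL : 2 * r ≤ L) (hD' : D' ^ 2 ≤ κ * (1 - r ^ 2)) :
    0 ≤ D' ^ 2 * (2 * L / r ^ 3 - 4 / (r ^ 2 * (1 - r ^ 2))) + 2 * κ * L / r := by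
  have h1 : 0 < 1 - r ^ 2 := by nlinarith
  have hr2 : 0 < r ^ 2 := by positivity
  have hr3 : 0 < r ^ 3 := by positivity
  have hLpos : 0 ≤ L := by linarith
  have hsecond : 0 ≤ 2 * κ * L / r := by positivity
  by_cases hc : 0 ≤ 2 * L / r ^ 3 - 4 / (r ^ 2 * (1 - r ^ 2))
  · have : 0 ≤ D' ^ 2 * (2 * L / r ^ 3 - 4 / (r ^ 2 * (1 - r ^ 2))) :=
      mul_nonneg (sq_nonneg _) hc
    linarith
  · push Not at hc
    have hle : (κ * (1 - r ^ 2)) * (2 * L / r ^ 3 - 4 / (r ^ 2 * (1 - r ^ 2))) ≤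
        D' ^ 2 * (2 * L / r ^ 3 - 4 / (r ^ 2 * (1 - r ^ 2))) :=
      mul_le_mul_of_nonpos_right hD' hc.le
    have heq : (κ * (1 - r ^ 2)) * (2 * L / r ^ 3 - 4 / (r ^ 2 * (1 - r ^ 2))) + 2 * κ * L / r =
        2 * κ * (L - 2 * r) / r ^ 3 := by
      field_simp
      ring
    have hfin : 0 ≤ 2 * κ * (L - 2 * r) / r ^ 3 := by
      have : 0 ≤ L - 2 * r := by linarith
      positivity
    linarith

/-- Convexity of `g`, formula version. -/
theorem gad_g_convexOn (hγ : γ ∈ Icc (0 : ℝ) 1) (hν : ν ∈ Icc (0 : ℝ) 1) :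
    ConvexOn ℝ (Icc (0 : ℝ) 1) (fun p : ℝ =>
      Real.binEntropy ((1 + Real.sqrt (1 - 4 * (γ * ν * (1 - ν) + γ * (1 - γ) * (p - ν) ^ 2))) / 2)) := by
  obtain ⟨hγ0, hγ1⟩ := hγ
  obtain ⟨hν0, hν1⟩ := hν
  rcases hγ0.eq_or_lt with rfl | hγ0'
  · simpa using convexOn_const (𝕜 := ℝ) (E := ℝ) (Real.binEntropy 1) (convex_Icc (0 : ℝ) 1)
  rcases hγ1.eq_or_lt with rfl | hγ1'
  · simpa using convexOn_const (𝕜 := ℝ) (E := ℝ)
      (Real.binEntropy ((1 + √(1 - 4 * (1 * ν * (1 - ν)))) / 2)) (convex_Icc (0 : ℝ) 1)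
  -- main case
  set κ : ℝ := γ * (1 - γ) with hκdef
  have hκ : 0 ≤ κ := by
    have : 0 ≤ 1 - γ := by linarith
    positivity
  have hDD : ∀ p, γ * ν * (1 - ν) + κ * (p - ν) ^ 2 = DD γ ν p := fun p => by simp [DD, hκdef]
  -- first and second derivative
  let R : ℝ → ℝ := fun p => Real.sqrt (1 - 4 * DD γ ν p)
  let D' : ℝ → ℝ := fun p => 2 * κ * (p - ν)
  let L : ℝ → ℝ := fun p => Real.log (1 + R p) - Real.log (1 - R p)
  let f' : ℝ → ℝ := fun p => L p * D' p / R p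
  let f'' : ℝ → ℝ := fun p => D' p ^ 2 * (2 * L p / R p ^ 3 - 4 / (R p ^ 2 * (1 - R p ^ 2)))
      + 2 * κ * L p / R p
  have hRpos : ∀ p ∈ Ioo (0 : ℝ) 1, 0 < R p := fun p hp =>
    Real.sqrt_pos.mpr (DD_lt hγ0' hγ1' hp.1 hp.2)
  have hRsq : ∀ p ∈ Ioo (0 : ℝ) 1, R p ^ 2 = 1 - 4 * DD γ ν p := fun p hp =>
    Real.sq_sqrt (DD_lt hγ0' hγ1' hp.1 hp.2).le
  have hRlt : ∀ p ∈ Ioo (0 : ℝ) 1, R p < 1 := fun p hp => by
    have h1 := hRsq p hp
    have h2 := DD_pos hγ0' hγ1' hν0 hν1 hp.1 hp.2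
    have h3 := hRpos p hp
    nlinarith
  have hDer_D : ∀ p, HasDerivAt (DD γ ν) (D' p) p := fun p => by
    have h1 : HasDerivAt (fun p : ℝ => (p - ν) ^ 2) (2 * (p - ν)) p := by
      have := ((hasDerivAt_id' p).sub_const ν).fun_pow 2
      simpa using this
    have h2 := (h1.const_mul κ).const_add (γ * ν * (1 - ν))
    have e : DD γ ν = fun p => γ * ν * (1 - ν) + κ * (p - ν) ^ 2 := by
      funext q; exact (hDD q).symm
    rw [e]
    refine h2.congr_deriv ?_
    show _ = 2 * κ * (p - ν)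
    ring
  have hDer_R : ∀ p ∈ Ioo (0 : ℝ) 1, HasDerivAt R (-2 * D' p / R p) p := fun p hp => by
    have h1 : HasDerivAt (fun p => 1 - 4 * DD γ ν p) (-(4 * D' p)) p := by
      simpa using ((hDer_D p).const_mul 4).const_sub 1
    have h2 := h1.sqrt (DD_lt hγ0' hγ1' hp.1 hp.2).ne'
    refine h2.congr_deriv ?_
    have hR := hRpos p hp
    show _ / (2 * R p) = -2 * D' p / R p
    field_simp
    ring
  have hDer_L : ∀ p ∈ Ioo (0 : ℝ) 1,
      HasDerivAt L (2 / (1 - R p ^ 2) * (-2 * D' p / R p)) p := fun p hp => by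
    have hR0 := hRpos p hp
    have hR1 := hRlt p hp
    have h1 : HasDerivAt (fun q => Real.log (1 + R q)) ((-2 * D' p / R p) / (1 + R p)) p :=
      ((hDer_R p hp).const_add 1).log (by linarith)
    have h2 : HasDerivAt (fun q => Real.log (1 - R q)) ((-(-2 * D' p / R p)) / (1 - R p)) p :=
      ((hDer_R p hp).const_sub 1).log (by linarith)
    refine (h1.sub h2).congr_deriv ?_
    have h3 : 1 - R p ≠ 0 := by linarith
    have h4 : 1 + R p ≠ 0 := by linarith
    have h5 : 1 - R p ^ 2 ≠ 0 := by nlinarith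
    have h6 : R p ≠ 0 := hR0.ne'
    have e : 1 - R p ^ 2 = (1 - R p) * (1 + R p) := by ring
    rw [e]
    field_simp
    ring
  have hDer_D' : ∀ p, HasDerivAt D' (2 * κ) p := fun p => by
    have := ((hasDerivAt_id' p).sub_const ν).const_mul (2 * κ)
    simpa [D'] using this
  have hcont : ContinuousOn (fun p : ℝ =>
      Real.binEntropy ((1 + Real.sqrt (1 - 4 * (γ * ν * (1 - ν) + γ * (1 - γ) * (p - ν) ^ 2))) / 2))
      (Icc (0 : ℝ) 1) := by
    apply Continuous.continuousOn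
    apply Real.binEntropy_continuous.comp
    fun_prop
  refine convexOn_of_hasDerivWithinAt2_nonneg (f' := f') (f'' := f'') (convex_Icc 0 1) hcont
    ?_ ?_ ?_
  · intro p hp
    rw [interior_Icc] at hp
    apply HasDerivAt.hasDerivWithinAt
    have hR0 := hRpos p hp
    have hR1 := hRlt p hp
    have hx : HasDerivAt (fun q => (1 + R q) / 2) ((-2 * D' p / R p) / 2) p :=
      ((hDer_R p hp).const_add 1).div_const 2
    have hb : HasDerivAt Real.binEntropy
        (Real.log (1 - (1 + R p) / 2) - Real.log ((1 + R p) / 2)) ((1 + R p) / 2) :=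
      Real.hasDerivAt_binEntropy (by linarith) (by linarith)
    have hc := hb.comp p hx
    have e1 : (1 - (1 + R p) / 2) = (1 - R p) / 2 := by ring
    have hfun : (fun p : ℝ =>
        Real.binEntropy ((1 + Real.sqrt (1 - 4 * (γ * ν * (1 - ν) + γ * (1 - γ) * (p - ν) ^ 2))) / 2))
        = Real.binEntropy ∘ (fun q => (1 + R q) / 2) := by
      funext q
      simp only [Function.comp, R, DD]
    rw [hfun]
    refine hc.congr_deriv ?_
    show _ = (Real.log (1 + R p) - Real.log (1 - R p)) * D' p / R p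
    rw [e1, Real.log_div (by linarith) (by norm_num), Real.log_div (by linarith) (by norm_num)]
    field_simp
    ring
  · intro p hp
    rw [interior_Icc] at hp
    apply HasDerivAt.hasDerivWithinAt
    have hR0 := hRpos p hp
    have hR1 := hRlt p hp
    have h1 := ((hDer_L p hp).fun_mul (hDer_D' p)).fun_div (hDer_R p hp) hR0.ne'
    refine h1.congr_deriv ?_
    have h5 : 1 - R p ^ 2 ≠ 0 := by nlinarith
    have h6 : R p ≠ 0 := hR0.ne'
    show _ = D' p ^ 2 * (2 * L p / R p ^ 3 - 4 / (R p ^ 2 * (1 - R p ^ 2))) + 2 * κ * L p / R p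
    field_simp
    ring
  · intro p hp
    rw [interior_Icc] at hp
    have hR0 := hRpos p hp
    have hR1 := hRlt p hp
    refine second_deriv_nonneg hκ hR0 hR1 (two_mul_le_log_sub hR0.le hR1) ?_
    have h1 := hRsq p hp
    have h2 : 0 ≤ γ * ν * (1 - ν) := by
      have : 0 ≤ 1 - ν := by linarith
      positivity
    rw [h1]
    have h3 : 1 - (1 - 4 * DD γ ν p) = 4 * DD γ ν p := by ring
    rw [h3, ← hDD p]
    show (2 * κ * (p - ν)) ^ 2 ≤ _
    nlinarith [mul_nonneg hκ h2, mul_nonneg hκ (mul_nonneg hκ (sq_nonneg (p - ν)))]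

end Main

/-- Continuity of the rate function. -/
theorem continuous_gadRate' (γ ν : ℝ) : Continuous (Crest.MathPhysics.AmpDamp.gadRate γ ν) := by
  unfold Crest.MathPhysics.AmpDamp.gadRate
  have := Real.binEntropy_continuous
  apply Continuous.sub
  · apply this.comp; fun_prop
  · apply this.comp; fun_prop

end Crest.Agent.GADAdd
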