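import Crest.Agent.Lib.GADAdd.Zg

/-!
# Positivity of `gadId` (Kraus decomposition)

`gadId γ ν W = (1-ν) A₀ W A₀ᴴ + (1-ν)γ A₁ W A₁ᴴ + ν A₂ W A₂ᴴ + νγ A₃ W A₃ᴴ`, where `A_k = K_k ⊗ 1`
with `K₀ = diag(1, λ)`, `K₁ = E_{01}`, `K₂ = diag(λ, 1)`, `K₃ = E_{10}`, `λ = √(1-γ)`.
-/

set_option autoImplicit false

open Matrix
open scoped ComplexOrder Kronecker

namespace Crest.Agent.GADAdd
open Crest.Quantum Crest.MathPhysics.AmpDamp

variable {e : Type*} [Fintype e] [DecidableEq e]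

/-- `(K ⊗ 1) W (K ⊗ 1)ᴴ` in coordinates. -/
theorem kraus_entry (K : Matrix Bool Bool ℂ) (W : Matrix (Bool × e) (Bool × e) ℂ) (x y : Bool × e) :
    ((K ⊗ₖ (1 : Matrix e e ℂ)) * W * (K ⊗ₖ (1 : Matrix e e ℂ))ᴴ) x y =
      ∑ s' : Bool, ∑ t' : Bool, K x.1 s' * star (K y.1 t') * W (s', x.2) (t', y.2) := by
  obtain ⟨s, i⟩ := x
  obtain ⟨t, j⟩ := y
  simp only [Matrix.mul_apply, Matrix.conjTranspose_apply, Matrix.kroneckerMap_apply,
    Fintype.sum_prod_type, Matrix.one_apply]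
  have h1 : ∀ (t' : Bool) (l : e), (∑ s' : Bool, ∑ k : e, K s s' * (if i = k then 1 else 0) * W (s', k) (t', l))
      = ∑ s' : Bool, K s s' * W (s', i) (t', l) := by
    intro t' l
    refine Finset.sum_congr rfl fun s' _ => ?_
    simp [mul_ite, ite_mul, Finset.sum_ite_eq]
  simp only [h1]
  have h2 : ∀ (t' : Bool), (∑ l : e, (∑ s' : Bool, K s s' * W (s', i) (t', l)) * star (K t t' * (if j = l then 1 else 0)))
      = (∑ s' : Bool, K s s' * W (s', i) (t', j)) * star (K t t') := by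
    intro t'
    have : ∀ l : e, (∑ s' : Bool, K s s' * W (s', i) (t', l)) * star (K t t' * (if j = l then 1 else 0))
        = if j = l then (∑ s' : Bool, K s s' * W (s', i) (t', l)) * star (K t t') else 0 := by
      intro l
      split_ifs <;> simp
    simp only [this, Finset.sum_ite_eq, Finset.mem_univ, if_true]
  simp only [h2]
  simp only [Fintype.sum_bool]
  ring

theorem kraus_psd (K : Matrix Bool Bool ℂ) {W : Matrix (Bool × e) (Bool × e) ℂ} (hW : W.PosSemidef) :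
    ((K ⊗ₖ (1 : Matrix e e ℂ)) * W * (K ⊗ₖ (1 : Matrix e e ℂ))ᴴ).PosSemidef :=
  hW.mul_mul_conjTranspose_same _

/-- The four Kraus matrices. -/
noncomputable def K0 (l : ℝ) : Matrix Bool Bool ℂ :=
  Matrix.of fun s t => if s = t then (if s then (l : ℂ) else 1) else 0
noncomputable def K2 (l : ℝ) : Matrix Bool Bool ℂ :=
  Matrix.of fun s t => if s = t then (if s then 1 else (l : ℂ)) else 0
def K1 : Matrix Bool Bool ℂ := Matrix.of fun s t => if s = false ∧ t = true then 1 else 0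
def K3 : Matrix Bool Bool ℂ := Matrix.of fun s t => if s = true ∧ t = false then 1 else 0

theorem gadId_eq_kraus {γ ν : ℝ} (hγ : γ ≤ 1) (W : Matrix (Bool × e) (Bool × e) ℂ) :
    gadId γ ν W =
      ((1 - ν : ℝ) : ℂ) • ((K0 (Real.sqrt (1 - γ)) ⊗ₖ (1 : Matrix e e ℂ)) * W *
          (K0 (Real.sqrt (1 - γ)) ⊗ₖ (1 : Matrix e e ℂ))ᴴ)
      + (((1 - ν) * γ : ℝ) : ℂ) • ((K1 ⊗ₖ (1 : Matrix e e ℂ)) * W * (K1 ⊗ₖ (1 : Matrix e e ℂ))ᴴ)
      + ((ν : ℝ) : ℂ) • ((K2 (Real.sqrt (1 - γ)) ⊗ₖ (1 : Matrix e e ℂ)) * W *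
          (K2 (Real.sqrt (1 - γ)) ⊗ₖ (1 : Matrix e e ℂ))ᴴ)
      + ((ν * γ : ℝ) : ℂ) • ((K3 ⊗ₖ (1 : Matrix e e ℂ)) * W * (K3 ⊗ₖ (1 : Matrix e e ℂ))ᴴ) := by
  have hl : ((Real.sqrt (1 - γ) : ℝ) : ℂ) ^ 2 = 1 - (γ : ℂ) := by
    rw [← Complex.ofReal_pow, Real.sq_sqrt (by linarith)]
    push_cast
    ring
  ext ⟨s, i⟩ ⟨t, j⟩
  simp only [Matrix.add_apply, Matrix.smul_apply, kraus_entry, gadId, Matrix.of_apply, Fintype.sum_bool,
    smul_eq_mul]
  cases s <;> cases t <;>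
    simp [K0, K1, K2, K3, qubitCoeff, gadMap, Matrix.single] <;>
    ring_nf
  all_goals
    rw [hl]
    ring

/-- The GAD channel tensored with the identity maps positive semidefinite matrices to positive
semidefinite matrices. -/
theorem gadId_posSemidef {γ ν : ℝ} (hγ : γ ∈ Set.Icc (0 : ℝ) 1) (hν : ν ∈ Set.Icc (0 : ℝ) 1)
    {W : Matrix (Bool × e) (Bool × e) ℂ} (hW : W.PosSemidef) : (gadId γ ν W).PosSemidef := by
  rw [gadId_eq_kraus hγ.2]
  have hc : ∀ {c : ℝ} {A : Matrix (Bool × e) (Bool × e) ℂ}, 0 ≤ c → A.PosSemidef →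
      ((c : ℂ) • A).PosSemidef := by
    intro c A hc hA
    exact hA.smul (by exact_mod_cast hc)
  have h0 : (0:ℝ) ≤ 1 - ν := by linarith [hν.2]
  refine ((((hc h0 (kraus_psd _ hW)).add (hc (mul_nonneg h0 hγ.1) (kraus_psd _ hW))).add
    (hc hν.1 (kraus_psd _ hW))).add (hc (mul_nonneg hν.1 hγ.1) (kraus_psd _ hW)))

end Crest.Agent.GADAdd
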