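import Mathlib

/-!
# "Integration in `s` without integrals" (real analysis only)

`Xi a s = (a+s) log (a+s) - s log s` has `∂ₛ = log (a+s) - log s`, value `a log a` at `s = 0`
and `Xi a s - a log s - a → 0` at `s → ∞`.

`gam x y t₊ t₋ s r = A₊ log (s + t₊ r) + A₋ log (s + t₋ r) - log (s + x r)`,
`A₊ = (t₊ - y)/(t₊ - t₋)`, `A₋ = (y - t₋)/(t₊ - t₋)`, antiderivative of
`G x y t₊ t₋ s r = (s + y r)/((s + t₊ r)(s + t₋ r)) - 1/(s + x r)`.
-/

set_option autoImplicit false

open Filter Topology

namespace Crest.Agent.GADAdd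

noncomputable def Xi (a s : ℝ) : ℝ := (a + s) * Real.log (a + s) - s * Real.log s

theorem Xi_zero (a : ℝ) : Xi a 0 = - Real.negMulLog a := by
  simp [Xi, Real.negMulLog]

theorem continuous_Xi (a : ℝ) : Continuous (Xi a) := by
  unfold Xi
  have h := Real.continuous_mul_log
  exact (h.comp (continuous_const.add continuous_id)).sub h

theorem hasDerivAt_Xi {a s : ℝ} (ha : 0 ≤ a) (hs : 0 < s) :
    HasDerivAt (Xi a) (Real.log (a + s) - Real.log s) s := by
  have has : a + s ≠ 0 := by positivity
  have h1 : HasDerivAt (fun s : ℝ => a + s) 1 s := by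
    simpa using (hasDerivAt_id s).const_add a
  have h2 : HasDerivAt (fun s : ℝ => Real.log (a + s)) (1 / (a + s)) s := h1.log has
  have h3 : HasDerivAt (fun s : ℝ => (a + s) * Real.log (a + s))
      (1 * Real.log (a + s) + (a + s) * (1 / (a + s))) s := h1.mul h2
  have h4 : HasDerivAt (fun s : ℝ => s * Real.log s)
      (1 * Real.log s + s * s⁻¹) s := (hasDerivAt_id s).mul (Real.hasDerivAt_log hs.ne')
  have h5 := h3.fun_sub h4
  have e : Real.log (a + s) - Real.log s =
      1 * Real.log (a + s) + (a + s) * (1 / (a + s)) - (1 * Real.log s + s * s⁻¹) := by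
    rw [mul_one_div_cancel has, mul_inv_cancel₀ hs.ne']; ring
  rw [e]
  exact h5

theorem tendsto_Xi (a : ℝ) (ha : 0 ≤ a) :
    Tendsto (fun s => Xi a s - a * Real.log s - a) atTop (𝓝 0) := by
  have hup : Tendsto (fun s : ℝ => a ^ 2 / s) atTop (𝓝 0) :=
    tendsto_const_nhds.div_atTop tendsto_id
  refine squeeze_zero' ?_ ?_ hup
  · filter_upwards [eventually_gt_atTop 0] with s hs
    have has : 0 < a + s := by positivity
    have hk : Xi a s - a * Real.log s - a = (a + s) * (Real.log (a + s) - Real.log s) - a := by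
      unfold Xi; ring
    rw [hk]
    have h1 : Real.log s - Real.log (a + s) ≤ s / (a + s) - 1 := by
      rw [← Real.log_div hs.ne' has.ne']
      exact Real.log_le_sub_one_of_pos (by positivity)
    have h2 : (a + s) * (s / (a + s) - 1) = -a := by field_simp; ring
    nlinarith
  · filter_upwards [eventually_gt_atTop 0] with s hs
    have has : 0 < a + s := by positivity
    have hk : Xi a s - a * Real.log s - a = (a + s) * (Real.log (a + s) - Real.log s) - a := by
      unfold Xi; ring
    rw [hk]
    have h1 : Real.log (a + s) - Real.log s ≤ (a + s) / s - 1 := by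
      rw [← Real.log_div has.ne' hs.ne']
      exact Real.log_le_sub_one_of_pos (by positivity)
    have h2 : (a + s) * ((a + s) / s - 1) - a = a ^ 2 / s := by field_simp; ring
    nlinarith

/-- Sum over a finite family. -/
noncomputable def XiSum {ι : Type*} [Fintype ι] (a : ι → ℝ) (s : ℝ) : ℝ := ∑ i, Xi (a i) s

/-- Monotone-limit principle: if `Ω` is continuous on `[0,∞)`, has nonnegative derivative on `(0,∞)`
and tends to `0` at infinity then `Ω 0 ≤ 0`. -/
theorem nonpos_at_zero_of_deriv_nonneg {Ω Ω' : ℝ → ℝ} (hc : ContinuousOn Ω (Set.Ici 0))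
    (hd : ∀ s, 0 < s → HasDerivAt Ω (Ω' s) s) (hn : ∀ s, 0 < s → 0 ≤ Ω' s)
    (hl : Tendsto Ω atTop (𝓝 0)) : Ω 0 ≤ 0 := by
  have hmono : MonotoneOn Ω (Set.Ici 0) := by
    apply monotoneOn_of_deriv_nonneg (convex_Ici 0) hc
    · intro s hs
      rw [interior_Ici] at hs
      exact (hd s hs).differentiableAt.differentiableWithinAt
    · intro s hs
      rw [interior_Ici] at hs
      rw [(hd s hs).deriv]
      exact hn s hs
  refine ge_of_tendsto hl ?_
  filter_upwards [eventually_ge_atTop 0] with s hs
  exact hmono (Set.self_mem_Ici) hs hs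

/-- The antiderivative of the gradient weight. -/
noncomputable def gam (x y tp tm s r : ℝ) : ℝ :=
  (tp - y) / (tp - tm) * Real.log (s + tp * r) + (y - tm) / (tp - tm) * Real.log (s + tm * r)
    - Real.log (s + x * r)

/-- The gradient weight. -/
noncomputable def gradWeight (x y tp tm s r : ℝ) : ℝ :=
  (s + y * r) / ((s + tp * r) * (s + tm * r)) - 1 / (s + x * r)

section Gam

variable {x y tp tm : ℝ}

/-- Standing parameter hypotheses: `tp > tm ≥ 0` are the roots of `t² - (1+x+y) t + x y`. -/
structure Roots (x y tp tm : ℝ) : Prop where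
  x_nonneg : 0 ≤ x
  y_nonneg : 0 ≤ y
  tm_nonneg : 0 ≤ tm
  lt : tm < tp
  sum : tp + tm = 1 + x + y
  prod : tp * tm = x * y

theorem Roots.symm (h : Roots x y tp tm) : Roots y x tp tm :=
  ⟨h.y_nonneg, h.x_nonneg, h.tm_nonneg, h.lt, by linarith [h.sum], by linarith [h.prod]⟩

theorem Roots.tp_pos (h : Roots x y tp tm) : 0 < tp := lt_of_le_of_lt h.tm_nonneg h.lt

theorem Roots.sub_ne (h : Roots x y tp tm) : tp - tm ≠ 0 := (sub_pos.2 h.lt).ne'

theorem Roots.coef_sum (h : Roots x y tp tm) :
    (tp - y) / (tp - tm) + (y - tm) / (tp - tm) = 1 := by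
  have := h.sub_ne
  field_simp
  ring

/-- `tm = 0` forces the coefficient of `log (s + tm r)` to vanish. -/
theorem Roots.coef_zero (h : Roots x y tp tm) (hx : 0 < x) (htm : tm = 0) :
    (y - tm) / (tp - tm) = 0 := by
  have hy : y = 0 := by
    have h1 := h.prod
    rw [htm, mul_zero] at h1
    rcases mul_eq_zero.1 h1.symm with h2 | h2
    · exact absurd h2 hx.ne'
    · exact h2
  rw [hy, htm]; simp

theorem hasDerivAt_gam (h : Roots x y tp tm) (hx : 0 < x) {s r : ℝ} (hs : 0 < s) (hr : 0 ≤ r) :
    HasDerivAt (fun s => gam x y tp tm s r) (gradWeight x y tp tm s r) s := by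
  have hp : 0 < s + tp * r := by have := h.tp_pos; positivity
  have hm : 0 < s + tm * r := by have := h.tm_nonneg; positivity
  have hxr : 0 < s + x * r := by positivity
  have hlog : ∀ c : ℝ, 0 < s + c * r →
      HasDerivAt (fun s : ℝ => Real.log (s + c * r)) (1 / (s + c * r)) s := by
    intro c hc
    have h1 : HasDerivAt (fun s : ℝ => s + c * r) 1 s := by
      simpa using (hasDerivAt_id s).add_const (c * r)
    exact h1.log hc.ne'
  have h1 := ((hlog tp hp).const_mul ((tp - y) / (tp - tm))).fun_add
    ((hlog tm hm).const_mul ((y - tm) / (tp - tm)))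
  have h2 := h1.fun_sub (hlog x hxr)
  have e : gradWeight x y tp tm s r = (tp - y) / (tp - tm) * (1 / (s + tp * r)) +
      (y - tm) / (tp - tm) * (1 / (s + tm * r)) - 1 / (s + x * r) := by
    unfold gradWeight
    have h0 := h.sub_ne
    have e1 : (s + y * r) * (tp - tm) = (tp - y) * (s + tm * r) + (y - tm) * (s + tp * r) := by ring
    generalize s + tp * r = P at *
    generalize s + tm * r = M at *
    generalize tp - tm = D at *
    have hp' := hp.ne'
    have hm' := hm.ne'
    have e2 : (s + y * r) / (P * M) = (tp - y) / D * (1 / P) + (y - tm) / D * (1 / M) := by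
      calc (s + y * r) / (P * M) = ((s + y * r) * D) / (D * (P * M)) := by field_simp
        _ = ((tp - y) * M + (y - tm) * P) / (D * (P * M)) := by rw [e1]
        _ = (tp - y) / D * (1 / P) + (y - tm) / D * (1 / M) := by field_simp
    rw [e2]
  rw [e]
  exact h2

theorem gam_zero_of_r_zero (h : Roots x y tp tm) (s : ℝ) : gam x y tp tm s 0 = 0 := by
  unfold gam
  simp only [mul_zero, add_zero]
  have h1 := h.coef_sum
  have h2 : (tp - y) / (tp - tm) * Real.log s + (y - tm) / (tp - tm) * Real.log s =
      ((tp - y) / (tp - tm) + (y - tm) / (tp - tm)) * Real.log s := by ring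
  rw [h2, h1]; ring

theorem tendsto_gam (h : Roots x y tp tm) (hx : 0 < x) {r : ℝ} (hr : 0 ≤ r) :
    Tendsto (fun s => gam x y tp tm s r) atTop (𝓝 0) := by
  have hlog : ∀ c : ℝ, 0 ≤ c →
      Tendsto (fun s : ℝ => Real.log (s + c * r) - Real.log s) atTop (𝓝 0) := by
    intro c hc
    have hk : Tendsto (fun s : ℝ => 1 + c * r / s) atTop (𝓝 (1 + 0)) :=
      tendsto_const_nhds.add (tendsto_const_nhds.div_atTop tendsto_id)
    have hk2 : Tendsto (fun s : ℝ => Real.log (1 + c * r / s)) atTop (𝓝 (Real.log (1 + 0))) :=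
      hk.log (by norm_num)
    simp only [add_zero, Real.log_one] at hk2
    refine hk2.congr' ?_
    filter_upwards [eventually_gt_atTop 0] with s hs
    have h0 : 0 ≤ c * r := by positivity
    rw [← Real.log_div (by positivity) hs.ne']
    congr 1
    field_simp
  have hp := hlog tp h.tp_pos.le
  have hm := hlog tm h.tm_nonneg
  have hxx := hlog x hx.le
  have hsum := ((hp.const_mul ((tp - y) / (tp - tm))).add
    (hm.const_mul ((y - tm) / (tp - tm)))).sub hxx
  simp only [mul_zero, add_zero, sub_zero] at hsum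
  refine hsum.congr ?_
  intro s
  unfold gam
  have h1 := h.coef_sum
  have h2 : (tp - y) / (tp - tm) = 1 - (y - tm) / (tp - tm) := by linarith
  rw [h2]
  ring

theorem continuousOn_gam (h : Roots x y tp tm) (hx : 0 < x) {r : ℝ} (hr : 0 ≤ r) :
    ContinuousOn (fun s => gam x y tp tm s r) (Set.Ici 0) := by
  rcases hr.eq_or_lt with rfl | hr
  · have : (fun s => gam x y tp tm s 0) = fun _ => 0 := by
      funext s; exact gam_zero_of_r_zero h s
    rw [this]; exact continuousOn_const
  have hlog : ∀ c : ℝ, 0 < c → ContinuousOn (fun s : ℝ => Real.log (s + c * r)) (Set.Ici 0) := by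
    intro c hc
    apply ContinuousOn.log (continuousOn_id.add continuousOn_const)
    intro s hs
    have : 0 ≤ s := hs
    have : 0 < s + c * r := by positivity
    exact this.ne'
  have hp := hlog tp h.tp_pos
  have hxx := hlog x hx
  unfold gam
  refine ContinuousOn.sub (ContinuousOn.add (continuousOn_const.mul hp) ?_) hxx
  rcases h.tm_nonneg.eq_or_lt with htm | htm
  · have h0 := h.coef_zero hx htm.symm
    rw [h0]
    simp only [zero_mul]
    exact continuousOn_const
  · exact continuousOn_const.mul (hlog tm htm)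

/-- For `r > 0` the value at `s = 0` does not depend on `r` and is nonnegative. -/
theorem gam_at_zero (h : Roots x y tp tm) (hx : 0 < x) {r : ℝ} (hr : 0 < r) :
    gam x y tp tm 0 r = gam x y tp tm 0 1 := by
  unfold gam
  simp only [zero_add, mul_one]
  have h1 := h.coef_sum
  rw [Real.log_mul h.tp_pos.ne' hr.ne', Real.log_mul hx.ne' hr.ne']
  rcases h.tm_nonneg.eq_or_lt with htm | htm
  · have h0 := h.coef_zero hx htm.symm
    rw [h0]
    have h2 : (tp - y) / (tp - tm) = 1 := by linarith
    rw [h2]
    ring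
  · rw [Real.log_mul htm.ne' hr.ne']
    have h2 : (tp - y) / (tp - tm) = 1 - (y - tm) / (tp - tm) := by linarith
    rw [h2]
    ring

theorem gradWeight_nonpos (h : Roots x y tp tm) (hx : 0 < x) {s r : ℝ} (hs : 0 < s) (hr : 0 ≤ r) :
    gradWeight x y tp tm s r ≤ 0 := by
  have hp : 0 < s + tp * r := by have := h.tp_pos; positivity
  have hm : 0 < s + tm * r := by have := h.tm_nonneg; positivity
  have hxr : 0 < s + x * r := by positivity
  unfold gradWeight
  rw [div_sub_div _ _ (by positivity) hxr.ne']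
  apply div_nonpos_of_nonpos_of_nonneg _ (by positivity)
  have e : (s + y * r) * (s + x * r) - (s + tp * r) * (s + tm * r) * 1
      = - (s * r * (tp + tm - x - y)) + (x * y - tp * tm) * r ^ 2 := by ring
  rw [e, h.sum, h.prod]
  have : 0 ≤ s * r := by positivity
  nlinarith

theorem gam_at_zero_nonneg (h : Roots x y tp tm) (hx : 0 < x) :
    0 ≤ gam x y tp tm 0 1 := by
  have h1 : (fun s => -gam x y tp tm s 1) 0 ≤ 0 := by
    refine nonpos_at_zero_of_deriv_nonneg (Ω' := fun s => -gradWeight x y tp tm s 1)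
      (continuousOn_gam h hx zero_le_one).neg ?_ ?_ ?_
    · intro s hs
      exact (hasDerivAt_gam h hx hs zero_le_one).neg
    · intro s hs
      have := gradWeight_nonpos h hx hs zero_le_one
      simpa using this
    · have := (tendsto_gam h hx (r := 1) zero_le_one).neg
      rw [neg_zero] at this
      exact this
  simpa using h1

/-- The linear term `e(s) = ∑ᵢ (πᵢ - x rᵢ) gam(s, rᵢ)` at `s = 0` is nonpositive. -/
theorem linear_term_at_zero {ι : Type*} [Fintype ι] (h : Roots x y tp tm) (hx : 0 < x)
    (r π : ι → ℝ) (hr : ∀ i, 0 ≤ r i) (hπ : ∀ i, 0 ≤ π i) (hsum : ∑ i, π i = x * ∑ i, r i) :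
    ∑ i, (π i - x * r i) * gam x y tp tm 0 (r i) ≤ 0 := by
  classical
  have hG := gam_at_zero_nonneg h hx
  have hterm : ∀ i, (π i - x * r i) * gam x y tp tm 0 (r i)
      ≤ (π i - x * r i) * gam x y tp tm 0 1 := by
    intro i
    rcases (hr i).eq_or_lt with hi | hi
    · rw [← hi, gam_zero_of_r_zero h]
      have : 0 ≤ (π i - x * 0) * gam x y tp tm 0 1 := by
        have := hπ i
        simp only [mul_zero, sub_zero]
        positivity
      simpa using this
    · rw [gam_at_zero h hx hi]
  refine (Finset.sum_le_sum fun i _ => hterm i).trans ?_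
  rw [← Finset.sum_mul, Finset.sum_sub_distrib, ← Finset.mul_sum, hsum]
  simp

end Gam

end Crest.Agent.GADAdd
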