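import Mathlib

/-!
# Key lemma: `log |det (A + S)| - log det A` is convex in positive definite `A` for skew `S`

Tangent form `logdet_tangent`. Proof: for `A_t = A₀ + t (A - A₀)`, `M_t = A_t + S`,
`φ(t) = log ‖det M_t‖ - log ‖det A_t‖` has `φ'(t) = Re Tr (M_t⁻¹ B) - Re Tr (A_t⁻¹ B)` (`B = A - A₀`),
monotone by the resolvent identity and `core_ineq`.
-/

set_option autoImplicit false

open Matrix
open scoped ComplexOrder

namespace Crest.Agent.GADAdd

variable {n : Type*} [Fintype n] [DecidableEq n]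

/-- Factorization of a positive semidefinite matrix. -/
theorem psd_exists_factor {A : Matrix n n ℂ} (hA : A.PosSemidef) : ∃ G : Matrix n n ℂ, A = Gᴴ * G := by
  have hsp := hA.isHermitian.spectral_theorem
  simp only [Unitary.conjStarAlgAut_apply] at hsp
  set U : Matrix n n ℂ := (hA.isHermitian.eigenvectorUnitary : Matrix n n ℂ) with hU
  set r := hA.isHermitian.eigenvalues with hr
  refine ⟨diagonal (fun i => ((Real.sqrt (r i) : ℝ) : ℂ)) * Uᴴ, ?_⟩
  rw [Matrix.conjTranspose_mul, Matrix.conjTranspose_conjTranspose, Matrix.diagonal_conjTranspose]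
  have h2 : diagonal (star fun i => ((Real.sqrt (r i) : ℝ) : ℂ)) * diagonal (fun i => ((Real.sqrt (r i) : ℝ) : ℂ))
      = diagonal (RCLike.ofReal ∘ r) := by
    rw [Matrix.diagonal_mul_diagonal]
    congr 1
    ext i
    simp only [Pi.star_apply, Function.comp]
    have hnn : 0 ≤ r i := hA.eigenvalues_nonneg i
    have : star (((Real.sqrt (r i) : ℝ) : ℂ)) = ((Real.sqrt (r i) : ℝ) : ℂ) := by simp
    rw [this, ← Complex.ofReal_mul, Real.mul_self_sqrt hnn]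
    rfl
  conv_lhs => rw [hsp]
  calc U * diagonal (RCLike.ofReal ∘ r) * star U
      = U * (diagonal (star fun i => ((Real.sqrt (r i) : ℝ) : ℂ)) * diagonal (fun i => ((Real.sqrt (r i) : ℝ) : ℂ))) * Uᴴ := by
        rw [h2]; rfl
    _ = _ := by simp only [Matrix.mul_assoc]

/-- `Tr (X Y) ≥ 0` for positive semidefinite `X, Y`. -/
theorem re_trace_mul_nonneg {X Y : Matrix n n ℂ} (hX : X.PosSemidef) (hY : Y.PosSemidef) :
    0 ≤ (X * Y).trace.re := by
  obtain ⟨G, rfl⟩ := psd_exists_factor hY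
  have h1 : (G * X * Gᴴ).PosSemidef := hX.mul_mul_conjTranspose_same G
  have h2 := h1.trace_nonneg
  have h3 : (X * (Gᴴ * G)).trace = (G * X * Gᴴ).trace := by
    rw [← Matrix.mul_assoc, Matrix.trace_mul_comm, Matrix.mul_assoc]
  rw [h3]
  exact (Complex.le_def.mp h2).1

/-- Positive definite plus skew is invertible. -/
theorem det_add_skew_ne_zero {D S : Matrix n n ℂ} (hD : D.PosDef) (hS : Sᴴ = -S) : (D + S).det ≠ 0 := by
  intro h0
  obtain ⟨v, hv, hv0⟩ := Matrix.exists_mulVec_eq_zero_iff.mpr h0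
  have hpos := hD.re_dotProduct_pos hv
  have h1 : star v ⬝ᵥ (D *ᵥ v) + star v ⬝ᵥ (S *ᵥ v) = 0 := by
    rw [← dotProduct_add, ← Matrix.add_mulVec, hv0, dotProduct_zero]
  have h2 : star (star v ⬝ᵥ (S *ᵥ v)) = - (star v ⬝ᵥ (S *ᵥ v)) := by
    have h20 : star (star v ⬝ᵥ (S *ᵥ v)) = star (S *ᵥ v) ⬝ᵥ v := by
      rw [star_dotProduct (v := v) (w := S *ᵥ v), star_star]
    rw [h20, star_mulVec, ← dotProduct_mulVec, hS, Matrix.neg_mulVec, dotProduct_neg]
  have h3 : (star v ⬝ᵥ (S *ᵥ v)).re = 0 := by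
    have := congrArg Complex.re h2
    simp only [Complex.star_def, Complex.conj_re, Complex.neg_re] at this
    linarith
  have h4 := congrArg Complex.re h1
  simp only [Complex.add_re, Complex.zero_re, h3, add_zero] at h4
  simp only [RCLike.re_to_complex] at hpos
  linarith

/-- Positive-definite part bound: `E - Kᴴ A K = (S K)ᴴ E (S K) ≥ 0`. -/
theorem inv_sub_skew_bound {A S : Matrix n n ℂ} (hA : A.PosDef) (hS : Sᴴ = -S) :
    (A⁻¹ - ((A + S)⁻¹)ᴴ * A * (A + S)⁻¹).PosSemidef := by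
  set K := (A + S)⁻¹ with hK
  set E := A⁻¹ with hE
  have hdet : IsUnit (A + S).det := isUnit_iff_ne_zero.mpr (det_add_skew_ne_zero hA hS)
  have hMK : (A + S) * K = 1 := Matrix.mul_nonsing_inv _ hdet
  have hKM : K * (A + S) = 1 := Matrix.nonsing_inv_mul _ hdet
  have hAH : Aᴴ = A := hA.isHermitian
  have hMH : (A + S)ᴴ = A - S := by rw [Matrix.conjTranspose_add, hAH, hS, sub_eq_add_neg]
  have hKH : Kᴴ * (A - S) = 1 := by
    have := congrArg Matrix.conjTranspose hMK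
    rwa [Matrix.conjTranspose_mul, hMH, Matrix.conjTranspose_one] at this
  have hAdet : IsUnit A.det := (Matrix.isUnit_iff_isUnit_det A).mp hA.isUnit
  have hAE : A * E = 1 := Matrix.mul_nonsing_inv _ hAdet
  have hEA : E * A = 1 := Matrix.nonsing_inv_mul _ hAdet
  have hEpsd : E.PosSemidef := hA.inv.posSemidef
  have hkey : E - Kᴴ * A * K = (S * K)ᴴ * E * (S * K) := by
    have h1 : (A - S) * E * (A + S) = A - S * E * S := by
      simp only [Matrix.sub_mul, Matrix.mul_add, hAE, Matrix.one_mul, Matrix.mul_assoc, hEA, Matrix.mul_one]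
      noncomm_ring
    have h2 : E = Kᴴ * ((A - S) * E * (A + S)) * K := by
      calc E = (Kᴴ * (A - S)) * E * ((A + S) * K) := by rw [hKH, hMK, Matrix.one_mul, Matrix.mul_one]
        _ = _ := by simp only [Matrix.mul_assoc]
    rw [h1] at h2
    rw [Matrix.conjTranspose_mul, hS]
    calc E - Kᴴ * A * K = Kᴴ * (A - S * E * S) * K - Kᴴ * A * K := by rw [← h2]
      _ = Kᴴ * (-S) * E * (S * K) := by
        simp only [Matrix.mul_sub, Matrix.sub_mul, Matrix.mul_assoc, Matrix.mul_neg, Matrix.neg_mul]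
        abel
  rw [hkey]
  exact hEpsd.conjTranspose_mul_mul_same (S * K)

/-- The core inequality. -/
theorem core_ineq {A₁ A₂ S B : Matrix n n ℂ} (h₁ : A₁.PosDef) (h₂ : A₂.PosDef) (hS : Sᴴ = -S)
    (hB : Bᴴ = B) :
    ((A₂ + S)⁻¹ * B * (A₁ + S)⁻¹ * B).trace.re ≤ (A₂⁻¹ * B * A₁⁻¹ * B).trace.re := by
  set K₁ := (A₁ + S)⁻¹ with hK₁
  set K₂ := (A₂ + S)⁻¹ with hK₂
  set E₁ := A₁⁻¹ with hE₁
  set E₂ := A₂⁻¹ with hE₂
  have hdet₁ : IsUnit A₁.det := (Matrix.isUnit_iff_isUnit_det A₁).mp h₁.isUnit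
  have hdet₂ : IsUnit A₂.det := (Matrix.isUnit_iff_isUnit_det A₂).mp h₂.isUnit
  have hA₁E₁ : A₁ * E₁ = 1 := Matrix.mul_nonsing_inv _ hdet₁
  have hE₁A₁ : E₁ * A₁ = 1 := Matrix.nonsing_inv_mul _ hdet₁
  have hA₂E₂ : A₂ * E₂ = 1 := Matrix.mul_nonsing_inv _ hdet₂
  have hE₂A₂ : E₂ * A₂ = 1 := Matrix.nonsing_inv_mul _ hdet₂
  have hE₁psd : E₁.PosSemidef := h₁.inv.posSemidef
  have hE₂psd : E₂.PosSemidef := h₂.inv.posSemidef
  have hA₁H : A₁ᴴ = A₁ := h₁.isHermitian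
  have hA₂H : A₂ᴴ = A₂ := h₂.isHermitian
  -- The square
  set D := A₂ * K₂ * B - B * K₁ᴴ * A₁ with hD
  have hDH : Dᴴ = B * K₂ᴴ * A₂ - A₁ * K₁ * B := by
    rw [hD, Matrix.conjTranspose_sub]
    simp only [Matrix.conjTranspose_mul, Matrix.conjTranspose_conjTranspose, hA₁H, hA₂H, hB,
      Matrix.mul_assoc]
  have hsq : 0 ≤ (E₂ * (D * E₁ * Dᴴ)).trace.re :=
    re_trace_mul_nonneg hE₂psd (hE₁psd.mul_mul_conjTranspose_same D)
  have hc₂ : ∀ Y : Matrix n n ℂ, E₂ * (A₂ * Y) = Y := fun Y => by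
    rw [← Matrix.mul_assoc, hE₂A₂, Matrix.one_mul]
  have hc₁ : ∀ Y : Matrix n n ℂ, E₁ * (A₁ * Y) = Y := fun Y => by
    rw [← Matrix.mul_assoc, hE₁A₁, Matrix.one_mul]
  have hc₁' : ∀ Y : Matrix n n ℂ, A₁ * (E₁ * Y) = Y := fun Y => by
    rw [← Matrix.mul_assoc, hA₁E₁, Matrix.one_mul]
  have hc₂' : ∀ Y : Matrix n n ℂ, A₂ * (E₂ * Y) = Y := fun Y => by
    rw [← Matrix.mul_assoc, hA₂E₂, Matrix.one_mul]
  have hexp : (E₂ * (D * E₁ * Dᴴ)).trace =
      (K₂ᴴ * A₂ * K₂ * (B * E₁ * B)).trace - (K₂ * B * K₁ * B).trace - ((K₂ * B * K₁ * B)ᴴ).trace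
        + (K₁ᴴ * A₁ * K₁ * (B * E₂ * B)).trace := by
    have hsplit : E₂ * (D * E₁ * Dᴴ) =
        E₂ * (A₂ * K₂ * B) * E₁ * (B * K₂ᴴ * A₂) - E₂ * (A₂ * K₂ * B) * E₁ * (A₁ * K₁ * B)
          - E₂ * (B * K₁ᴴ * A₁) * E₁ * (B * K₂ᴴ * A₂) + E₂ * (B * K₁ᴴ * A₁) * E₁ * (A₁ * K₁ * B) := by
      rw [hDH, hD]; noncomm_ring
    rw [hsplit, Matrix.trace_add, Matrix.trace_sub, Matrix.trace_sub]
    have t1 : (E₂ * (A₂ * K₂ * B) * E₁ * (B * K₂ᴴ * A₂)).trace = (K₂ᴴ * A₂ * K₂ * (B * E₁ * B)).trace := by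
      have e1 : E₂ * (A₂ * K₂ * B) * E₁ * (B * K₂ᴴ * A₂) = (K₂ * (B * (E₁ * B))) * (K₂ᴴ * A₂) := by
        simp only [Matrix.mul_assoc, hc₂]
      have e2 : K₂ᴴ * A₂ * K₂ * (B * E₁ * B) = (K₂ᴴ * A₂) * (K₂ * (B * (E₁ * B))) := by
        simp only [Matrix.mul_assoc]
      rw [e1, e2, Matrix.trace_mul_comm]
    have t2 : (E₂ * (A₂ * K₂ * B) * E₁ * (A₁ * K₁ * B)).trace = (K₂ * B * K₁ * B).trace := by
      congr 1
      simp only [Matrix.mul_assoc, hc₂, hc₁]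
    have t3 : (E₂ * (B * K₁ᴴ * A₁) * E₁ * (B * K₂ᴴ * A₂)).trace = ((K₂ * B * K₁ * B)ᴴ).trace := by
      have e1 : E₂ * (B * K₁ᴴ * A₁) * E₁ * (B * K₂ᴴ * A₂) = (E₂ * (B * (K₁ᴴ * (B * K₂ᴴ)))) * A₂ := by
        simp only [Matrix.mul_assoc, hc₁']
      have e2 : (K₂ * B * K₁ * B)ᴴ = A₂ * (E₂ * (B * (K₁ᴴ * (B * K₂ᴴ)))) := by
        simp only [Matrix.conjTranspose_mul, hB, hc₂', Matrix.mul_assoc]
      rw [e1, e2, Matrix.trace_mul_comm]
    have t4 : (E₂ * (B * K₁ᴴ * A₁) * E₁ * (A₁ * K₁ * B)).trace = (K₁ᴴ * A₁ * K₁ * (B * E₂ * B)).trace := by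
      have e1 : E₂ * (B * K₁ᴴ * A₁) * E₁ * (A₁ * K₁ * B) = (E₂ * B) * (K₁ᴴ * (A₁ * (K₁ * B))) := by
        simp only [Matrix.mul_assoc, hc₁']
      have e2 : K₁ᴴ * A₁ * K₁ * (B * E₂ * B) = (K₁ᴴ * (A₁ * (K₁ * B))) * (E₂ * B) := by
        simp only [Matrix.mul_assoc]
      rw [e1, e2, Matrix.trace_mul_comm]
    rw [t1, t2, t3, t4]
  have hcj : ((K₂ * B * K₁ * B)ᴴ).trace.re = (K₂ * B * K₁ * B).trace.re := by
    rw [Matrix.trace_conjTranspose]; simp
  -- the Loewner bounds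
  have hb₂ : (K₂ᴴ * A₂ * K₂ * (B * E₁ * B)).trace.re ≤ (E₂ * (B * E₁ * B)).trace.re := by
    have hpsd : (B * E₁ * B).PosSemidef := by
      have := hE₁psd.mul_mul_conjTranspose_same B
      rwa [hB] at this
    have := re_trace_mul_nonneg (inv_sub_skew_bound h₂ hS) hpsd
    rw [Matrix.sub_mul, Matrix.trace_sub, Complex.sub_re] at this
    linarith
  have hb₁ : (K₁ᴴ * A₁ * K₁ * (B * E₂ * B)).trace.re ≤ (E₁ * (B * E₂ * B)).trace.re := by
    have hpsd : (B * E₂ * B).PosSemidef := by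
      have := hE₂psd.mul_mul_conjTranspose_same B
      rwa [hB] at this
    have := re_trace_mul_nonneg (inv_sub_skew_bound h₁ hS) hpsd
    rw [Matrix.sub_mul, Matrix.trace_sub, Complex.sub_re] at this
    linarith
  have hcyc₁ : (E₁ * (B * E₂ * B)).trace = (E₂ * B * E₁ * B).trace := by
    have e1 : E₁ * (B * E₂ * B) = (E₁ * B) * (E₂ * B) := by simp only [Matrix.mul_assoc]
    have e2 : E₂ * B * E₁ * B = (E₂ * B) * (E₁ * B) := by simp only [Matrix.mul_assoc]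
    rw [e1, e2, Matrix.trace_mul_comm]
  have hcyc₂ : (E₂ * (B * E₁ * B)).trace = (E₂ * B * E₁ * B).trace := by
    congr 1; simp only [Matrix.mul_assoc]
  rw [hexp] at hsq
  simp only [Complex.add_re, Complex.sub_re] at hsq
  rw [hcj] at hsq
  rw [hcyc₂] at hb₂
  rw [hcyc₁] at hb₁
  linarith

/-- Derivative of `det (M + t B)` at `t = 0`. -/
theorem hasDerivAt_det_line (M B : Matrix n n ℂ) (hM : M.det ≠ 0) :
    HasDerivAt (fun t : ℝ => (M + (t : ℂ) • B).det) (M.det * (M⁻¹ * B).trace) 0 := by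
  set C := M⁻¹ * B with hC
  have hunit : IsUnit M.det := isUnit_iff_ne_zero.mpr hM
  have hfac : ∀ z : ℂ, (M + z • B).det = M.det * (1 + z • C).det := by
    intro z
    rw [← Matrix.det_mul]
    congr 1
    rw [Matrix.mul_add, Matrix.mul_one, Matrix.mul_smul, hC, ← Matrix.mul_assoc,
      Matrix.mul_nonsing_inv _ hunit, Matrix.one_mul]
  let P : Polynomial ℂ := (1 + (Polynomial.X : Polynomial ℂ) • C.map Polynomial.C).det
  have heval : ∀ z : ℂ, (1 + z • C).det = P.eval z := by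
    intro z
    have := RingHom.map_det (Polynomial.evalRingHom z) (1 + (Polynomial.X : Polynomial ℂ) • C.map Polynomial.C)
    simp only [Polynomial.coe_evalRingHom] at this
    rw [show P.eval z = _ from this]
    congr 1
    ext i j
    simp [Matrix.one_apply]
    split_ifs <;> simp <;> ring
  have hder : (Polynomial.derivative P).eval 0 = C.trace := Matrix.derivative_det_one_add_X_smul C
  have h1 : HasDerivAt (fun z : ℂ => P.eval z) C.trace ((0 : ℝ) : ℂ) := by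
    have := P.hasDerivAt ((0 : ℝ) : ℂ)
    simp only [Complex.ofReal_zero] at this ⊢
    simpa [hder] using this
  have h2 : HasDerivAt (fun t : ℝ => P.eval (t : ℂ)) C.trace 0 := h1.comp_ofReal
  have h3 : (fun t : ℝ => (M + (t : ℂ) • B).det) = fun t : ℝ => M.det * P.eval (t : ℂ) := by
    funext t; rw [hfac, heval]
  rw [h3]
  exact h2.const_mul _

/-- Derivative of `det (A + t B)` at a general point. -/
theorem hasDerivAt_det_line' (A B : Matrix n n ℂ) (t₀ : ℝ) (hM : (A + (t₀ : ℂ) • B).det ≠ 0) :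
    HasDerivAt (fun t : ℝ => (A + (t : ℂ) • B).det)
      ((A + (t₀ : ℂ) • B).det * ((A + (t₀ : ℂ) • B)⁻¹ * B).trace) t₀ := by
  have h := hasDerivAt_det_line (A + (t₀ : ℂ) • B) B hM
  have h2 := HasDerivAt.comp_sub_const t₀ t₀ (f := fun t : ℝ => ((A + (t₀ : ℂ) • B) + (t : ℂ) • B).det)
    (by rw [sub_self]; exact h)
  have hfun : (fun t : ℝ => (A + (t : ℂ) • B).det)
      = fun x : ℝ => ((A + (t₀ : ℂ) • B) + ((x - t₀ : ℝ) : ℂ) • B).det := by
    funext t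
    congr 1
    push_cast
    rw [add_assoc, ← add_smul]
    congr 2
    ring
  rw [hfun]
  exact h2

/-- Derivative of `log ‖z‖`. -/
theorem hasDerivAt_log_norm {z : ℝ → ℂ} {z' : ℂ} {t : ℝ} (hz : HasDerivAt z z' t) (h0 : z t ≠ 0) :
    HasDerivAt (fun s => Real.log ‖z s‖) ((z' / z t).re) t := by
  have h1 : HasDerivAt (fun s => ‖z s‖ ^ 2) (2 * inner ℝ (z t) z') t := hz.norm_sq
  have hpos : ‖z t‖ ^ 2 ≠ 0 := by positivity
  have h2 := h1.log hpos
  have h3 : (fun s => Real.log ‖z s‖) = fun s => (1 / 2 : ℝ) * Real.log (‖z s‖ ^ 2) := by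
    funext s
    rw [Real.log_pow]; push_cast; ring
  rw [h3]
  have h4 := h2.const_mul (1 / 2 : ℝ)
  have h5 : (z' / z t).re = (1 / 2 : ℝ) * (2 * inner ℝ (z t) z' / ‖z t‖ ^ 2) := by
    have hns : ‖z t‖ ^ 2 = (z t).re * (z t).re + (z t).im * (z t).im := by
      rw [Complex.sq_norm, Complex.normSq_apply]
    have hn : (z t).re * (z t).re + (z t).im * (z t).im ≠ 0 := by
      rw [← hns]; exact hpos
    rw [Complex.inner, Complex.div_re, hns, ← Complex.normSq_apply]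
    simp only [Complex.mul_re, Complex.conj_re, Complex.conj_im]
    have hn' : Complex.normSq (z t) ≠ 0 := by rwa [Complex.normSq_apply]
    field_simp
    ring
  rw [h5]
  exact h4


/-- Resolvent identity. -/
theorem resolvent_identity {M₁ M₂ : Matrix n n ℂ} (h₁ : M₁.det ≠ 0) (h₂ : M₂.det ≠ 0) :
    M₁⁻¹ - M₂⁻¹ = M₂⁻¹ * (M₂ - M₁) * M₁⁻¹ := by
  have hu₁ : IsUnit M₁.det := isUnit_iff_ne_zero.mpr h₁
  have hu₂ : IsUnit M₂.det := isUnit_iff_ne_zero.mpr h₂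
  rw [Matrix.mul_sub, Matrix.sub_mul, Matrix.nonsing_inv_mul _ hu₂, Matrix.one_mul,
    Matrix.mul_assoc, Matrix.mul_nonsing_inv _ hu₁, Matrix.mul_one]

/-- Positive definiteness along a segment. -/
theorem posDef_segment {A A₀ : Matrix n n ℂ} (hA : A.PosDef) (hA₀ : A₀.PosDef) {t : ℝ}
    (ht : t ∈ Set.Icc (0 : ℝ) 1) : (A₀ + (t : ℂ) • (A - A₀)).PosDef := by
  rw [Matrix.posDef_iff_dotProduct_mulVec]
  refine ⟨?_, ?_⟩
  · have h1 : A₀ᴴ = A₀ := hA₀.isHermitian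
    have h2 : Aᴴ = A := hA.isHermitian
    show (A₀ + (t : ℂ) • (A - A₀))ᴴ = _
    simp [Matrix.conjTranspose_add, Matrix.conjTranspose_smul, Matrix.conjTranspose_sub, h1, h2]
  · intro x hx
    have hq : star x ⬝ᵥ ((A₀ + (t : ℂ) • (A - A₀)) *ᵥ x)
        = ((1 - t : ℝ) : ℂ) * (star x ⬝ᵥ (A₀ *ᵥ x)) + (t : ℂ) * (star x ⬝ᵥ (A *ᵥ x)) := by
      simp only [Matrix.add_mulVec, Matrix.smul_mulVec, Matrix.sub_mulVec, dotProduct_add,
        dotProduct_smul, dotProduct_sub, smul_eq_mul]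
      push_cast
      ring
    rw [hq]
    have h0 := hA₀.dotProduct_mulVec_pos hx
    have h1 := hA.dotProduct_mulVec_pos hx
    rw [Complex.lt_def] at h0 h1 ⊢
    simp only [Complex.zero_re, Complex.zero_im] at h0 h1 ⊢
    simp only [Complex.add_re, Complex.add_im, Complex.mul_re, Complex.mul_im, Complex.ofReal_re,
      Complex.ofReal_im, zero_mul, sub_zero, add_zero, ← h0.2, ← h1.2, mul_zero]
    constructor
    · rcases eq_or_lt_of_le ht.1 with h | h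
      · rw [← h]; simpa using h0.1
      · have : 0 ≤ (1 - t) * (star x ⬝ᵥ A₀ *ᵥ x).re := mul_nonneg (by linarith [ht.2]) h0.1.le
        have := mul_pos h h1.1
        linarith
    · simp

/-- **Key lemma**: tangent inequality for `log |det (A + S)| - log |det A|`. -/
theorem logdet_tangent (A A₀ S : Matrix n n ℂ) (hA : A.PosDef) (hA₀ : A₀.PosDef) (hS : Sᴴ = -S) :
    Real.log ‖(A₀ + S).det‖ - Real.log ‖A₀.det‖ + (((A₀ + S)⁻¹ - A₀⁻¹) * (A - A₀)).trace.re ≤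
      Real.log ‖(A + S).det‖ - Real.log ‖A.det‖ := by
  set B := A - A₀ with hB
  have hBH : Bᴴ = B := by
    rw [hB, Matrix.conjTranspose_sub, hA.isHermitian, hA₀.isHermitian]
  let D : ℝ → Matrix n n ℂ := fun t => A₀ + (t : ℂ) • B
  let M : ℝ → Matrix n n ℂ := fun t => (A₀ + S) + (t : ℂ) • B
  have hMD : ∀ t, M t = D t + S := fun t => by
    simp only [M, D]; abel
  have hDpd : ∀ t ∈ Set.Icc (0 : ℝ) 1, (D t).PosDef := fun t ht => posDef_segment hA hA₀ ht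
  have hMdet : ∀ t ∈ Set.Icc (0 : ℝ) 1, (M t).det ≠ 0 := fun t ht => by
    rw [hMD]; exact det_add_skew_ne_zero (hDpd t ht) hS
  have hDdet : ∀ t ∈ Set.Icc (0 : ℝ) 1, (D t).det ≠ 0 := fun t ht => by
    have := det_add_skew_ne_zero (S := 0) (hDpd t ht) (by simp)
    simpa using this
  let τ : ℝ → ℝ := fun t => ((M t)⁻¹ * B).trace.re - ((D t)⁻¹ * B).trace.re
  let φ : ℝ → ℝ := fun t => Real.log ‖(M t).det‖ - Real.log ‖(D t).det‖
  have hφ : ∀ t ∈ Set.Icc (0 : ℝ) 1, HasDerivAt φ (τ t) t := by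
    intro t ht
    have h1 := hasDerivAt_log_norm (hasDerivAt_det_line' (A₀ + S) B t (hMdet t ht)) (hMdet t ht)
    have h2 := hasDerivAt_log_norm (hasDerivAt_det_line' A₀ B t (hDdet t ht)) (hDdet t ht)
    have e1 : ((A₀ + S + (t : ℂ) • B).det * ((A₀ + S + (t : ℂ) • B)⁻¹ * B).trace
        / (A₀ + S + (t : ℂ) • B).det) = ((M t)⁻¹ * B).trace := by
      have : (A₀ + S + (t : ℂ) • B).det ≠ 0 := hMdet t ht
      field_simp
      rfl
    have e3 : ((A₀ + (t : ℂ) • B).det * ((A₀ + (t : ℂ) • B)⁻¹ * B).trace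
        / (A₀ + (t : ℂ) • B).det) = ((D t)⁻¹ * B).trace := by
      have : (A₀ + (t : ℂ) • B).det ≠ 0 := hDdet t ht
      field_simp
      rfl
    rw [e1] at h1
    rw [e3] at h2
    exact h1.sub h2
  have hmono : ∀ t₁ ∈ Set.Icc (0 : ℝ) 1, ∀ t₂ ∈ Set.Icc (0 : ℝ) 1, t₁ ≤ t₂ → τ t₁ ≤ τ t₂ := by
    intro t₁ ht₁ t₂ ht₂ h12
    have hcore := core_ineq (hDpd t₁ ht₁) (hDpd t₂ ht₂) hS hBH
    have hr1 := resolvent_identity (hMdet t₁ ht₁) (hMdet t₂ ht₂)
    have hr2 := resolvent_identity (hDdet t₁ ht₁) (hDdet t₂ ht₂)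
    have hd1 : M t₂ - M t₁ = ((t₂ - t₁ : ℝ) : ℂ) • B := by
      simp only [M]; push_cast; rw [sub_smul]; abel
    have hd2 : D t₂ - D t₁ = ((t₂ - t₁ : ℝ) : ℂ) • B := by
      simp only [D]; push_cast; rw [sub_smul]; abel
    rw [hd1] at hr1
    rw [hd2] at hr2
    have e1 : ((M t₁)⁻¹ * B).trace.re - ((M t₂)⁻¹ * B).trace.re =
        (t₂ - t₁) * ((M t₂)⁻¹ * B * (M t₁)⁻¹ * B).trace.re := by
      have : ((M t₁)⁻¹ * B).trace - ((M t₂)⁻¹ * B).trace =
          ((t₂ - t₁ : ℝ) : ℂ) * ((M t₂)⁻¹ * B * (M t₁)⁻¹ * B).trace := by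
        rw [← Matrix.trace_sub, ← Matrix.sub_mul, hr1, Matrix.mul_smul, Matrix.smul_mul,
          Matrix.smul_mul, Matrix.trace_smul, smul_eq_mul]
      have h' := congrArg Complex.re this
      simpa [Complex.mul_re] using h'
    have e2 : ((D t₁)⁻¹ * B).trace.re - ((D t₂)⁻¹ * B).trace.re =
        (t₂ - t₁) * ((D t₂)⁻¹ * B * (D t₁)⁻¹ * B).trace.re := by
      have : ((D t₁)⁻¹ * B).trace - ((D t₂)⁻¹ * B).trace =
          ((t₂ - t₁ : ℝ) : ℂ) * ((D t₂)⁻¹ * B * (D t₁)⁻¹ * B).trace := by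
        rw [← Matrix.trace_sub, ← Matrix.sub_mul, hr2, Matrix.mul_smul, Matrix.smul_mul,
          Matrix.smul_mul, Matrix.trace_smul, smul_eq_mul]
      have h' := congrArg Complex.re this
      simpa [Complex.mul_re] using h'
    have hcore' : ((M t₂)⁻¹ * B * (M t₁)⁻¹ * B).trace.re ≤ ((D t₂)⁻¹ * B * (D t₁)⁻¹ * B).trace.re := by
      simpa only [hMD] using hcore
    have hnn : 0 ≤ t₂ - t₁ := by linarith
    have := mul_le_mul_of_nonneg_left hcore' hnn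
    simp only [τ]
    linarith
  have h0mem : (0 : ℝ) ∈ Set.Icc (0 : ℝ) 1 := ⟨le_refl _, zero_le_one⟩
  have h1mem : (1 : ℝ) ∈ Set.Icc (0 : ℝ) 1 := ⟨zero_le_one, le_refl _⟩
  let ψ : ℝ → ℝ := fun t => φ t - t * τ 0
  have hψ : ∀ t ∈ Set.Icc (0 : ℝ) 1, HasDerivAt ψ (τ t - τ 0) t := by
    intro t ht
    have h1 := hφ t ht
    have h2 : HasDerivAt (fun t : ℝ => t * τ 0) (τ 0) t := by
      simpa using (hasDerivAt_id t).mul_const (τ 0)
    exact h1.sub h2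
  have hψmono : MonotoneOn ψ (Set.Icc (0 : ℝ) 1) := by
    apply monotoneOn_of_deriv_nonneg (convex_Icc 0 1)
    · exact fun t ht => (hψ t ht).continuousAt.continuousWithinAt
    · intro t ht
      exact (hψ t (interior_subset ht)).differentiableAt.differentiableWithinAt
    · intro t ht
      rw [(hψ t (interior_subset ht)).deriv]
      have := hmono 0 h0mem t (interior_subset ht) (interior_subset ht).1
      linarith
  have hfinal := hψmono h0mem h1mem zero_le_one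
  have hM0 : M 0 = A₀ + S := by simp [M]
  have hD0 : D 0 = A₀ := by simp [D]
  have hM1 : M 1 = A + S := by simp only [M, B]; simp; abel
  have hD1 : D 1 = A := by simp only [D, B]; simp
  simp only [ψ, φ, τ, hM0, hD0, hM1, hD1] at hfinal
  have hexp : (((A₀ + S)⁻¹ - A₀⁻¹) * B).trace.re = ((A₀ + S)⁻¹ * B).trace.re - (A₀⁻¹ * B).trace.re := by
    rw [Matrix.sub_mul, Matrix.trace_sub, Complex.sub_re]
  rw [hexp]
  linarith

end Crest.Agent.GADAdd
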