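import Crest.Agent.Lib.GADAdd.Spectral
import Crest.Agent.Lib.GADAdd.TangentLogDet
import Crest.Agent.Lib.GADAdd.Integrate

/-!
# The per-`s` inequality (PS) behind (Z₃)
-/

set_option autoImplicit false

open Matrix
open scoped ComplexOrder

namespace Crest.Agent.GADAdd
open Crest.Quantum

section Fd

variable {n : Type*} [Fintype n] [DecidableEq n]

/-- `U diag(d) Uᴴ`. -/
noncomputable def Fd (U : Matrix n n ℂ) (d : n → ℂ) : Matrix n n ℂ := U * diagonal d * Uᴴ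

variable {U : Matrix n n ℂ}

theorem Fd_mul (hU : Uᴴ * U = 1) (d₁ d₂ : n → ℂ) :
    Fd U d₁ * Fd U d₂ = Fd U (fun i => d₁ i * d₂ i) := by
  unfold Fd
  calc U * diagonal d₁ * Uᴴ * (U * diagonal d₂ * Uᴴ)
      = U * diagonal d₁ * (Uᴴ * U) * diagonal d₂ * Uᴴ := by simp only [Matrix.mul_assoc]
    _ = U * (diagonal d₁ * diagonal d₂) * Uᴴ := by rw [hU, Matrix.mul_one]; simp only [Matrix.mul_assoc]
    _ = _ := by rw [Matrix.diagonal_mul_diagonal]

theorem Fd_add (d₁ d₂ : n → ℂ) : Fd U d₁ + Fd U d₂ = Fd U (fun i => d₁ i + d₂ i) := by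
  unfold Fd
  rw [← Matrix.add_mul, ← Matrix.mul_add, Matrix.diagonal_add]

theorem Fd_smul (c : ℂ) (d : n → ℂ) : c • Fd U d = Fd U (fun i => c * d i) := by
  unfold Fd
  rw [← Matrix.smul_mul, ← Matrix.mul_smul, ← Matrix.diagonal_smul]
  rfl

theorem Fd_const (hU' : U * Uᴴ = 1) (c : ℂ) : Fd U (fun _ => c) = c • (1 : Matrix n n ℂ) := by
  unfold Fd
  have : diagonal (fun _ : n => c) = c • (1 : Matrix n n ℂ) := by
    ext i j; by_cases h : i = j <;> simp [h, Matrix.diagonal, Matrix.one_apply]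
  rw [this, Matrix.mul_smul, Matrix.smul_mul, Matrix.mul_one, hU']

theorem Fd_one (hU' : U * Uᴴ = 1) : Fd U (fun _ => 1) = 1 := by
  rw [Fd_const hU', one_smul]

theorem Fd_inv (hU : Uᴴ * U = 1) (hU' : U * Uᴴ = 1) (d : n → ℂ) (hd : ∀ i, d i ≠ 0) :
    (Fd U d)⁻¹ = Fd U (fun i => (d i)⁻¹) := by
  apply Matrix.inv_eq_right_inv
  rw [Fd_mul hU, ← Fd_one hU']
  congr 1
  funext i
  exact mul_inv_cancel₀ (hd i)

theorem Fd_det (hU : Uᴴ * U = 1) (d : n → ℂ) : (Fd U d).det = ∏ i, d i := by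
  unfold Fd
  rw [Matrix.mul_assoc, Matrix.det_mul_comm, Matrix.mul_assoc, hU, Matrix.mul_one, Matrix.det_diagonal]

theorem Fd_trace_mul (d : n → ℂ) (M : Matrix n n ℂ) :
    (Fd U d * M).trace = ∑ i, d i * (Uᴴ * M * U) i i := by
  unfold Fd
  have h1 : (U * diagonal d * Uᴴ * M).trace = (diagonal d * (Uᴴ * M * U)).trace := by
    rw [show U * diagonal d * Uᴴ * M = U * (diagonal d * (Uᴴ * M)) by simp only [Matrix.mul_assoc],
      Matrix.trace_mul_comm]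
    simp only [Matrix.mul_assoc]
  rw [h1]
  simp [Matrix.trace, Matrix.diagonal_mul]

/-- `U diag(g ∘ r) Uᴴ`. -/
noncomputable def Gf (U : Matrix n n ℂ) (r : n → ℝ) (g : ℝ → ℝ) : Matrix n n ℂ :=
  Fd U (fun i => ((g (r i) : ℝ) : ℂ))

theorem Gf_mul (hU : Uᴴ * U = 1) (r : n → ℝ) (g₁ g₂ : ℝ → ℝ) :
    Gf U r g₁ * Gf U r g₂ = Gf U r (fun t => g₁ t * g₂ t) := by
  unfold Gf
  rw [Fd_mul hU]
  simp only [Complex.ofReal_mul]

theorem Gf_add (r : n → ℝ) (g₁ g₂ : ℝ → ℝ) :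
    Gf U r g₁ + Gf U r g₂ = Gf U r (fun t => g₁ t + g₂ t) := by
  unfold Gf
  rw [Fd_add]
  simp only [Complex.ofReal_add]

theorem Gf_smul (r : n → ℝ) (c : ℝ) (g : ℝ → ℝ) :
    (c : ℂ) • Gf U r g = Gf U r (fun t => c * g t) := by
  unfold Gf
  rw [Fd_smul]
  simp only [Complex.ofReal_mul]

theorem Gf_congr (r : n → ℝ) {g₁ g₂ : ℝ → ℝ} (h : ∀ i, g₁ (r i) = g₂ (r i)) :
    Gf U r g₁ = Gf U r g₂ := by
  unfold Gf
  congr 1
  funext i
  rw [h]

theorem Gf_eq_one (hU' : U * Uᴴ = 1) (r : n → ℝ) {g : ℝ → ℝ} (h : ∀ i, g (r i) = 1) :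
    Gf U r g = 1 := by
  rw [Gf_congr r (g₂ := fun _ => 1) h]
  unfold Gf
  simp only [Complex.ofReal_one]
  exact Fd_one hU'

theorem Gf_inv (hU : Uᴴ * U = 1) (hU' : U * Uᴴ = 1) (r : n → ℝ) {g : ℝ → ℝ}
    (h : ∀ i, g (r i) ≠ 0) : (Gf U r g)⁻¹ = Gf U r (fun t => (g t)⁻¹) := by
  unfold Gf
  rw [Fd_inv hU hU']
  · simp only [Complex.ofReal_inv]
  · intro i; exact_mod_cast h i

theorem Gf_det (hU : Uᴴ * U = 1) (r : n → ℝ) (g : ℝ → ℝ) :
    (Gf U r g).det = ((∏ i, g (r i) : ℝ) : ℂ) := by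
  unfold Gf
  rw [Fd_det hU]
  push_cast
  rfl

theorem Gf_trace_mul (r : n → ℝ) (g : ℝ → ℝ) (M : Matrix n n ℂ) :
    (Gf U r g * M).trace = ∑ i, ((g (r i) : ℝ) : ℂ) * (Uᴴ * M * U) i i := by
  unfold Gf
  exact Fd_trace_mul _ _

theorem Gf_affine (hU' : U * Uᴴ = 1) (r : n → ℝ) (c s : ℝ) :
    (c : ℂ) • Gf U r (fun t => t) + (s : ℂ) • (1 : Matrix n n ℂ) = Gf U r (fun t => c * t + s) := by
  have h1 : (s : ℂ) • (1 : Matrix n n ℂ) = Gf U r (fun _ => s) := by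
    unfold Gf
    rw [Fd_const hU']
  rw [h1, Gf_smul, Gf_add]

theorem Gf_sub (r : n → ℝ) (g₁ g₂ : ℝ → ℝ) :
    Gf U r g₁ - Gf U r g₂ = Gf U r (fun t => g₁ t - g₂ t) := by
  unfold Gf Fd
  rw [← Matrix.sub_mul, ← Matrix.mul_sub, Matrix.diagonal_sub]
  simp only [Complex.ofReal_sub]

theorem conj_Gf_diag (hU : Uᴴ * U = 1) (r : n → ℝ) (g : ℝ → ℝ) (i : n) :
    (Uᴴ * Gf U r g * U) i i = ((g (r i) : ℝ) : ℂ) := by
  unfold Gf Fd
  have : Uᴴ * (U * diagonal (fun i => ((g (r i) : ℝ) : ℂ)) * Uᴴ) * U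
      = (Uᴴ * U) * diagonal (fun i => ((g (r i) : ℝ) : ℂ)) * (Uᴴ * U) := by
    simp only [Matrix.mul_assoc]
  rw [this, hU, Matrix.one_mul, Matrix.mul_one, Matrix.diagonal_apply_eq]

end Fd


section Main

variable {L R : Type*} [Fintype L] [DecidableEq L] [Fintype R] [DecidableEq R]

/-- The block matrix of the core inequality. -/
def Tmat (Z Y : Matrix L R ℂ) (P : Matrix L L ℂ) : Matrix (L ⊕ L) (L ⊕ L) ℂ :=
  fromBlocks (Z * Zᴴ + P) (Z * Yᴴ) (Y * Zᴴ) (Y * Yᴴ)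

theorem Tmat_posSemidef (Z Y : Matrix L R ℂ) {P : Matrix L L ℂ} (hP : P.PosSemidef) :
    (Tmat Z Y P).PosSemidef := by
  -- `T = W Wᴴ + fromBlocks P 0 0 0` with `W = fromRows Z Y`.
  have h1 : (fromBlocks (Z * Zᴴ) (Z * Yᴴ) (Y * Zᴴ) (Y * Yᴴ) : Matrix (L ⊕ L) (L ⊕ L) ℂ).PosSemidef := by
    have := posSemidef_self_mul_conjTranspose (Matrix.fromRows Z Y)
    rwa [Matrix.conjTranspose_fromRows_eq_fromCols_conjTranspose, Matrix.fromRows_mul_fromCols] at this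
  have h2 : (fromBlocks P 0 0 0 : Matrix (L ⊕ L) (L ⊕ L) ℂ).PosSemidef := by
    obtain ⟨G, rfl⟩ := psd_exists_factor hP
    have := posSemidef_conjTranspose_mul_self (Matrix.fromCols G (0 : Matrix L L ℂ))
    rw [Matrix.conjTranspose_fromCols_eq_fromRows_conjTranspose, Matrix.fromRows_mul_fromCols] at this
    simpa using this
  have h3 : Tmat Z Y P = fromBlocks (Z * Zᴴ) (Z * Yᴴ) (Y * Zᴴ) (Y * Yᴴ) + fromBlocks P 0 0 0 := by
    unfold Tmat
    rw [Matrix.fromBlocks_add]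
    simp
  rw [h3]
  exact h1.add h2

theorem Tmat_isHermitian (Z Y : Matrix L R ℂ) {P : Matrix L L ℂ} (hP : P.PosSemidef) :
    (Tmat Z Y P).IsHermitian := (Tmat_posSemidef Z Y hP).isHermitian

/-- Schur identity: `det (T + s) = det (YYᴴ + s) * det (P + s + s Z (YᴴY + s)⁻¹ Zᴴ)`. -/
theorem det_Tmat_add (Z Y : Matrix L R ℂ) {P : Matrix L L ℂ} (hP : P.PosSemidef) {s : ℝ}
    (hs : 0 < s) :
    (Tmat Z Y P + (s : ℂ) • 1).det = (Y * Yᴴ + (s : ℂ) • 1).det *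
      (P + (s : ℂ) • 1 + (s : ℂ) • (Z * (Yᴴ * Y + (s : ℂ) • 1)⁻¹ * Zᴴ)).det := by
  have hs' : (0 : ℂ) < (s : ℂ) := by exact_mod_cast hs
  have hH : (Y * Yᴴ + (s : ℂ) • (1 : Matrix L L ℂ)).PosDef :=
    (PosDef.one.smul hs').posSemidef_add (posSemidef_self_mul_conjTranspose Y)
  have hD : (Yᴴ * Y + (s : ℂ) • (1 : Matrix R R ℂ)).PosDef :=
    (PosDef.one.smul hs').posSemidef_add (posSemidef_conjTranspose_mul_self Y)
  set H := Y * Yᴴ + (s : ℂ) • (1 : Matrix L L ℂ) with hHdef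
  set D := Yᴴ * Y + (s : ℂ) • (1 : Matrix R R ℂ) with hDdef
  have hHu : IsUnit H.det := (Matrix.isUnit_iff_isUnit_det H).mp hH.isUnit
  have hDu : IsUnit D.det := (Matrix.isUnit_iff_isUnit_det D).mp hD.isUnit
  have hblock : Tmat Z Y P + (s : ℂ) • (1 : Matrix (L ⊕ L) (L ⊕ L) ℂ)
      = fromBlocks (Z * Zᴴ + P + (s : ℂ) • 1) (Z * Yᴴ) (Y * Zᴴ) H := by
    unfold Tmat
    rw [← Matrix.fromBlocks_one, Matrix.fromBlocks_smul, Matrix.fromBlocks_add]
    simp [hHdef]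
  letI : Invertible H := Matrix.invertibleOfIsUnitDet H hHu
  rw [hblock, Matrix.det_fromBlocks₂₂, Matrix.invOf_eq_nonsing_inv]
  congr 1
  congr 1
  -- `Yᴴ H⁻¹ = D⁻¹ Yᴴ`
  have h1 : Yᴴ * H⁻¹ = D⁻¹ * Yᴴ := by
    have h2 : D * Yᴴ = Yᴴ * H := by
      rw [hDdef, hHdef, Matrix.add_mul, Matrix.mul_add, Matrix.smul_mul, Matrix.mul_smul,
        Matrix.one_mul, Matrix.mul_one, Matrix.mul_assoc]
    calc Yᴴ * H⁻¹ = D⁻¹ * (D * Yᴴ) * H⁻¹ := by
          rw [← Matrix.mul_assoc, Matrix.nonsing_inv_mul _ hDu, Matrix.one_mul]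
      _ = D⁻¹ * Yᴴ := by
          rw [h2, Matrix.mul_assoc, Matrix.mul_assoc, Matrix.mul_nonsing_inv _ hHu, Matrix.mul_one]
  have h3 : Yᴴ * H⁻¹ * Y = 1 - (s : ℂ) • D⁻¹ := by
    rw [h1, Matrix.mul_assoc]
    have h4 : Yᴴ * Y = D - (s : ℂ) • 1 := by rw [hDdef]; abel
    rw [h4, Matrix.mul_sub, Matrix.nonsing_inv_mul _ hDu, Matrix.mul_smul, Matrix.mul_one]
  have h5 : Z * Yᴴ * H⁻¹ * (Y * Zᴴ) = Z * Zᴴ - (s : ℂ) • (Z * D⁻¹ * Zᴴ) := by
    calc Z * Yᴴ * H⁻¹ * (Y * Zᴴ) = Z * (Yᴴ * H⁻¹ * Y) * Zᴴ := by simp only [Matrix.mul_assoc]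
      _ = _ := by
        rw [h3, Matrix.mul_sub, Matrix.sub_mul, Matrix.mul_one, Matrix.mul_smul, Matrix.smul_mul]
  rw [h5]
  abel

/-- Determinant of a positive definite matrix: real part is the norm. -/
theorem re_det_eq_norm {n : Type*} [Fintype n] [DecidableEq n] {A : Matrix n n ℂ} (hA : A.PosDef) :
    (A.det).re = ‖A.det‖ := by
  have h := hA.det_pos
  rw [Complex.lt_def] at h
  have h2 : A.det = ((A.det).re : ℂ) := by
    apply Complex.ext
    · simp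
    · simp [← h.2]
  rw [h2, Complex.norm_real, Real.norm_of_nonneg (by simpa using h.1.le)]
  simp

theorem det_ne_zero_of_posDef {n : Type*} [Fintype n] [DecidableEq n] {A : Matrix n n ℂ}
    (hA : A.PosDef) : A.det ≠ 0 := by
  have h := hA.det_pos
  exact h.ne'

/-- Diagonal blocks positive definite. -/
theorem posDef_fromBlocks_diag {A : Matrix L L ℂ} {D : Matrix R R ℂ} (hA : A.PosDef) (hD : D.PosDef) :
    (fromBlocks A 0 0 D).PosDef := by
  have h1 : (fromBlocks A 0 (0 : Matrix L R ℂ)ᴴ D).PosSemidef := by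
    haveI : Invertible A := Matrix.invertibleOfIsUnitDet A (isUnit_iff_ne_zero.mpr (det_ne_zero_of_posDef hA))
    rw [PosDef.fromBlocks₁₁ _ _ hA]
    simpa using hD.posSemidef
  rw [conjTranspose_zero] at h1
  rw [h1.posDef_iff_isUnit, Matrix.isUnit_iff_isUnit_det, Matrix.det_fromBlocks_zero₂₁]
  exact isUnit_iff_ne_zero.mpr (mul_ne_zero (det_ne_zero_of_posDef hA) (det_ne_zero_of_posDef hD))

/-- The skew block. -/
theorem skew_block (Z : Matrix L R ℂ) (s : ℝ) :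
    (fromBlocks 0 (((Real.sqrt s : ℝ) : ℂ) • Z) ((-((Real.sqrt s : ℝ) : ℂ)) • Zᴴ) 0 :
      Matrix (L ⊕ R) (L ⊕ R) ℂ)ᴴ =
      - fromBlocks 0 (((Real.sqrt s : ℝ) : ℂ) • Z) ((-((Real.sqrt s : ℝ) : ℂ)) • Zᴴ) 0 := by
  rw [Matrix.fromBlocks_conjTranspose, Matrix.fromBlocks_neg]
  simp [Matrix.conjTranspose_smul]

/-- Log-determinant of the block with a Schur complement. -/
theorem block_log (Z : Matrix L R ℂ) {D₁ : Matrix L L ℂ} {D₂ : Matrix R R ℂ} (h₁ : D₁.PosDef)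
    (h₂ : D₂.PosDef) {s : ℝ} (hs : 0 < s) :
    Real.log ‖(fromBlocks D₁ 0 0 D₂ +
        fromBlocks 0 (((Real.sqrt s : ℝ) : ℂ) • Z) ((-((Real.sqrt s : ℝ) : ℂ)) • Zᴴ) 0 :
          Matrix (L ⊕ R) (L ⊕ R) ℂ).det‖
      - Real.log ‖(fromBlocks D₁ 0 0 D₂ : Matrix (L ⊕ R) (L ⊕ R) ℂ).det‖ =
    Real.log ‖(D₁ + (s : ℂ) • (Z * D₂⁻¹ * Zᴴ)).det‖ - Real.log ‖D₁.det‖ := by
  have hu₂ : IsUnit D₂.det := isUnit_iff_ne_zero.mpr (det_ne_zero_of_posDef h₂)
  letI : Invertible D₂ := Matrix.invertibleOfIsUnitDet D₂ hu₂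
  have hS : D₁ + (s : ℂ) • (Z * D₂⁻¹ * Zᴴ)
      = D₁ - ((Real.sqrt s : ℝ) : ℂ) • Z * D₂⁻¹ * ((-((Real.sqrt s : ℝ) : ℂ)) • Zᴴ) := by
    have hσ : ((Real.sqrt s : ℝ) : ℂ) * ((Real.sqrt s : ℝ) : ℂ) = (s : ℂ) := by
      rw [← Complex.ofReal_mul, Real.mul_self_sqrt hs.le]
    simp only [Matrix.smul_mul, Matrix.mul_smul, smul_smul, neg_smul, Matrix.mul_neg, mul_neg, sub_neg_eq_add, hσ]
  have hadd : (fromBlocks D₁ 0 0 D₂ +
        fromBlocks 0 (((Real.sqrt s : ℝ) : ℂ) • Z) ((-((Real.sqrt s : ℝ) : ℂ)) • Zᴴ) 0 :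
          Matrix (L ⊕ R) (L ⊕ R) ℂ)
      = fromBlocks D₁ (((Real.sqrt s : ℝ) : ℂ) • Z) ((-((Real.sqrt s : ℝ) : ℂ)) • Zᴴ) D₂ := by
    rw [Matrix.fromBlocks_add]; simp
  rw [hadd, Matrix.det_fromBlocks₂₂, Matrix.det_fromBlocks_zero₂₁, Matrix.invOf_eq_nonsing_inv, ← hS]
  have hsch : (D₁ + (s : ℂ) • (Z * D₂⁻¹ * Zᴴ)).det ≠ 0 := by
    have hs' : (0 : ℂ) ≤ (s : ℂ) := by exact_mod_cast hs.le
    have hp : (D₁ + (s : ℂ) • (Z * D₂⁻¹ * Zᴴ)).PosDef :=
      h₁.add_posSemidef ((h₂.inv.posSemidef.mul_mul_conjTranspose_same Z).smul hs')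
    exact det_ne_zero_of_posDef hp
  have hd₁ := det_ne_zero_of_posDef h₁
  have hd₂ := det_ne_zero_of_posDef h₂
  rw [norm_mul, norm_mul, Real.log_mul (norm_ne_zero_iff.mpr hd₂) (norm_ne_zero_iff.mpr hsch),
    Real.log_mul (norm_ne_zero_iff.mpr hd₁) (norm_ne_zero_iff.mpr hd₂)]
  ring

section Inter

variable {U : Matrix L L ℂ} {V : Matrix R R ℂ} {r : L → ℝ} {r' : R → ℝ}

/-- The intertwining predicate. -/
def IsInter (U : Matrix L L ℂ) (V : Matrix R R ℂ) (r : L → ℝ) (r' : R → ℝ) (Z : Matrix L R ℂ)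
    (g : ℝ → ℝ) : Prop :=
  Gf U r g * Z = Z * Gf V r' g

theorem IsInter.mul {Z : Matrix L R ℂ} (hU : Uᴴ * U = 1) (hV : Vᴴ * V = 1) {g₁ g₂ : ℝ → ℝ}
    (h₁ : IsInter U V r r' Z g₁) (h₂ : IsInter U V r r' Z g₂) :
    IsInter U V r r' Z (fun t => g₁ t * g₂ t) := by
  unfold IsInter at *
  rw [← Gf_mul hU, ← Gf_mul hV, Matrix.mul_assoc, h₂, ← Matrix.mul_assoc, h₁, Matrix.mul_assoc]

theorem IsInter.add {Z : Matrix L R ℂ} {g₁ g₂ : ℝ → ℝ}
    (h₁ : IsInter U V r r' Z g₁) (h₂ : IsInter U V r r' Z g₂) :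
    IsInter U V r r' Z (fun t => g₁ t + g₂ t) := by
  unfold IsInter at *
  rw [← Gf_add, ← Gf_add, Matrix.add_mul, Matrix.mul_add, h₁, h₂]

theorem isInter_const {Z : Matrix L R ℂ} (hU' : U * Uᴴ = 1) (hV' : V * Vᴴ = 1) (c : ℝ) :
    IsInter U V r r' Z (fun _ => c) := by
  unfold IsInter Gf
  rw [Fd_const hU', Fd_const hV', Matrix.smul_mul, Matrix.mul_smul, Matrix.one_mul, Matrix.mul_one]

theorem isInter_id {Z : Matrix L R ℂ} (hL : Z * Zᴴ = Gf U r (fun t => t))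
    (hR : Zᴴ * Z = Gf V r' (fun t => t)) : IsInter U V r r' Z (fun t => t) := by
  unfold IsInter
  rw [← hL, ← hR, Matrix.mul_assoc]

theorem IsInter.inv {Z : Matrix L R ℂ} (hU : Uᴴ * U = 1) (hU' : U * Uᴴ = 1) (hV : Vᴴ * V = 1)
    (hV' : V * Vᴴ = 1) {g : ℝ → ℝ} (h : IsInter U V r r' Z g) (hg : ∀ i, g (r i) ≠ 0)
    (hg' : ∀ j, g (r' j) ≠ 0) : IsInter U V r r' Z (fun t => (g t)⁻¹) := by
  unfold IsInter at *
  have h1 : Gf U r (fun t => (g t)⁻¹) * Gf U r g = 1 := by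
    rw [Gf_mul hU]
    exact Gf_eq_one hU' r (fun i => inv_mul_cancel₀ (hg i))
  have h2 : Gf V r' g * Gf V r' (fun t => (g t)⁻¹) = 1 := by
    rw [Gf_mul hV]
    exact Gf_eq_one hV' r' (fun j => mul_inv_cancel₀ (hg' j))
  calc Gf U r (fun t => (g t)⁻¹) * Z
      = Gf U r (fun t => (g t)⁻¹) * Z * (Gf V r' g * Gf V r' (fun t => (g t)⁻¹)) := by
        rw [h2, Matrix.mul_one]
    _ = Gf U r (fun t => (g t)⁻¹) * (Z * Gf V r' g) * Gf V r' (fun t => (g t)⁻¹) := by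
        simp only [Matrix.mul_assoc]
    _ = (Gf U r (fun t => (g t)⁻¹) * Gf U r g) * Z * Gf V r' (fun t => (g t)⁻¹) := by
        rw [← h]; simp only [Matrix.mul_assoc]
    _ = Z * Gf V r' (fun t => (g t)⁻¹) := by rw [h1, Matrix.one_mul]

/-- The spectral data of `Z`. -/
structure SpecZ (Z : Matrix L R ℂ) (U : Matrix L L ℂ) (V : Matrix R R ℂ) (r : L → ℝ) (r' : R → ℝ) :
    Prop where
  hU : Uᴴ * U = 1
  hU' : U * Uᴴ = 1
  hV : Vᴴ * V = 1
  hV' : V * Vᴴ = 1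
  hL : Z * Zᴴ = Gf U r (fun t => t)
  hR : Zᴴ * Z = Gf V r' (fun t => t)
  nn : ∀ i, 0 ≤ r i
  nn' : ∀ j, 0 ≤ r' j

theorem SpecZ.swap {Z : Matrix L R ℂ} (h : SpecZ Z U V r r') : SpecZ Zᴴ V U r' r :=
  ⟨h.hV, h.hV', h.hU, h.hU', by rw [conjTranspose_conjTranspose]; exact h.hR,
    by rw [conjTranspose_conjTranspose]; exact h.hL, h.nn', h.nn⟩

/-- `(x t + s)(y t + s) + s t`. -/
noncomputable def hfn (x y s t : ℝ) : ℝ := (x * t + s) * (y * t + s) + s * t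

theorem hfn_pos {x y s t : ℝ} (hx : 0 ≤ x) (hy : 0 ≤ y) (hs : 0 < s) (ht : 0 ≤ t) : 0 < hfn x y s t := by
  unfold hfn
  have h1 : 0 < x * t + s := by positivity
  have h2 : 0 < y * t + s := by positivity
  have h3 : 0 ≤ s * t := by positivity
  have := mul_pos h1 h2
  linarith

theorem hfn_eq {x y tp tm : ℝ} (h : Roots x y tp tm) (s t : ℝ) :
    hfn x y s t = (tp * t + s) * (tm * t + s) := by
  unfold hfn
  have e1 := h.sum
  have e2 := h.prod
  have : (tp * t + s) * (tm * t + s) = (tp * tm) * t ^ 2 + (tp + tm) * t * s + s ^ 2 := by ring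
  rw [this, e1, e2]
  ring

section Ref

variable {Z : Matrix L R ℂ} {x y s : ℝ}

theorem SpecZ.inter_aff (h : SpecZ Z U V r r') (c s : ℝ) :
    IsInter U V r r' Z (fun t => c * t + s) :=
  (IsInter.mul h.hU h.hV (isInter_const h.hU' h.hV' c) (isInter_id h.hL h.hR)).add
    (isInter_const h.hU' h.hV' s)

theorem SpecZ.inter_hfn (h : SpecZ Z U V r r') (x y s : ℝ) :
    IsInter U V r r' Z (hfn x y s) :=
  (IsInter.mul h.hU h.hV (h.inter_aff x s) (h.inter_aff y s)).add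
    (IsInter.mul h.hU h.hV (isInter_const h.hU' h.hV' s) (isInter_id h.hL h.hR))

theorem SpecZ.inter_inv_hfn (h : SpecZ Z U V r r') (hx : 0 ≤ x) (hy : 0 ≤ y) (hs : 0 < s) :
    IsInter U V r r' Z (fun t => (hfn x y s t)⁻¹) :=
  IsInter.inv h.hU h.hU' h.hV h.hV' (h.inter_hfn x y s)
    (fun i => (hfn_pos hx hy hs (h.nn i)).ne') (fun j => (hfn_pos hx hy hs (h.nn' j)).ne')

theorem SpecZ.inter_inv_aff (h : SpecZ Z U V r r') (hy : 0 ≤ y) (hs : 0 < s) :
    IsInter U V r r' Z (fun t => (y * t + s)⁻¹) :=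
  IsInter.inv h.hU h.hU' h.hV h.hV' (h.inter_aff y s)
    (fun i => by have := h.nn i; positivity) (fun j => by have := h.nn' j; positivity)

/-- The inverse of the reference block. -/
theorem SpecZ.ref_inv (h : SpecZ Z U V r r') (hx : 0 ≤ x) (hy : 0 ≤ y) (hs : 0 < s) :
    (fromBlocks (Gf U r (fun t => x * t + s)) (((Real.sqrt s : ℝ) : ℂ) • Z)
        ((-((Real.sqrt s : ℝ) : ℂ)) • Zᴴ) (Gf V r' (fun t => y * t + s)))⁻¹ =
      fromBlocks (Gf U r (fun t => (y * t + s) * (hfn x y s t)⁻¹))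
        ((-((Real.sqrt s : ℝ) : ℂ)) • (Z * Gf V r' (fun t => (hfn x y s t)⁻¹)))
        (((Real.sqrt s : ℝ) : ℂ) • (Gf V r' (fun t => (hfn x y s t)⁻¹) * Zᴴ))
        (Gf V r' (fun t => (x * t + s) * (hfn x y s t)⁻¹)) := by
  apply Matrix.inv_eq_right_inv
  set σ : ℂ := ((Real.sqrt s : ℝ) : ℂ) with hσdef
  have hσ : σ * σ = (s : ℂ) := by
    rw [hσdef, ← Complex.ofReal_mul, Real.mul_self_sqrt hs.le]
  set e : ℝ → ℝ := fun t => (hfn x y s t)⁻¹ with he
  have hZe : Z * Gf V r' e = Gf U r e * Z := (h.inter_inv_hfn hx hy hs).symm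
  have hZHe : Zᴴ * Gf U r e = Gf V r' e * Zᴴ := (h.swap.inter_inv_hfn hx hy hs).symm
  rw [Matrix.fromBlocks_multiply, ← Matrix.fromBlocks_one]
  congr 1
  · -- (1,1)
    have h1 : σ • Z * (σ • (Gf V r' e * Zᴴ)) = Gf U r (fun t => s * (e t * t)) := by
      rw [Matrix.smul_mul, Matrix.mul_smul, smul_smul, hσ, ← Matrix.mul_assoc, hZe, Matrix.mul_assoc,
        h.hL, Gf_mul h.hU, Gf_smul]
    rw [h1, Gf_mul h.hU, Gf_add]
    apply Gf_eq_one h.hU'
    intro i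
    have := (hfn_pos hx hy hs (h.nn i)).ne'
    simp only [he]
    rw [show (x * r i + s) * ((y * r i + s) * (hfn x y s (r i))⁻¹) + s * ((hfn x y s (r i))⁻¹ * r i)
      = hfn x y s (r i) * (hfn x y s (r i))⁻¹ by unfold hfn; ring]
    exact mul_inv_cancel₀ this
  · -- (1,2)
    have h1 : Gf V r' (fun t => (x * t + s) * e t) = Gf V r' (fun t => x * t + s) * Gf V r' e := by
      rw [Gf_mul h.hV]
    have h2 : Z * Gf V r' (fun t => x * t + s) = Gf U r (fun t => x * t + s) * Z :=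
      (h.inter_aff x s).symm
    rw [h1, Matrix.mul_smul, Matrix.smul_mul, ← Matrix.mul_assoc (Z), h2]
    simp only [Matrix.mul_assoc, neg_smul]
    abel
  · -- (2,1)
    have h1 : Gf U r (fun t => (y * t + s) * e t) = Gf U r (fun t => y * t + s) * Gf U r e := by
      rw [Gf_mul h.hU]
    have h2 : Zᴴ * Gf U r (fun t => y * t + s) = Gf V r' (fun t => y * t + s) * Zᴴ :=
      (h.swap.inter_aff y s).symm
    rw [h1, Matrix.smul_mul, Matrix.mul_smul, ← Matrix.mul_assoc (Zᴴ), h2, Matrix.mul_assoc, hZHe]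
    simp only [Matrix.mul_assoc, neg_smul]
    abel
  · -- (2,2)
    have h1 : (-σ) • Zᴴ * ((-σ) • (Z * Gf V r' e)) = Gf V r' (fun t => s * (t * e t)) := by
      rw [Matrix.smul_mul, Matrix.mul_smul, smul_smul, neg_mul_neg, hσ, ← Matrix.mul_assoc, h.hR,
        Gf_mul h.hV, Gf_smul]
    rw [h1, Gf_mul h.hV, Gf_add]
    apply Gf_eq_one h.hV'
    intro j
    have := (hfn_pos hx hy hs (h.nn' j)).ne'
    simp only [he]
    rw [show s * (r' j * (hfn x y s (r' j))⁻¹) + (y * r' j + s) * ((x * r' j + s) * (hfn x y s (r' j))⁻¹)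
      = hfn x y s (r' j) * (hfn x y s (r' j))⁻¹ by unfold hfn; ring]
    exact mul_inv_cancel₀ this

/-- The reference Schur complement. -/
theorem SpecZ.ref_logdet (h : SpecZ Z U V r r') {tp tm : ℝ} (hroots : Roots x y tp tm) (hs : 0 < s) :
    Real.log ‖(Gf U r (fun t => x * t + s)
        + (s : ℂ) • (Z * (Gf V r' (fun t => y * t + s))⁻¹ * Zᴴ)).det‖
      - Real.log ‖(Gf U r (fun t => x * t + s)).det‖ =
    ∑ i, (Real.log (tp * r i + s) + Real.log (tm * r i + s)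
      - Real.log (x * r i + s) - Real.log (y * r i + s)) := by
  have hx := hroots.x_nonneg
  have hy := hroots.y_nonneg
  have htm := hroots.tm_nonneg
  have htp : 0 ≤ tp := htm.trans hroots.lt.le
  have hpos : ∀ (c : ℝ), 0 ≤ c → ∀ i, 0 < c * r i + s := by
    intro c hc i
    have := h.nn i
    positivity
  have hposy := hpos y hy
  have hposx := hpos x hx
  have h1 : (Gf V r' (fun t => y * t + s))⁻¹ = Gf V r' (fun t => (y * t + s)⁻¹) :=
    Gf_inv h.hV h.hV' r' (fun j => by have := h.nn' j; positivity)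
  have h2 : Z * Gf V r' (fun t => (y * t + s)⁻¹) = Gf U r (fun t => (y * t + s)⁻¹) * Z :=
    (h.inter_inv_aff hy hs).symm
  have h3 : Gf U r (fun t => x * t + s) + (s : ℂ) • (Z * (Gf V r' (fun t => y * t + s))⁻¹ * Zᴴ)
      = Gf U r (fun t => x * t + s + s * ((y * t + s)⁻¹ * t)) := by
    rw [h1, h2, Matrix.mul_assoc, h.hL, Gf_mul h.hU, Gf_smul, Gf_add]
  rw [h3, Gf_det h.hU, Gf_det h.hU, Complex.norm_real, Complex.norm_real]
  have hw : ∀ i, 0 < x * r i + s + s * ((y * r i + s)⁻¹ * r i) := by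
    intro i
    have := h.nn i
    have := hposx i
    have := hposy i
    positivity
  rw [Real.norm_of_nonneg (Finset.prod_nonneg fun i _ => (hw i).le),
    Real.norm_of_nonneg (Finset.prod_nonneg fun i _ => (hposx i).le),
    Real.log_prod (fun i _ => (hw i).ne'), Real.log_prod (fun i _ => (hposx i).ne'),
    ← Finset.sum_sub_distrib]
  apply Finset.sum_congr rfl
  intro i _
  have hyi := hposy i
  have hv : x * r i + s + s * ((y * r i + s)⁻¹ * r i)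
      = (tp * r i + s) * (tm * r i + s) * (y * r i + s)⁻¹ := by
    rw [← hfn_eq hroots]
    unfold hfn
    have hne := hyi.ne'
    have hne' : r i * y + s ≠ 0 := by rw [mul_comm]; exact hne
    field_simp
  have htp' := hpos tp htp i
  have htm' := hpos tm htm i
  rw [hv, Real.log_mul (by positivity) (by positivity), Real.log_mul htp'.ne' htm'.ne', Real.log_inv]
  ring

/-- The gradient term. -/
theorem SpecZ.ref_grad (h : SpecZ Z U V r r') {tp tm : ℝ} (hroots : Roots x y tp tm) (hs : 0 < s)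
    (D₁ : Matrix L L ℂ) (D₂ : Matrix R R ℂ) :
    (((fromBlocks (Gf U r (fun t => x * t + s)) 0 0 (Gf V r' (fun t => y * t + s)) +
        fromBlocks 0 (((Real.sqrt s : ℝ) : ℂ) • Z) ((-((Real.sqrt s : ℝ) : ℂ)) • Zᴴ) 0)⁻¹ -
        (fromBlocks (Gf U r (fun t => x * t + s)) 0 0 (Gf V r' (fun t => y * t + s)))⁻¹) *
      (fromBlocks D₁ 0 0 D₂ -
        fromBlocks (Gf U r (fun t => x * t + s)) 0 0 (Gf V r' (fun t => y * t + s)))).trace.re =
    ∑ i, gradWeight x y tp tm s (r i) * (((Uᴴ * D₁ * U) i i).re - (x * r i + s))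
      + ∑ j, gradWeight y x tp tm s (r' j) * (((Vᴴ * D₂ * V) j j).re - (y * r' j + s)) := by
  have hx := hroots.x_nonneg
  have hy := hroots.y_nonneg
  have hadd : (fromBlocks (Gf U r (fun t => x * t + s)) 0 0 (Gf V r' (fun t => y * t + s)) +
        fromBlocks 0 (((Real.sqrt s : ℝ) : ℂ) • Z) ((-((Real.sqrt s : ℝ) : ℂ)) • Zᴴ) 0 :
          Matrix (L ⊕ R) (L ⊕ R) ℂ)
      = fromBlocks (Gf U r (fun t => x * t + s)) (((Real.sqrt s : ℝ) : ℂ) • Z)
        ((-((Real.sqrt s : ℝ) : ℂ)) • Zᴴ) (Gf V r' (fun t => y * t + s)) := by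
    rw [Matrix.fromBlocks_add]; simp
  have hinvd : (fromBlocks (Gf U r (fun t => x * t + s)) 0 0 (Gf V r' (fun t => y * t + s)) :
        Matrix (L ⊕ R) (L ⊕ R) ℂ)⁻¹ =
      fromBlocks (Gf U r (fun t => (x * t + s)⁻¹)) 0 0 (Gf V r' (fun t => (y * t + s)⁻¹)) := by
    apply Matrix.inv_eq_right_inv
    rw [Matrix.fromBlocks_multiply, ← Matrix.fromBlocks_one]
    simp only [Matrix.mul_zero, Matrix.zero_mul, add_zero, zero_add]
    congr 1
    · rw [Gf_mul h.hU]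
      apply Gf_eq_one h.hU'
      intro i
      have := h.nn i
      exact mul_inv_cancel₀ (by positivity)
    · rw [Gf_mul h.hV]
      apply Gf_eq_one h.hV'
      intro j
      have := h.nn' j
      exact mul_inv_cancel₀ (by positivity)
  rw [hadd, h.ref_inv hx hy hs, hinvd]
  have hg₁ : Gf U r (fun t => (y * t + s) * (hfn x y s t)⁻¹) - Gf U r (fun t => (x * t + s)⁻¹)
      = Gf U r (gradWeight x y tp tm s) := by
    rw [Gf_sub]
    congr 1
    funext t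
    unfold gradWeight
    rw [hfn_eq hroots, div_eq_mul_inv, one_div, add_comm s (y * t), add_comm s (tp * t),
      add_comm s (tm * t), add_comm s (x * t)]
  have hg₂ : Gf V r' (fun t => (x * t + s) * (hfn x y s t)⁻¹) - Gf V r' (fun t => (y * t + s)⁻¹)
      = Gf V r' (gradWeight y x tp tm s) := by
    rw [Gf_sub]
    congr 1
    funext t
    unfold gradWeight
    rw [hfn_eq hroots, div_eq_mul_inv, one_div, add_comm s (y * t), add_comm s (tp * t),
      add_comm s (tm * t), add_comm s (x * t)]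
  have hsubb : ∀ {A A' : Matrix L L ℂ} {B B' : Matrix L R ℂ} {C C' : Matrix R L ℂ} {D D' : Matrix R R ℂ},
      fromBlocks A B C D - fromBlocks A' B' C' D' = fromBlocks (A - A') (B - B') (C - C') (D - D') := by
    intro A A' B B' C C' D D'
    ext i j
    rcases i with i | i <;> rcases j with j | j <;> simp
  have htr : ∀ {A : Matrix L L ℂ} {B : Matrix L R ℂ} {C : Matrix R L ℂ} {D : Matrix R R ℂ},
      (fromBlocks A B C D).trace = A.trace + D.trace := by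
    intro A B C D
    simp [Matrix.trace, Fintype.sum_sum_type]
  rw [hsubb, hsubb, Matrix.fromBlocks_multiply, htr, hg₁, hg₂]
  simp only [sub_zero, Matrix.mul_zero, add_zero, zero_add]
  rw [Complex.add_re, Gf_trace_mul, Gf_trace_mul, Complex.re_sum, Complex.re_sum]
  congr 1
  · apply Finset.sum_congr rfl
    intro i _
    rw [Complex.re_ofReal_mul, Matrix.mul_sub, Matrix.sub_mul, Matrix.sub_apply, conj_Gf_diag h.hU]
    simp
  · apply Finset.sum_congr rfl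
    intro j _
    rw [Complex.re_ofReal_mul, Matrix.mul_sub, Matrix.sub_mul, Matrix.sub_apply, conj_Gf_diag h.hV]
    simp

end Ref

end Inter

theorem posDef_add_smul_one' {n : Type*} [Fintype n] [DecidableEq n] {A : Matrix n n ℂ}
    (hA : A.PosSemidef) {s : ℝ} (hs : 0 < s) : (A + (s : ℂ) • (1 : Matrix n n ℂ)).PosDef := by
  have hs' : (0 : ℂ) < (s : ℂ) := by exact_mod_cast hs
  exact (PosDef.one.smul hs').posSemidef_add hA

/-- The spectral data attached to `Z`. -/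
theorem specZ_of (Z : Matrix L R ℂ) :
    SpecZ Z ((posSemidef_self_mul_conjTranspose Z).isHermitian.eigenvectorUnitary : Matrix L L ℂ)
      ((posSemidef_conjTranspose_mul_self Z).isHermitian.eigenvectorUnitary : Matrix R R ℂ)
      (posSemidef_self_mul_conjTranspose Z).isHermitian.eigenvalues
      (posSemidef_conjTranspose_mul_self Z).isHermitian.eigenvalues := by
  refine ⟨Matrix.mem_unitaryGroup_iff'.mp (Subtype.property _), Matrix.mem_unitaryGroup_iff.mp (Subtype.property _),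
    Matrix.mem_unitaryGroup_iff'.mp (Subtype.property _), Matrix.mem_unitaryGroup_iff.mp (Subtype.property _),
    ?_, ?_, ?_, ?_⟩
  · exact herm_spectral _
  · exact herm_spectral _
  · exact (posSemidef_self_mul_conjTranspose Z).eigenvalues_nonneg
  · exact (posSemidef_conjTranspose_mul_self Z).eigenvalues_nonneg

/-- (PS): the per-`s` inequality.  `tp`, `tm` are the roots for `x`, `y`;
`r`, `r'` the eigenvalues of `ZZᴴ`, `ZᴴZ`; `π`, `π'` the diagonal entries of `P` and `YᴴY` in the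
corresponding eigenbases. -/
theorem perS (Z Y : Matrix L R ℂ) {P : Matrix L L ℂ} (hP : P.PosSemidef) {x y tp tm : ℝ}
    (hroots : Roots x y tp tm) {s : ℝ} (hs : 0 < s) :
    let hRL : (Z * Zᴴ).IsHermitian := (posSemidef_self_mul_conjTranspose Z).isHermitian
    let hRR : (Zᴴ * Z).IsHermitian := (posSemidef_conjTranspose_mul_self Z).isHermitian
    let U : Matrix L L ℂ := hRL.eigenvectorUnitary
    let V : Matrix R R ℂ := hRR.eigenvectorUnitary
    let r := hRL.eigenvalues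
    let r' := hRR.eigenvalues
    let π : L → ℝ := fun i => (Uᴴ * P * U) i i |>.re
    let π' : R → ℝ := fun j => (Vᴴ * (Yᴴ * Y) * V) j j |>.re
    ∑ i, gradWeight x y tp tm s (r i) * (π i - x * r i)
      + ∑ j, gradWeight y x tp tm s (r' j) * (π' j - y * r' j)
    ≤ ∑ i, Real.log ((Tmat_isHermitian Z Y hP).eigenvalues i + s)
      - ∑ i, Real.log ((posSemidef_self_mul_conjTranspose Y).isHermitian.eigenvalues i + s)
      - ∑ i, Real.log (hP.isHermitian.eigenvalues i + s)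
      - ∑ i, (Real.log (tp * r i + s) + Real.log (tm * r i + s)
          - Real.log (x * r i + s) - Real.log (y * r i + s)) := by
  intro hRL hRR U V r r' π π'
  have hsp : SpecZ Z U V r r' := specZ_of Z
  have hx := hroots.x_nonneg
  have hy := hroots.y_nonneg
  have hs' : (0 : ℂ) < (s : ℂ) := by exact_mod_cast hs
  have hD₁ : (P + (s : ℂ) • (1 : Matrix L L ℂ)).PosDef := posDef_add_smul_one' hP hs
  have hD₂ : (Yᴴ * Y + (s : ℂ) • (1 : Matrix R R ℂ)).PosDef := posDef_add_smul_one' (posSemidef_conjTranspose_mul_self Y) hs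
  have hH : (Y * Yᴴ + (s : ℂ) • (1 : Matrix L L ℂ)).PosDef := posDef_add_smul_one' (posSemidef_self_mul_conjTranspose Y) hs
  have hT : (Tmat Z Y P + (s : ℂ) • (1 : Matrix (L ⊕ L) (L ⊕ L) ℂ)).PosDef :=
    posDef_add_smul_one' (Tmat_posSemidef Z Y hP) hs
  have hAL : (Gf U r (fun t => x * t + s)).PosDef := by
    rw [← Gf_affine hsp.hU', ← hsp.hL]
    exact posDef_add_smul_one' ((posSemidef_self_mul_conjTranspose Z).smul (by exact_mod_cast hx)) hs
  have hAR : (Gf V r' (fun t => y * t + s)).PosDef := by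
    rw [← Gf_affine hsp.hV', ← hsp.hR]
    exact posDef_add_smul_one' ((posSemidef_conjTranspose_mul_self Z).smul (by exact_mod_cast hy)) hs
  have hti := logdet_tangent _ _ _
    (posDef_fromBlocks_diag hD₁ hD₂) (posDef_fromBlocks_diag hAL hAR) (skew_block Z s)
  rw [block_log Z hD₁ hD₂ hs, hsp.ref_grad hroots hs] at hti
  have hti2 := block_log Z hAL hAR hs
  have hti3 := hsp.ref_logdet hroots hs
  rw [hti3] at hti2
  rw [hti2] at hti
  -- actual side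
  have hsch : (P + (s : ℂ) • (1 : Matrix L L ℂ)
      + (s : ℂ) • (Z * (Yᴴ * Y + (s : ℂ) • (1 : Matrix R R ℂ))⁻¹ * Zᴴ)).PosDef :=
    hD₁.add_posSemidef ((hD₂.inv.posSemidef.mul_mul_conjTranspose_same Z).smul hs'.le)
  have hlogT : ∑ i, Real.log ((Tmat_isHermitian Z Y hP).eigenvalues i + s)
      = Real.log ‖(Y * Yᴴ + (s : ℂ) • (1 : Matrix L L ℂ)).det‖
        + Real.log ‖(P + (s : ℂ) • (1 : Matrix L L ℂ)
          + (s : ℂ) • (Z * (Yᴴ * Y + (s : ℂ) • (1 : Matrix R R ℂ))⁻¹ * Zᴴ)).det‖ := by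
    have h1 := log_det_add_smul_one_of_posSemidef (Tmat_posSemidef Z Y hP) hs
    rw [re_det_eq_norm hT, det_Tmat_add Z Y hP hs, norm_mul,
      Real.log_mul (norm_ne_zero_iff.mpr (det_ne_zero_of_posDef hH))
        (norm_ne_zero_iff.mpr (det_ne_zero_of_posDef hsch))] at h1
    exact h1.symm
  have hlogQ : ∑ i, Real.log ((posSemidef_self_mul_conjTranspose Y).isHermitian.eigenvalues i + s)
      = Real.log ‖(Y * Yᴴ + (s : ℂ) • (1 : Matrix L L ℂ)).det‖ := by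
    have h1 := log_det_add_smul_one_of_posSemidef (posSemidef_self_mul_conjTranspose Y) hs
    rw [re_det_eq_norm hH] at h1
    exact h1.symm
  have hlogP : ∑ i, Real.log (hP.isHermitian.eigenvalues i + s)
      = Real.log ‖(P + (s : ℂ) • (1 : Matrix L L ℂ)).det‖ := by
    have h1 := log_det_add_smul_one_of_posSemidef hP hs
    rw [re_det_eq_norm hD₁] at h1
    exact h1.symm
  rw [hlogT, hlogQ, hlogP]
  -- diagonal entries
  have hπ : ∀ i, ((Uᴴ * (P + (s : ℂ) • (1 : Matrix L L ℂ)) * U) i i).re - (x * r i + s)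
      = π i - x * r i := by
    intro i
    have : Uᴴ * (P + (s : ℂ) • (1 : Matrix L L ℂ)) * U = Uᴴ * P * U + (s : ℂ) • (1 : Matrix L L ℂ) := by
      rw [Matrix.mul_add, Matrix.add_mul, Matrix.mul_smul, Matrix.smul_mul, Matrix.mul_one, hsp.hU]
    rw [this]
    simp only [Matrix.add_apply, Matrix.smul_apply, Matrix.one_apply_eq, smul_eq_mul, mul_one,
      Complex.add_re, Complex.ofReal_re]
    simp only [π]
    ring
  have hπ' : ∀ j, ((Vᴴ * (Yᴴ * Y + (s : ℂ) • (1 : Matrix R R ℂ)) * V) j j).re - (y * r' j + s)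
      = π' j - y * r' j := by
    intro j
    have : Vᴴ * (Yᴴ * Y + (s : ℂ) • (1 : Matrix R R ℂ)) * V
        = Vᴴ * (Yᴴ * Y) * V + (s : ℂ) • (1 : Matrix R R ℂ) := by
      rw [Matrix.mul_add, Matrix.add_mul, Matrix.mul_smul, Matrix.smul_mul, Matrix.mul_one, hsp.hV]
    rw [this]
    simp only [Matrix.add_apply, Matrix.smul_apply, Matrix.one_apply_eq, smul_eq_mul, mul_one,
      Complex.add_re, Complex.ofReal_re]
    simp only [π']
    ring
  simp only [hπ, hπ'] at hti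
  linarith

end Main

end Crest.Agent.GADAdd
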