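import Mathlib
import Crest.Prelude.Def_QState
import Crest.Prelude.Def_QChannel
import Crest.Prelude.Def_AmpDamp

/-!
# `gadMap`, its tensor with a channel, and its tensor powers are channels (row 341)
-/

set_option autoImplicit false

open Matrix
open scoped ComplexOrder Kronecker

namespace Crest.Agent.GADAdd
open Crest.Quantum Crest.MathPhysics.AmpDamp

section general
variable {d e : Type} [Fintype d] [DecidableEq d] [Fintype e] [DecidableEq e]

omit [DecidableEq d] [DecidableEq e] in
/-- Complete positivity with an arbitrary finite auxiliary type. -/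
theorem cp_any [DecidableEq d] [DecidableEq e] {Φ : Matrix d d ℂ → Matrix e e ℂ} (hΦ : IsCompletelyPositive Φ)
    (κ : Type) [Fintype κ] [DecidableEq κ] (M : Matrix (κ × d) (κ × d) ℂ) (hM : M.PosSemidef) :
    (blockwise (k := κ) Φ M).PosSemidef := by
  classical
  let f : κ ≃ Fin (Fintype.card κ) := Fintype.equivFin κ
  let g : Fin (Fintype.card κ) × d → κ × d := Prod.map f.symm id
  have hM' : (M.submatrix g g).PosSemidef := hM.submatrix g
  have h := hΦ _ _ hM'
  have h2 := h.submatrix (Prod.map f id : κ × e → Fin (Fintype.card κ) × e)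
  convert h2 using 1
  ext p q
  have : block (M.submatrix g g) (f p.1) (f q.1) = block M p.1 q.1 := by
    ext i j; simp [block, g]
  simp [blockwise, this]

/-- CP from a Kraus form. -/
theorem cp_of_kraus {r : ℕ} (K : Fin r → Matrix e d ℂ) {Φ : Matrix d d ℂ → Matrix e e ℂ}
    (hK : ∀ M, Φ M = ∑ l, K l * M * (K l)ᴴ) : IsCompletelyPositive Φ := by
  classical
  intro k M hM
  have hEq : blockwise (k := Fin k) Φ M =
      ∑ l, ((1 : Matrix (Fin k) (Fin k) ℂ) ⊗ₖ K l) * M * ((1 : Matrix (Fin k) (Fin k) ℂ) ⊗ₖ K l)ᴴ := by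
    ext p q
    rw [Matrix.sum_apply]
    simp only [blockwise, Matrix.of_apply, hK, Matrix.sum_apply]
    refine Finset.sum_congr rfl fun l _ => ?_
    simp only [Matrix.mul_apply, Fintype.sum_prod_type, kroneckerMap_apply, conjTranspose_apply,
      one_apply, block, Matrix.of_apply, Finset.sum_mul]
    simp [Finset.sum_ite_eq]
    symm
    rw [Finset.sum_eq_single q.1]
    · simp
    · intro b _ hb; simp [Ne.symm hb]
    · simp
  rw [hEq]
  exact Matrix.posSemidef_sum _ fun l _ => hM.mul_mul_conjTranspose_same _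

end general

/-- Kraus operators of the GAD channel. -/
noncomputable def krausG (γ ν : ℝ) : Fin 4 → Matrix Bool Bool ℂ := fun l =>
  match l with
  | 0 => Matrix.of fun s t => if s = false ∧ t = false then ((Real.sqrt (1 - ν) : ℝ) : ℂ)
      else if s = true ∧ t = true then ((Real.sqrt (1 - ν) * Real.sqrt (1 - γ) : ℝ) : ℂ) else 0
  | 1 => Matrix.of fun s t => if s = false ∧ t = true then ((Real.sqrt (1 - ν) * Real.sqrt γ : ℝ) : ℂ) else 0
  | 2 => Matrix.of fun s t => if s = false ∧ t = false then ((Real.sqrt ν * Real.sqrt (1 - γ) : ℝ) : ℂ)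
      else if s = true ∧ t = true then ((Real.sqrt ν : ℝ) : ℂ) else 0
  | 3 => Matrix.of fun s t => if s = true ∧ t = false then ((Real.sqrt ν * Real.sqrt γ : ℝ) : ℂ) else 0

theorem gadMap_kraus {γ ν : ℝ} (hγ : γ ∈ Set.Icc (0 : ℝ) 1) (hν : ν ∈ Set.Icc (0 : ℝ) 1)
    (M : Matrix Bool Bool ℂ) : gadMap γ ν M = ∑ l, krausG γ ν l * M * (krausG γ ν l)ᴴ := by
  have h1 : ((Real.sqrt (1 - ν) : ℝ) : ℂ) ^ 2 = ((1 - ν : ℝ) : ℂ) := by
    rw [← Complex.ofReal_pow, Real.sq_sqrt (by linarith [hν.2])]
  have h2 : ((Real.sqrt ν : ℝ) : ℂ) ^ 2 = ((ν : ℝ) : ℂ) := by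
    rw [← Complex.ofReal_pow, Real.sq_sqrt hν.1]
  have h3 : ((Real.sqrt (1 - γ) : ℝ) : ℂ) ^ 2 = ((1 - γ : ℝ) : ℂ) := by
    rw [← Complex.ofReal_pow, Real.sq_sqrt (by linarith [hγ.2])]
  have h4 : ((Real.sqrt γ : ℝ) : ℂ) ^ 2 = ((γ : ℝ) : ℂ) := by
    rw [← Complex.ofReal_pow, Real.sq_sqrt hγ.1]
  push_cast at h1 h3
  ext s t
  rw [Matrix.sum_apply, Fin.sum_univ_four]
  cases s <;> cases t <;>
    simp [gadMap, krausG, Matrix.mul_apply, conjTranspose_apply]
  · linear_combination (-M false false) * h1 + (-M true true * (Real.sqrt γ : ℂ) ^ 2) * h1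
      + (-M true true * (1 - ν : ℂ)) * h4 + (-M false false * (Real.sqrt (1 - γ) : ℂ) ^ 2) * h2
      + (-M false false * (ν : ℂ)) * h3
  · linear_combination (-(Real.sqrt (1 - γ) : ℂ) * M false true) * h1
      + (-(Real.sqrt (1 - γ) : ℂ) * M false true) * h2
  · linear_combination (-(Real.sqrt (1 - γ) : ℂ) * M true false) * h1
      + (-(Real.sqrt (1 - γ) : ℂ) * M true false) * h2
  · linear_combination (-M true true * (Real.sqrt (1 - γ) : ℂ) ^ 2) * h1
      + (-M true true * (1 - ν : ℂ)) * h3 + (-M true true) * h2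
      + (-M false false * (Real.sqrt γ : ℂ) ^ 2) * h2 + (-M false false * (ν : ℂ)) * h4

section channel
variable {d e : Type} [Fintype d] [DecidableEq d] [Fintype e] [DecidableEq e]

theorem gadMap_isLinear (γ ν : ℝ) : IsLinearMap ℂ (gadMap γ ν) := by
  constructor
  · intro x y; ext s t
    cases s <;> cases t <;> simp [gadMap] <;> ring
  · intro c x; ext s t
    cases s <;> cases t <;> simp [gadMap] <;> ring

theorem gadMap_tp (γ ν : ℝ) : IsTracePreserving (gadMap γ ν) := by
  intro M
  simp [Matrix.trace, gadMap]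
  ring

/-- `gadMap` is a channel. -/
theorem gadMap_isChannel {γ ν : ℝ} (hγ : γ ∈ Set.Icc (0 : ℝ) 1) (hν : ν ∈ Set.Icc (0 : ℝ) 1) :
    IsChannel (gadMap γ ν) :=
  ⟨gadMap_isLinear γ ν, cp_of_kraus _ (gadMap_kraus hγ hν), gadMap_tp γ ν⟩

theorem qubitCoeff_gad {γ ν : ℝ} (hγ : γ ∈ Set.Icc (0 : ℝ) 1) (hν : ν ∈ Set.Icc (0 : ℝ) 1)
    (s t s' t' : Bool) :
    qubitCoeff (gadMap γ ν) s t s' t'
      = ∑ l : Fin 4, krausG γ ν l s s' * star (krausG γ ν l t t') := by
  unfold qubitCoeff
  rw [gadMap_kraus hγ hν, Matrix.sum_apply]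
  refine Finset.sum_congr rfl fun l _ => ?_
  cases s' <;> cases t' <;> simp [Matrix.mul_apply, Matrix.single, Fintype.sum_bool]

/-- Generic: the tensor of a map with Kraus form and a map `Ψ`. -/
theorem qubitTensor_isLinear {Φ : Matrix Bool Bool ℂ → Matrix Bool Bool ℂ}
    {Ψ : Matrix d d ℂ → Matrix e e ℂ} (hΨ : IsLinearMap ℂ Ψ) : IsLinearMap ℂ (qubitTensor Φ Ψ) := by
  have hblock_add : ∀ (x y : Matrix (Bool × d) (Bool × d) ℂ) (s t : Bool),
      block (x + y) s t = block x s t + block y s t := by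
    intro x y s t; ext i j; simp [block]
  have hblock_smul : ∀ (c : ℂ) (x : Matrix (Bool × d) (Bool × d) ℂ) (s t : Bool),
      block (c • x) s t = c • block x s t := by
    intro c x s t; ext i j; simp [block]
  constructor
  · intro x y; ext p q
    simp only [qubitTensor, Matrix.of_apply, hblock_add, hΨ.map_add, Matrix.add_apply, mul_add,
      Finset.sum_add_distrib]
  · intro c x; ext p q
    simp only [qubitTensor, Matrix.of_apply, hblock_smul, hΨ.map_smul, Matrix.smul_apply,
      Finset.smul_sum, smul_eq_mul]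
    simp only [Finset.mul_sum]
    apply Finset.sum_congr rfl
    intro a _
    apply Finset.sum_congr rfl
    intro b _
    ring

theorem qubitTensor_tp {Φ : Matrix Bool Bool ℂ → Matrix Bool Bool ℂ}
    (hΦ : IsTracePreserving Φ)
    {Ψ : Matrix d d ℂ → Matrix e e ℂ} (hΨ : IsTracePreserving Ψ) :
    IsTracePreserving (qubitTensor Φ Ψ) := by
  intro M
  have hc : ∀ s' t' : Bool, ∑ s : Bool, qubitCoeff Φ s s s' t' = if s' = t' then 1 else 0 := by
    intro s' t'
    have := hΦ (Matrix.single s' t' (1 : ℂ))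
    simp only [Matrix.trace, Matrix.diag_apply] at this
    simp only [qubitCoeff]
    rw [this]
    cases s' <;> cases t' <;> simp [Matrix.single, Fintype.sum_bool]
  have hL : (qubitTensor Φ Ψ M).trace =
      ∑ s' : Bool, ∑ t' : Bool, (∑ s : Bool, qubitCoeff Φ s s s' t') * (Ψ (block M s' t')).trace := by
    simp only [Matrix.trace, Matrix.diag_apply, qubitTensor, Matrix.of_apply, Fintype.sum_prod_type,
      Fintype.sum_bool, Finset.sum_add_distrib, ← Finset.mul_sum]
    ring
  rw [hL]
  simp only [hc, hΨ _]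
  have hb : ∀ s : Bool, (block M s s).trace = ∑ x, M (s, x) (s, x) := by
    intro s; simp [Matrix.trace, block]
  simp only [Matrix.trace, Matrix.diag_apply, Fintype.sum_prod_type, Fintype.sum_bool, block,
    Matrix.of_apply]
  simp

/-- Kraus sandwich for the tensor with the GAD channel. -/
theorem qubitTensor_isCP {γ ν : ℝ} (hγ : γ ∈ Set.Icc (0 : ℝ) 1) (hν : ν ∈ Set.Icc (0 : ℝ) 1)
    {Ψ : Matrix d d ℂ → Matrix e e ℂ} (hΨ : IsCompletelyPositive Ψ) :
    IsCompletelyPositive (qubitTensor (gadMap γ ν) Ψ) := by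
  classical
  intro k M hM
  -- regroup the auxiliary registers
  let g : (Fin k × Bool) × d → Fin k × (Bool × d) := fun p => (p.1.1, (p.1.2, p.2))
  have hN : (M.submatrix g g).PosSemidef := hM.submatrix g
  have hB := cp_any hΨ (Fin k × Bool) _ hN
  let V : Fin 4 → Matrix (Fin k × (Bool × e)) ((Fin k × Bool) × e) ℂ := fun l =>
    Matrix.of fun p u => (if p.1 = u.1.1 then 1 else 0) * krausG γ ν l p.2.1 u.1.2 *
      (if p.2.2 = u.2 then 1 else 0)
  have hEq : blockwise (k := Fin k) (qubitTensor (gadMap γ ν) Ψ) M =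
      ∑ l, V l * blockwise (k := Fin k × Bool) Ψ (M.submatrix g g) * (V l)ᴴ := by
    set B := blockwise (k := Fin k × Bool) Ψ (M.submatrix g g) with hBdef
    have hV1 : ∀ (l : Fin 4) (p : Fin k × (Bool × e)) (u : (Fin k × Bool) × e),
        (V l * B) p u = ∑ s : Bool, krausG γ ν l p.2.1 s * B ((p.1, s), p.2.2) u := by
      intro l p u
      rw [Matrix.mul_apply, Fintype.sum_prod_type, Fintype.sum_prod_type]
      rw [Finset.sum_eq_single p.1]
      · refine Finset.sum_congr rfl fun s _ => ?_
        rw [Finset.sum_eq_single p.2.2]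
        · simp [V]
        · intro x _ hx; simp [V, Ne.symm hx]
        · simp
      · intro a _ ha
        refine Finset.sum_eq_zero fun s _ => Finset.sum_eq_zero fun x _ => ?_
        simp [V, Ne.symm ha]
      · simp
    have hV2 : ∀ (l : Fin 4) (C : Matrix (Fin k × (Bool × e)) ((Fin k × Bool) × e) ℂ)
        (p q : Fin k × (Bool × e)),
        (C * (V l)ᴴ) p q = ∑ t : Bool, C p ((q.1, t), q.2.2) * star (krausG γ ν l q.2.1 t) := by
      intro l C p q
      rw [Matrix.mul_apply, Fintype.sum_prod_type, Fintype.sum_prod_type]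
      rw [Finset.sum_eq_single q.1]
      · refine Finset.sum_congr rfl fun s _ => ?_
        rw [Finset.sum_eq_single q.2.2]
        · simp [V, conjTranspose_apply]
        · intro x _ hx; simp [V, conjTranspose_apply, Ne.symm hx]
        · simp
      · intro a _ ha
        refine Finset.sum_eq_zero fun s _ => Finset.sum_eq_zero fun x _ => ?_
        simp [V, conjTranspose_apply, Ne.symm ha]
      · simp
    have hblk : ∀ (a b : Fin k) (s t : Bool),
        block (M.submatrix g g) (a, s) (b, t) = block (block M a b) s t := by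
      intro a b s t; ext i j; simp [block, g]
    ext p q
    rw [Matrix.sum_apply]
    simp only [hV2, hV1]
    simp only [blockwise, qubitTensor, Matrix.of_apply, qubitCoeff_gad hγ hν, hBdef, hblk]
    simp only [Fintype.sum_bool, Fin.sum_univ_four]
    ring
  rw [hEq]
  exact Matrix.posSemidef_sum _ fun l _ => hB.mul_mul_conjTranspose_same _

/-- Tensor of the qubit channel with a channel is a channel. -/
theorem qubitTensor_isChannel {γ ν : ℝ} (hγ : γ ∈ Set.Icc (0 : ℝ) 1) (hν : ν ∈ Set.Icc (0 : ℝ) 1)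
    {Ψ : Matrix d d ℂ → Matrix e e ℂ} (hΨ : IsChannel Ψ) :
    IsChannel (qubitTensor (gadMap γ ν) Ψ) :=
  ⟨qubitTensor_isLinear hΨ.1, qubitTensor_isCP hγ hν hΨ.2.1, qubitTensor_tp (gadMap_tp γ ν) hΨ.2.2⟩

/-- The splitting of the first qubit. -/
def consEquiv (n : ℕ) : Bool × (Fin n → Bool) ≃ (Fin (n + 1) → Bool) :=
  (Fin.consEquiv (fun _ => Bool)).trans (Equiv.refl _)

theorem consEquiv_symm_fst (n : ℕ) (σ : Fin (n + 1) → Bool) : ((consEquiv n).symm σ).1 = σ 0 := rfl

theorem consEquiv_symm_snd (n : ℕ) (σ : Fin (n + 1) → Bool) (i : Fin n) :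
    ((consEquiv n).symm σ).2 i = σ i.succ := rfl

theorem consEquiv_apply_zero (n : ℕ) (x : Bool × (Fin n → Bool)) : consEquiv n x 0 = x.1 := rfl

theorem consEquiv_apply_succ (n : ℕ) (x : Bool × (Fin n → Bool)) (i : Fin n) :
    consEquiv n x i.succ = x.2 i := rfl

theorem qubitPower_succ (n : ℕ) (Φ : Matrix Bool Bool ℂ → Matrix Bool Bool ℂ)
    (M : Matrix (Fin (n + 1) → Bool) (Fin (n + 1) → Bool) ℂ) :
    qubitPower (n + 1) Φ M =
      reindex (consEquiv n) (consEquiv n)
        (qubitTensor Φ (qubitPower n Φ) (reindex (consEquiv n).symm (consEquiv n).symm M)) := by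
  ext σ τ
  simp only [reindex_apply, submatrix_apply, qubitPower, qubitTensor, Matrix.of_apply]
  have hL : ∀ F : (Fin (n + 1) → Bool) → ℂ, ∑ σ', F σ' = ∑ s' : Bool, ∑ σ'' : Fin n → Bool, F (consEquiv n (s', σ'')) := by
    intro F
    rw [← (consEquiv n).sum_comp, Fintype.sum_prod_type]
  rw [hL]
  simp only [hL]
  apply Finset.sum_congr rfl
  intro s' _
  rw [Finset.sum_comm]
  apply Finset.sum_congr rfl
  intro t' _
  rw [Finset.mul_sum]
  apply Finset.sum_congr rfl
  intro σ'' _
  rw [Finset.mul_sum]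
  apply Finset.sum_congr rfl
  intro τ'' _
  simp only [Fin.prod_univ_succ, consEquiv_symm_fst, consEquiv_symm_snd, consEquiv_apply_zero,
    consEquiv_apply_succ, block, Matrix.of_apply, Equiv.symm_symm, reindex_apply, submatrix_apply]
  ring

/-- Conjugating by reindexing preserves channels. -/
theorem isChannel_reindex {d d' e e' : Type} [Fintype d] [DecidableEq d] [Fintype d']
    [DecidableEq d'] [Fintype e] [DecidableEq e] [Fintype e'] [DecidableEq e'] (r : d' ≃ d)
    (r' : e ≃ e') {Ψ : Matrix d d ℂ → Matrix e e ℂ} (hΨ : IsChannel Ψ) :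
    IsChannel (fun M : Matrix d' d' ℂ => reindex r' r' (Ψ (reindex r r M))) := by
  refine ⟨?_, ?_, ?_⟩
  · constructor
    · intro x y
      have : reindex r r (x + y) = reindex r r x + reindex r r y := by
        ext i j; simp [reindex_apply]
      simp only [this, hΨ.1.map_add]
      ext i j; simp [reindex_apply]
    · intro c x
      have : reindex r r (c • x) = c • reindex r r x := by
        ext i j; simp [reindex_apply]
      simp only [this, hΨ.1.map_smul]
      ext i j; simp [reindex_apply]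
  · intro k M hM
    have hN : (M.submatrix (Prod.map id r.symm) (Prod.map id r.symm)).PosSemidef := hM.submatrix _
    have h := (hΨ.2.1 k _ hN).submatrix (Prod.map id r'.symm)
    convert h using 1
    ext p q
    have hb : block (M.submatrix (Prod.map id r.symm) (Prod.map id r.symm)) p.1 q.1 =
        reindex r r (block M p.1 q.1) := by
      ext i j; simp [block, reindex_apply]
    simp [blockwise, hb, reindex_apply]
  · intro M
    have : ∀ (A : Matrix e e ℂ), (reindex r' r' A).trace = A.trace := by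
      intro A
      simp only [Matrix.trace, reindex_apply, Matrix.diag_apply, submatrix_apply]
      exact Equiv.sum_comp r'.symm (fun i => A i i)
    have h2 : (reindex r r M).trace = M.trace := by
      simp only [Matrix.trace, reindex_apply, Matrix.diag_apply, submatrix_apply]
      exact Equiv.sum_comp r.symm (fun i => M i i)
    simp only [this, hΨ.2.2 _, h2]

theorem isChannel_id {d : Type} [Fintype d] [DecidableEq d] :
    IsChannel (fun M : Matrix d d ℂ => M) := by
  refine ⟨⟨fun _ _ => rfl, fun _ _ => rfl⟩, ?_, fun _ => rfl⟩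
  intro k M hM
  convert hM using 1
  ext p q
  simp [blockwise, block]

theorem qubitPower_zero (Φ : Matrix Bool Bool ℂ → Matrix Bool Bool ℂ) :
    qubitPower 0 Φ = fun M => M := by
  funext M
  ext σ τ
  simp only [qubitPower, Matrix.of_apply]
  rw [Fintype.sum_unique, Fintype.sum_unique]
  simp only [Finset.univ_eq_empty, Finset.prod_empty, one_mul]
  exact congrArg₂ M (Subsingleton.elim _ _) (Subsingleton.elim _ _)

theorem qubitPower_isChannel {γ ν : ℝ} (hγ : γ ∈ Set.Icc (0 : ℝ) 1) (hν : ν ∈ Set.Icc (0 : ℝ) 1)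
    (n : ℕ) : IsChannel (qubitPower n (gadMap γ ν)) := by
  induction n with
  | zero => rw [qubitPower_zero]; exact isChannel_id
  | succ n ih =>
    have h := isChannel_reindex (consEquiv n).symm (consEquiv n)
      (qubitTensor_isChannel hγ hν ih)
    have he : qubitPower (n + 1) (gadMap γ ν) =
        fun M => reindex (consEquiv n) (consEquiv n)
          (qubitTensor (gadMap γ ν) (qubitPower n (gadMap γ ν))
            (reindex (consEquiv n).symm (consEquiv n).symm M)) := by
      funext M
      exact qubitPower_succ n _ M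
    rw [he]
    exact h

end channel

end Crest.Agent.GADAdd
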