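import Crest.Agent.Lib.GADAdd.Additive
import Crest.Agent.Lib.GADAdd.GConvex
import Crest.Agent.Lib.GADAdd.PowerChannel

/-!
# Tensor powers: S0534
-/

set_option autoImplicit false

open Matrix
open scoped ComplexOrder Kronecker

namespace Crest.Agent.GADAdd
open Crest.Quantum Crest.MathPhysics.AmpDamp

/-- `g` is convex on `[0,1]`. -/
theorem gadG_convexOn {γ ν : ℝ} (hγ : γ ∈ Set.Icc (0 : ℝ) 1) (hν : ν ∈ Set.Icc (0 : ℝ) 1) :
    ConvexOn ℝ (Set.Icc (0 : ℝ) 1) (gadG γ ν) :=
  gad_g_convexOn hγ hν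

theorem continuous_gadRate (γ ν : ℝ) : Continuous (gadRate γ ν) :=
  continuous_gadRate' γ ν

/-- `IsDensity` is invariant under `reindex`. -/
theorem isDensity_reindex {n m : Type*} [Fintype n] [Fintype m] [DecidableEq n] [DecidableEq m]
    (e : n ≃ m) {A : Matrix n n ℂ} (hA : IsDensity A) : IsDensity (reindex e e A) := by
  refine ⟨?_, ?_⟩
  · simpa [Matrix.reindex_apply] using hA.1.submatrix e.symm
  · have h := hA.2
    rw [Matrix.trace] at h ⊢
    rw [← h, ← Equiv.sum_comp e]
    simp [Matrix.reindex_apply]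

/-- Holevo information of a reindexed map. -/
theorem holevoInfo_reindex {d e e' : Type*} [Fintype d] [Fintype e] [DecidableEq e] [Fintype e']
    [DecidableEq e'] {m : ℕ} (Φ : Matrix d d ℂ → Matrix e e ℂ) (r : e ≃ e')
    (q : Fin m → ℝ) (ρ : Fin m → Matrix d d ℂ) :
    holevoInfo (fun M => reindex r r (Φ M)) q ρ = holevoInfo Φ q ρ := by
  unfold holevoInfo
  have h : (∑ a, (q a : ℂ) • reindex r r (Φ (ρ a))) = reindex r r (∑ a, (q a : ℂ) • Φ (ρ a)) := by
    ext i j
    simp [Matrix.sum_apply, Matrix.reindex_apply]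
  rw [h, vnEntropy_reindex]
  congr 1
  exact Finset.sum_congr rfl fun a _ => by rw [vnEntropy_reindex]

/-- Upper bound for powers. -/
theorem power_upper {γ ν : ℝ} (hγ : γ ∈ Set.Icc (0 : ℝ) 1) (hν : ν ∈ Set.Icc (0 : ℝ) 1)
    {M : ℝ} (hM : ∀ p ∈ Set.Icc (0 : ℝ) 1, gadRate γ ν p ≤ M) (n : ℕ)
    {m : ℕ} {q : Fin m → ℝ} {ρ : Fin m → Matrix (Fin n → Bool) (Fin n → Bool) ℂ}
    (hens : IsEnsemble q ρ) : holevoInfo (qubitPower n (gadMap γ ν)) q ρ ≤ n * M := by
  induction n generalizing m with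
  | zero =>
    -- all states on a one-point space are the identity
    have hunit : ∀ a, qubitPower 0 (gadMap γ ν) (ρ a) = 1 := by
      intro a
      ext σ τ
      have hσ : σ = τ := Subsingleton.elim _ _
      subst hσ
      have htr := (hens.2.2 a).2
      have h2 : ∀ x y : Fin 0 → Bool, ρ a x y = 1 := by
        intro x y
        have hxy : x = y := Subsingleton.elim _ _
        subst hxy
        rw [Matrix.trace, Fintype.sum_unique, Matrix.diag_apply] at htr
        rwa [Subsingleton.elim x _]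
      simp only [qubitPower, Matrix.of_apply, Matrix.one_apply_eq]
      rw [Fintype.sum_unique, Fintype.sum_unique]
      simp [h2]
    have hsum : (∑ a, (q a : ℂ) • qubitPower 0 (gadMap γ ν) (ρ a)) = 1 := by
      simp_rw [hunit]
      rw [← Finset.sum_smul, ← Complex.ofReal_sum, hens.2.1]
      simp
    have hS : vnEntropy (1 : Matrix (Fin 0 → Bool) (Fin 0 → Bool) ℂ) = 0 := by
      rw [vnEntropy_eq_of_charpoly (Matrix.isHermitian_one) (fun _ : Fin 0 → Bool => (1 : ℝ))]
      · simp
      · simp [Matrix.charpoly_one]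
    unfold holevoInfo
    rw [hsum, hS]
    simp_rw [hunit, hS]
    simp
  | succ n ih =>
    set e := consEquiv n with he
    have hΦ : qubitPower (n + 1) (gadMap γ ν) =
        fun N => reindex e e (qubitTensor (gadMap γ ν) (qubitPower n (gadMap γ ν))
          (reindex e.symm e.symm N)) := by
      funext N
      exact qubitPower_succ n _ N
    set ρ' : Fin m → Matrix (Bool × (Fin n → Bool)) (Bool × (Fin n → Bool)) ℂ :=
      fun a => reindex e.symm e.symm (ρ a) with hρ'
    have hens' : IsEnsemble q ρ' :=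
      ⟨hens.1, hens.2.1, fun a => isDensity_reindex e.symm (hens.2.2 a)⟩
    have hH : holevoInfo (qubitPower (n + 1) (gadMap γ ν)) q ρ =
        holevoInfo (qubitTensor (gadMap γ ν) (qubitPower n (gadMap γ ν))) q ρ' := by
      rw [hΦ]
      have := holevoInfo_reindex
        (fun N => qubitTensor (gadMap γ ν) (qubitPower n (gadMap γ ν)) (reindex e.symm e.symm N)) e q ρ
      rw [this]
      rfl
    rw [hH]
    have : Nonempty (Fin n → Bool) := ⟨fun _ => false⟩
    obtain ⟨p, m₂, q₂, ρ₂, hp, hens₂, hle⟩ := additive_upper hγ hν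
      (qubitPower_isChannel hγ hν n) hens'
    have hih := ih hens₂
    -- convexity
    have hconv := (gadG_convexOn hγ hν).map_sum_le (t := Finset.univ) (w := q) (p := p)
      (fun a _ => hens.1 a) hens.2.1 (fun a _ => hp a)
    have hbar : (∑ a, q a • p a) ∈ Set.Icc (0 : ℝ) 1 :=
      (convex_Icc (0 : ℝ) 1).sum_mem (fun a _ => hens.1 a) hens.2.1 (fun a _ => hp a)
    have hrate := hM _ hbar
    rw [gadRate_eq] at hrate
    simp only [smul_eq_mul] at hconv hrate
    push_cast
    nlinarith [hconv, hrate, hle, hih]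

/-- Lower bound for powers. -/
theorem power_lower {γ ν : ℝ} (hγ : γ ∈ Set.Icc (0 : ℝ) 1) (hν : ν ∈ Set.Icc (0 : ℝ) 1)
    (n : ℕ) {p : ℝ} (hp : p ∈ Set.Icc (0 : ℝ) 1) :
    ∃ (m : ℕ) (q : Fin m → ℝ) (ρ : Fin m → Matrix (Fin n → Bool) (Fin n → Bool) ℂ),
      IsEnsemble q ρ ∧ n * gadRate γ ν p ≤ holevoInfo (qubitPower n (gadMap γ ν)) q ρ := by
  induction n with
  | zero =>
    refine ⟨1, fun _ => 1, fun _ => 1, ⟨fun _ => zero_le_one, by simp, fun _ => ?_⟩, ?_⟩
    · refine ⟨Matrix.PosSemidef.one, ?_⟩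
      simp [Matrix.trace_one]
    · simp [holevoInfo]
  | succ n ih =>
    obtain ⟨m, q, ρ, hens, hle⟩ := ih
    obtain ⟨m₁, q₁, ρ₁, hens₁, hh⟩ := holevo_u_ensemble hγ hν (m := 1) (fun _ => 1) (fun _ => zero_le_one)
      (by simp) (fun _ => p) (fun _ => hp)
    have hh' : holevoInfo (gadMap γ ν) q₁ ρ₁ = gadRate γ ν p := by
      rw [hh, gadRate_eq]; simp
    obtain ⟨m', q', ρ', hens', hH⟩ := holevo_product hγ hν (qubitPower_isChannel hγ hν n) hens₁ hens
    set e := consEquiv n with he
    have hΦ : qubitPower (n + 1) (gadMap γ ν) =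
        fun N => reindex e e (qubitTensor (gadMap γ ν) (qubitPower n (gadMap γ ν))
          (reindex e.symm e.symm N)) := by
      funext N
      exact qubitPower_succ n _ N
    refine ⟨m', q', fun a => reindex e e (ρ' a),
      ⟨hens'.1, hens'.2.1, fun a => isDensity_reindex e (hens'.2.2 a)⟩, ?_⟩
    have hHo : holevoInfo (qubitPower (n + 1) (gadMap γ ν)) q' (fun a => reindex e e (ρ' a)) =
        holevoInfo (qubitTensor (gadMap γ ν) (qubitPower n (gadMap γ ν))) q' ρ' := by
      rw [hΦ]
      have := holevoInfo_reindex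
        (fun N => qubitTensor (gadMap γ ν) (qubitPower n (gadMap γ ν)) (reindex e.symm e.symm N)) e q'
        (fun a => reindex e e (ρ' a))
      rw [this]
      unfold holevoInfo
      have hid : ∀ a, reindex e.symm e.symm (reindex e e (ρ' a)) = ρ' a := by
        intro a
        ext i j
        simp [Matrix.reindex_apply]
      simp_rw [hid]
    rw [hHo, ← hH, hh']
    push_cast
    linarith

end Crest.Agent.GADAdd
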