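import Mathlib
import Crest.Prelude.Def_QState
import Crest.Prelude.Def_QChannel

/-!
# Spectral API for `vnEntropy` (row 341, GAD additivity)

See `findings` topic "row341 PAPER PROOF COMPLETE (helper97)" for the mathematics.
-/

set_option autoImplicit false

open Matrix
open scoped ComplexOrder Kronecker

namespace Crest.Agent.GADAdd
open Crest.Quantum

variable {n m ι : Type*} [Fintype n] [DecidableEq n] [Fintype m] [DecidableEq m]

/-- Spectral decomposition with an explicit unitary. -/
theorem herm_spectral {A : Matrix n n ℂ} (hA : A.IsHermitian) :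
    A = (hA.eigenvectorUnitary : Matrix n n ℂ) * diagonal (fun i => (hA.eigenvalues i : ℂ)) *
      (hA.eigenvectorUnitary : Matrix n n ℂ)ᴴ := by
  have h := hA.spectral_theorem
  simp only [Unitary.conjStarAlgAut_apply] at h
  exact h

theorem vnEntropy_eq_sum {A : Matrix n n ℂ} (hA : A.IsHermitian) :
    vnEntropy A = ∑ i, Real.negMulLog (hA.eigenvalues i) := by
  unfold vnEntropy
  rw [dif_pos hA]
  simp only [Real.negMulLog, neg_mul]
  rw [Finset.sum_neg_distrib]

theorem sum_eigenvalues_of_charpoly {A : Matrix n n ℂ} (hA : A.IsHermitian) [Fintype ι]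
    (a : ι → ℝ) (h : A.charpoly = ∏ i, (Polynomial.X - Polynomial.C (a i : ℂ))) (f : ℝ → ℝ) :
    ∑ i, f (hA.eigenvalues i) = ∑ i, f (a i) := by
  have h1 := hA.roots_charpoly_eq_eigenvalues
  have h2 : A.charpoly.roots = Multiset.map (fun i => (a i : ℂ)) Finset.univ.val := by
    rw [h, Polynomial.roots_prod]
    · simp
    · simp [Finset.prod_ne_zero_iff, Polynomial.X_sub_C_ne_zero]
  have h3 : Multiset.map (fun i => (hA.eigenvalues i : ℂ)) Finset.univ.val
      = Multiset.map (fun i => (a i : ℂ)) Finset.univ.val := by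
    rw [← h2, h1]; rfl
  have h4 : Multiset.map hA.eigenvalues Finset.univ.val = Multiset.map a Finset.univ.val := by
    have hinj : Function.Injective (fun x : ℝ => (x : ℂ)) := Complex.ofReal_injective
    apply Multiset.map_injective hinj
    simpa [Multiset.map_map, Function.comp_def] using h3
  have h5 := congrArg (fun s => (Multiset.map f s).sum) h4
  simpa [Multiset.map_map, Function.comp_def] using h5

theorem vnEntropy_eq_of_charpoly {A : Matrix n n ℂ} (hA : A.IsHermitian) [Fintype ι]
    (a : ι → ℝ) (h : A.charpoly = ∏ i, (Polynomial.X - Polynomial.C (a i : ℂ))) :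
    vnEntropy A = ∑ i, Real.negMulLog (a i) := by
  rw [vnEntropy_eq_sum hA]
  exact sum_eigenvalues_of_charpoly hA a h _

/-- Charpoly of a unitary conjugate of a diagonal matrix. -/
theorem charpoly_unitary_conj_diag (U : Matrix n n ℂ) (hU : Uᴴ * U = 1) (d : n → ℂ) :
    (U * diagonal d * Uᴴ).charpoly = ∏ i, (Polynomial.X - Polynomial.C (d i)) := by
  rw [Matrix.mul_assoc, charpoly_mul_comm, Matrix.mul_assoc, hU, Matrix.mul_one, charpoly_diagonal]

theorem re_trace_eq_sum_eigenvalues {A : Matrix n n ℂ} (hA : A.IsHermitian) :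
    A.trace.re = ∑ i, hA.eigenvalues i := by
  rw [hA.trace_eq_sum_eigenvalues]
  simp

theorem eigU_ct_mul {A : Matrix n n ℂ} (hA : A.IsHermitian) :
    (hA.eigenvectorUnitary : Matrix n n ℂ)ᴴ * (hA.eigenvectorUnitary : Matrix n n ℂ) = 1 := by
  have := Matrix.mem_unitaryGroup_iff'.1 hA.eigenvectorUnitary.2
  simpa [Matrix.star_eq_conjTranspose] using this

theorem eigU_mul_ct {A : Matrix n n ℂ} (hA : A.IsHermitian) :
    (hA.eigenvectorUnitary : Matrix n n ℂ) * (hA.eigenvectorUnitary : Matrix n n ℂ)ᴴ = 1 := by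
  have := Matrix.mem_unitaryGroup_iff.1 hA.eigenvectorUnitary.2
  simpa [Matrix.star_eq_conjTranspose] using this

/-- Charpoly of a Hermitian matrix in terms of its eigenvalues. -/
theorem charpoly_eq_prod_eigenvalues {A : Matrix n n ℂ} (hA : A.IsHermitian) :
    A.charpoly = ∏ i, (Polynomial.X - Polynomial.C ((hA.eigenvalues i : ℝ) : ℂ)) := by
  conv_lhs => rw [herm_spectral hA]
  exact charpoly_unitary_conj_diag _ (eigU_ct_mul hA) _

theorem vnEntropy_smul {A : Matrix n n ℂ} (hA : A.IsHermitian) {c : ℝ} (hc : 0 ≤ c)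
    (hA0 : A.PosSemidef) :
    vnEntropy ((c : ℂ) • A) = c * vnEntropy A + Real.negMulLog c * A.trace.re := by
  have hH : ((c : ℂ) • A).IsHermitian := by
    rw [Matrix.IsHermitian] at hA ⊢
    rw [conjTranspose_smul, hA]; simp
  have hcp : ((c : ℂ) • A).charpoly
      = ∏ i, (Polynomial.X - Polynomial.C (((c * hA.eigenvalues i : ℝ)) : ℂ)) := by
    have hdiag : (c : ℂ) • A = (hA.eigenvectorUnitary : Matrix n n ℂ) *
        diagonal (fun i => ((c * hA.eigenvalues i : ℝ) : ℂ)) *
        (hA.eigenvectorUnitary : Matrix n n ℂ)ᴴ := by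
      have hd : diagonal (fun i => ((c * hA.eigenvalues i : ℝ) : ℂ))
          = (c : ℂ) • diagonal (fun i => (hA.eigenvalues i : ℂ)) := by
        ext i j; by_cases h : i = j <;> simp [diagonal, h]
      rw [hd, Matrix.mul_smul, Matrix.smul_mul, ← herm_spectral hA]
    rw [hdiag]
    exact charpoly_unitary_conj_diag _ (eigU_ct_mul hA) _
  rw [vnEntropy_eq_of_charpoly hH _ hcp, vnEntropy_eq_sum hA, re_trace_eq_sum_eigenvalues hA,
    Finset.mul_sum, Finset.mul_sum, ← Finset.sum_add_distrib]
  refine Finset.sum_congr rfl fun i _ => ?_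
  rw [Real.negMulLog_mul]
  ring

theorem vnEntropy_reindex (e : n ≃ m) (A : Matrix n n ℂ) :
    vnEntropy (reindex e e A) = vnEntropy A := by
  by_cases hA : A.IsHermitian
  · have hH : (reindex e e A).IsHermitian := by
      rw [Matrix.IsHermitian] at hA ⊢
      ext i j
      simp only [conjTranspose_apply, reindex_apply, submatrix_apply]
      have := congrFun (congrFun hA (e.symm i)) (e.symm j)
      simpa [conjTranspose_apply] using this
    have hcp : (reindex e e A).charpoly
        = ∏ i, (Polynomial.X - Polynomial.C ((hA.eigenvalues i : ℝ) : ℂ)) := by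
      rw [charpoly_reindex]; exact charpoly_eq_prod_eigenvalues hA
    rw [vnEntropy_eq_of_charpoly hH _ hcp, vnEntropy_eq_sum hA]
  · have hH : ¬ (reindex e e A).IsHermitian := by
      intro h
      apply hA
      rw [Matrix.IsHermitian] at h ⊢
      ext i j
      have := congrFun (congrFun h (e i)) (e j)
      simpa [conjTranspose_apply, reindex_apply, submatrix_apply] using this
    unfold vnEntropy
    rw [dif_neg hA, dif_neg hH]

@[simp] theorem vnEntropy_zero : vnEntropy (0 : Matrix n n ℂ) = 0 := by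
  have hH : (0 : Matrix n n ℂ).IsHermitian := isHermitian_zero
  have hcp : (0 : Matrix n n ℂ).charpoly
      = ∏ _i : n, (Polynomial.X - Polynomial.C (((0 : ℝ)) : ℂ)) := by
    have : (0 : Matrix n n ℂ) = diagonal (fun _ => (0:ℂ)) := by simp
    conv_lhs => rw [this]
    rw [charpoly_diagonal]; simp
  rw [vnEntropy_eq_of_charpoly hH _ hcp]
  simp

theorem vnEntropy_fromBlocks_zero {A : Matrix n n ℂ} {B : Matrix m m ℂ}
    (hA : A.IsHermitian) (hB : B.IsHermitian) :
    vnEntropy (fromBlocks A 0 0 B) = vnEntropy A + vnEntropy B := by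
  have hH : (fromBlocks A 0 0 B).IsHermitian :=
    IsHermitian.fromBlocks hA (by simp) hB
  have hcp : (fromBlocks A 0 0 B).charpoly
      = ∏ i : n ⊕ m, (Polynomial.X - Polynomial.C ((Sum.elim hA.eigenvalues hB.eigenvalues i : ℝ) : ℂ)) := by
    rw [charpoly_fromBlocks_zero₁₂, Fintype.prod_sum_type, charpoly_eq_prod_eigenvalues hA,
      charpoly_eq_prod_eigenvalues hB]
    simp
  rw [vnEntropy_eq_of_charpoly hH _ hcp, Fintype.sum_sum_type, vnEntropy_eq_sum hA,
    vnEntropy_eq_sum hB]
  simp

/-- Entropy of a Kronecker product (`A`, `B` positive semidefinite, not nec. normalized). -/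
theorem vnEntropy_kronecker {A : Matrix n n ℂ} {B : Matrix m m ℂ}
    (hA : A.PosSemidef) (hB : B.PosSemidef) :
    vnEntropy (A ⊗ₖ B) = vnEntropy A * B.trace.re + A.trace.re * vnEntropy B := by
  have hAH := hA.isHermitian
  have hBH := hB.isHermitian
  have hH : (A ⊗ₖ B).IsHermitian := by
    rw [Matrix.IsHermitian, conjTranspose_kronecker, hAH.eq, hBH.eq]
  set U : Matrix n n ℂ := (hAH.eigenvectorUnitary : Matrix n n ℂ) with hU
  set V : Matrix m m ℂ := (hBH.eigenvectorUnitary : Matrix m m ℂ) with hV
  have hUU : Uᴴ * U = 1 := eigU_ct_mul hAH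
  have hVV : Vᴴ * V = 1 := eigU_ct_mul hBH
  have hdiag : A ⊗ₖ B = (U ⊗ₖ V) *
      diagonal (fun p : n × m => ((hAH.eigenvalues p.1 * hBH.eigenvalues p.2 : ℝ) : ℂ)) *
      (U ⊗ₖ V)ᴴ := by
    have hd : diagonal (fun p : n × m => ((hAH.eigenvalues p.1 * hBH.eigenvalues p.2 : ℝ) : ℂ))
        = diagonal (fun i => (hAH.eigenvalues i : ℂ)) ⊗ₖ diagonal (fun j => (hBH.eigenvalues j : ℂ)) := by
      rw [diagonal_kronecker_diagonal]
      congr 1; ext p; simp
    rw [hd, conjTranspose_kronecker, ← Matrix.mul_kronecker_mul, ← Matrix.mul_kronecker_mul,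
      ← herm_spectral hAH, ← herm_spectral hBH]
  have hcp : (A ⊗ₖ B).charpoly = ∏ p : n × m,
      (Polynomial.X - Polynomial.C ((hAH.eigenvalues p.1 * hBH.eigenvalues p.2 : ℝ) : ℂ)) := by
    rw [hdiag]
    apply charpoly_unitary_conj_diag
    rw [conjTranspose_kronecker, ← Matrix.mul_kronecker_mul, hUU, hVV]
    exact Matrix.one_kronecker_one
  rw [vnEntropy_eq_of_charpoly hH _ hcp, vnEntropy_eq_sum hAH, vnEntropy_eq_sum hBH,
    re_trace_eq_sum_eigenvalues hAH, re_trace_eq_sum_eigenvalues hBH, Fintype.sum_prod_type]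
  simp only [Real.negMulLog_mul, Finset.sum_add_distrib, ← Finset.mul_sum, ← Finset.sum_mul]
  ring

/-- `log det (A + s) = ∑ log (λ_i + s)`. -/
theorem log_det_add_smul_one {A : Matrix n n ℂ} (hA : A.IsHermitian) (s : ℝ)
    (hs : ∀ i, hA.eigenvalues i + s ≠ 0) :
    Real.log ((A + (s : ℂ) • (1 : Matrix n n ℂ)).det).re = ∑ i, Real.log (hA.eigenvalues i + s) := by
  have hdet : (A + (s : ℂ) • (1 : Matrix n n ℂ)).det = ((∏ i, (hA.eigenvalues i + s) : ℝ) : ℂ) := by
    set U : Matrix n n ℂ := (hA.eigenvectorUnitary : Matrix n n ℂ) with hU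
    have hUU : Uᴴ * U = 1 := eigU_ct_mul hA
    have hUU' : U * Uᴴ = 1 := eigU_mul_ct hA
    have hd : A + (s : ℂ) • (1 : Matrix n n ℂ) =
        U * diagonal (fun i => ((hA.eigenvalues i + s : ℝ) : ℂ)) * Uᴴ := by
      have : diagonal (fun i => ((hA.eigenvalues i + s : ℝ) : ℂ))
          = diagonal (fun i => (hA.eigenvalues i : ℂ)) + (s : ℂ) • 1 := by
        ext i j; by_cases h : i = j <;> simp [diagonal, h, Matrix.one_apply]
      rw [this, Matrix.mul_add, Matrix.add_mul, ← herm_spectral hA, Matrix.mul_smul, Matrix.smul_mul,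
        Matrix.mul_one, hUU']
    rw [hd, Matrix.det_mul, Matrix.det_mul, Matrix.det_diagonal, mul_comm, ← mul_assoc,
      ← Matrix.det_mul, hUU, Matrix.det_one, one_mul]
    push_cast; rfl
  rw [hdet, Complex.ofReal_re, Real.log_prod (fun i _ => hs i)]

theorem log_det_add_smul_one_of_posSemidef {A : Matrix n n ℂ} (hA : A.PosSemidef) {s : ℝ}
    (hs : 0 < s) :
    Real.log ((A + (s : ℂ) • (1 : Matrix n n ℂ)).det).re
      = ∑ i, Real.log (hA.isHermitian.eigenvalues i + s) :=
  log_det_add_smul_one hA.isHermitian s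
    (fun i => (add_pos_of_nonneg_of_pos (hA.eigenvalues_nonneg i) hs).ne')

/-- Schur: entropy at most Shannon entropy of a diagonal in any orthonormal basis. -/
theorem vnEntropy_le_diag {A : Matrix n n ℂ} (hA : A.PosSemidef) (V : Matrix n n ℂ)
    (hV : Vᴴ * V = 1) :
    vnEntropy A ≤ ∑ k, Real.negMulLog ((Vᴴ * A * V) k k).re := by
  have hH : A.IsHermitian := hA.1
  set U : Matrix n n ℂ := (hH.eigenvectorUnitary : Matrix n n ℂ) with hUdef
  have hU1 : Uᴴ * U = 1 := by
    have := (Unitary.mem_iff.mp hH.eigenvectorUnitary.2).1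
    simpa [star_eq_conjTranspose] using this
  have hU2 : U * Uᴴ = 1 := mul_eq_one_comm.mp hU1
  have hV2 : V * Vᴴ = 1 := mul_eq_one_comm.mp hV
  set lam := hH.eigenvalues with hlam
  have hspec : A = U * diagonal (fun i => (lam i : ℂ)) * Uᴴ := herm_spectral hH
  set W : Matrix n n ℂ := Vᴴ * U with hW
  have hW1 : W * Wᴴ = 1 := by
    rw [hW, conjTranspose_mul, conjTranspose_conjTranspose]
    calc Vᴴ * U * (Uᴴ * V) = Vᴴ * (U * Uᴴ) * V := by simp only [Matrix.mul_assoc]
      _ = 1 := by rw [hU2, Matrix.mul_one, hV]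
  have hW2 : Wᴴ * W = 1 := mul_eq_one_comm.mp hW1
  have hconj : Vᴴ * A * V = W * diagonal (fun i => (lam i : ℂ)) * Wᴴ := by
    rw [hspec, hW, conjTranspose_mul, conjTranspose_conjTranspose]
    simp only [Matrix.mul_assoc]
  -- the doubly stochastic weights
  let P : n → n → ℝ := fun k i => ‖W k i‖ ^ 2
  have hP0 : ∀ k i, 0 ≤ P k i := fun k i => by positivity
  have hnormsq : ∀ z : ℂ, z * star z = ((‖z‖ ^ 2 : ℝ) : ℂ) := by
    intro z
    rw [← starRingEnd_apply, Complex.mul_conj, Complex.normSq_eq_norm_sq]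
  have hrow : ∀ k, ∑ i, P k i = 1 := by
    intro k
    have h := congrFun (congrFun hW1 k) k
    simp only [Matrix.mul_apply, conjTranspose_apply, one_apply_eq] at h
    have h2 : ∑ i, W k i * star (W k i) = ((∑ i, P k i : ℝ) : ℂ) := by
      push_cast
      refine Finset.sum_congr rfl fun i _ => ?_
      rw [hnormsq]
    rw [h2] at h
    exact_mod_cast h
  have hcol : ∀ i, ∑ k, P k i = 1 := by
    intro i
    have h := congrFun (congrFun hW2 i) i
    simp only [Matrix.mul_apply, conjTranspose_apply, one_apply_eq] at h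
    have h2 : ∑ k, star (W k i) * W k i = ((∑ k, P k i : ℝ) : ℂ) := by
      push_cast
      refine Finset.sum_congr rfl fun k _ => ?_
      rw [mul_comm, hnormsq]
    rw [h2] at h
    exact_mod_cast h
  have hd : ∀ k, ((Vᴴ * A * V) k k).re = ∑ i, P k i * lam i := by
    intro k
    rw [hconj, Matrix.mul_apply]
    simp only [Matrix.mul_diagonal, conjTranspose_apply]
    have : ∑ i, W k i * ((lam i : ℂ)) * star (W k i) = ((∑ i, P k i * lam i : ℝ) : ℂ) := by
      push_cast
      refine Finset.sum_congr rfl fun i _ => ?_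
      have := hnormsq (W k i)
      simp only [P]
      push_cast at this ⊢
      rw [← this]; ring
    rw [this]
    simp
  rw [vnEntropy_eq_sum hH, ← hlam]
  have hJ : ∀ k, ∑ i, P k i * Real.negMulLog (lam i) ≤ Real.negMulLog (∑ i, P k i * lam i) := by
    intro k
    have := Real.concaveOn_negMulLog.le_map_sum (t := Finset.univ) (w := P k) (p := lam)
      (fun i _ => hP0 k i) (hrow k) (fun i _ => hA.eigenvalues_nonneg i)
    simpa [smul_eq_mul] using this
  calc ∑ i, Real.negMulLog (lam i)
      = ∑ i, (∑ k, P k i) * Real.negMulLog (lam i) := by simp [hcol]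
    _ = ∑ k, ∑ i, P k i * Real.negMulLog (lam i) := by
        simp only [Finset.sum_mul]; rw [Finset.sum_comm]
    _ ≤ ∑ k, Real.negMulLog (∑ i, P k i * lam i) := Finset.sum_le_sum fun k _ => hJ k
    _ = ∑ k, Real.negMulLog ((Vᴴ * A * V) k k).re := by simp only [hd]

/-- pointwise inequality behind concavity. -/
theorem negMulLog_pointwise {x y a b : ℝ} (hx : 0 ≤ x) (hy : 0 ≤ y) (ha : 0 < a) (hb : 0 < b) :
    Real.negMulLog x + Real.negMulLog y - Real.negMulLog (x + y) ≤
      x * Real.log ((a + b) / a) + y * Real.log ((a + b) / b) := by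
  have hc : 0 < a + b := by linarith
  have h1 : 0 ≤ Real.log ((a + b) / a) := Real.log_nonneg (by rw [le_div_iff₀ ha]; linarith)
  have h2 : 0 ≤ Real.log ((a + b) / b) := Real.log_nonneg (by rw [le_div_iff₀ hb]; linarith)
  rcases hx.eq_or_lt with rfl | hx
  · simp only [Real.negMulLog_zero, zero_add, sub_self, zero_mul]
    positivity
  rcases hy.eq_or_lt with rfl | hy
  · simp only [Real.negMulLog_zero, add_zero, sub_self, zero_mul]
    positivity
  have hs : 0 < x + y := by linarith
  have key : ∀ u w : ℝ, 0 < u → 0 < w → u * (Real.log (x + y) - Real.log u - Real.log ((a + b) / w))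
      ≤ (x + y) * w / (a + b) - u := by
    intro u w hu hw
    have hpos : 0 < (x + y) * w / (u * (a + b)) := by positivity
    have h := Real.log_le_sub_one_of_pos hpos
    have hlog : Real.log ((x + y) * w / (u * (a + b))) =
        Real.log (x + y) - Real.log u - Real.log ((a + b) / w) := by
      rw [Real.log_div (by positivity) (by positivity), Real.log_mul hs.ne' hw.ne',
        Real.log_mul hu.ne' hc.ne', Real.log_div hc.ne' hw.ne']
      ring
    rw [hlog] at h
    calc u * (Real.log (x + y) - Real.log u - Real.log ((a + b) / w))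
        ≤ u * ((x + y) * w / (u * (a + b)) - 1) := mul_le_mul_of_nonneg_left h hu.le
      _ = (x + y) * w / (a + b) - u := by field_simp
  have k1 := key x a hx ha
  have k2 := key y b hy hb
  have k3 : (x + y) * a / (a + b) + (x + y) * b / (a + b) = x + y := by
    field_simp
  simp only [Real.negMulLog]
  nlinarith [k1, k2, k3]

/-- Concavity of the entropy in homogeneous form. -/
theorem vnEntropy_concave {A B : Matrix n n ℂ} (hA : A.PosSemidef) (hB : B.PosSemidef) :
    vnEntropy A + vnEntropy B + Real.negMulLog (A.trace.re + B.trace.re) ≤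
      vnEntropy (A + B) + Real.negMulLog A.trace.re + Real.negMulLog B.trace.re := by
  have hC : (A + B).PosSemidef := hA.add hB
  have hH : (A + B).IsHermitian := hC.1
  set V : Matrix n n ℂ := (hH.eigenvectorUnitary : Matrix n n ℂ) with hVdef
  have hV1 : Vᴴ * V = 1 := by
    have := (Unitary.mem_iff.mp hH.eigenvectorUnitary.2).1
    simpa [star_eq_conjTranspose] using this
  have hV2 : V * Vᴴ = 1 := mul_eq_one_comm.mp hV1
  have hspec : A + B = V * diagonal (fun i => (hH.eigenvalues i : ℂ)) * Vᴴ := herm_spectral hH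
  set x : n → ℝ := fun k => ((Vᴴ * A * V) k k).re with hx
  set y : n → ℝ := fun k => ((Vᴴ * B * V) k k).re with hy
  have hSA := vnEntropy_le_diag hA V hV1
  have hSB := vnEntropy_le_diag hB V hV1
  have hdiagC : Vᴴ * (A + B) * V = diagonal (fun i => (hH.eigenvalues i : ℂ)) := by
    calc Vᴴ * (A + B) * V = Vᴴ * (V * diagonal (fun i => (hH.eigenvalues i : ℂ)) * Vᴴ) * V :=
          congrArg (fun X => Vᴴ * X * V) hspec
      _ = (Vᴴ * V) * diagonal (fun i => (hH.eigenvalues i : ℂ)) * (Vᴴ * V) := by
          simp only [Matrix.mul_assoc]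
      _ = _ := by rw [hV1, Matrix.one_mul, Matrix.mul_one]
  have hxy : ∀ k, x k + y k = hH.eigenvalues k := by
    intro k
    have h := congrFun (congrFun hdiagC k) k
    rw [Matrix.mul_add, Matrix.add_mul, Matrix.add_apply, diagonal_apply_eq] at h
    have := congrArg Complex.re h
    simpa [hx, hy] using this
  have hx0 : ∀ k, 0 ≤ x k := by
    intro k
    have : (Vᴴ * A * V).PosSemidef := by
      have := hA.conjTranspose_mul_mul_same V
      simpa using this
    have h2 := this.diag_nonneg (i := k)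
    exact (Complex.le_def.mp h2).1
  have hy0 : ∀ k, 0 ≤ y k := by
    intro k
    have : (Vᴴ * B * V).PosSemidef := by
      have := hB.conjTranspose_mul_mul_same V
      simpa using this
    have h2 := this.diag_nonneg (i := k)
    exact (Complex.le_def.mp h2).1
  have hxsum : ∑ k, x k = A.trace.re := by
    have : (Vᴴ * A * V).trace = A.trace := by
      rw [Matrix.trace_mul_comm, ← Matrix.mul_assoc, hV2, Matrix.one_mul]
    have h2 : (Vᴴ * A * V).trace.re = ∑ k, x k := by
      simp [Matrix.trace, hx]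
    rw [← h2, this]
  have hysum : ∑ k, y k = B.trace.re := by
    have : (Vᴴ * B * V).trace = B.trace := by
      rw [Matrix.trace_mul_comm, ← Matrix.mul_assoc, hV2, Matrix.one_mul]
    have h2 : (Vᴴ * B * V).trace.re = ∑ k, y k := by
      simp [Matrix.trace, hy]
    rw [← h2, this]
  have hSC : vnEntropy (A + B) = ∑ k, Real.negMulLog (x k + y k) := by
    rw [vnEntropy_eq_sum hH]
    simp only [hxy]
  set a := A.trace.re with ha
  set b := B.trace.re with hb
  have ha0 : 0 ≤ a := by rw [← hxsum]; exact Finset.sum_nonneg fun k _ => hx0 k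
  have hb0 : 0 ≤ b := by rw [← hysum]; exact Finset.sum_nonneg fun k _ => hy0 k
  rcases ha0.eq_or_lt with ha1 | ha1
  · -- `a = 0`, so all `x k = 0`
    have hx00 : ∀ k, x k = 0 := by
      intro k
      have := (Finset.sum_eq_zero_iff_of_nonneg fun k _ => hx0 k).mp (hxsum.trans ha1.symm)
      exact this k (Finset.mem_univ k)
    have hSA' : vnEntropy A ≤ 0 := by
      refine hSA.trans (le_of_eq ?_)
      refine Finset.sum_eq_zero fun k _ => ?_
      have := hx00 k
      simp only [hx] at this
      rw [this, Real.negMulLog_zero]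
    have hSC' : vnEntropy (A + B) = ∑ k, Real.negMulLog (y k) := by
      rw [hSC]; simp [hx00]
    rw [← ha1]
    simp only [zero_add, Real.negMulLog_zero, add_zero]
    rw [hSC']
    linarith [hSB]
  rcases hb0.eq_or_lt with hb1 | hb1
  · have hy00 : ∀ k, y k = 0 := by
      intro k
      have := (Finset.sum_eq_zero_iff_of_nonneg fun k _ => hy0 k).mp (hysum.trans hb1.symm)
      exact this k (Finset.mem_univ k)
    have hSB' : vnEntropy B ≤ 0 := by
      refine hSB.trans (le_of_eq ?_)
      refine Finset.sum_eq_zero fun k _ => ?_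
      have := hy00 k
      simp only [hy] at this
      rw [this, Real.negMulLog_zero]
    have hSC' : vnEntropy (A + B) = ∑ k, Real.negMulLog (x k) := by
      rw [hSC]; simp [hy00]
    rw [← hb1]
    simp only [add_zero, Real.negMulLog_zero]
    rw [hSC']
    linarith [hSA]
  have hpt := Finset.sum_le_sum (s := Finset.univ) fun k _ =>
    negMulLog_pointwise (hx0 k) (hy0 k) ha1 hb1
  simp only [Finset.sum_sub_distrib, Finset.sum_add_distrib, ← Finset.sum_mul, hxsum, hysum] at hpt
  rw [← hSC] at hpt
  have hc : 0 < a + b := by linarith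
  have hfinal : a * Real.log ((a + b) / a) + b * Real.log ((a + b) / b) =
      Real.negMulLog a + Real.negMulLog b - Real.negMulLog (a + b) := by
    rw [Real.log_div hc.ne' ha1.ne', Real.log_div hc.ne' hb1.ne']
    simp only [Real.negMulLog]
    ring
  linarith [hSA, hSB]

/-- Dephasing a two-block matrix does not lower the entropy. -/
theorem vnEntropy_le_blocks {e : Type*} [Fintype e] [DecidableEq e]
    {T : Matrix (Bool × e) (Bool × e) ℂ} (hT : T.PosSemidef) :
    vnEntropy T ≤ vnEntropy (block T false false) + vnEntropy (block T true true) := by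
  have hB : ∀ s : Bool, (block T s s).PosSemidef := by
    intro s
    have h1 := hT.submatrix (fun i : e => (s, i))
    have h2 : block T s s = T.submatrix (fun i : e => (s, i)) (fun i : e => (s, i)) := by
      ext i j; rfl
    rw [h2]; exact h1
  let hH : ∀ s : Bool, (block T s s).IsHermitian := fun s => (hB s).1
  let U : Bool → Matrix e e ℂ := fun s => ((hH s).eigenvectorUnitary : Matrix e e ℂ)
  have hU1 : ∀ s, (U s)ᴴ * U s = 1 := by
    intro s
    have := (Unitary.mem_iff.mp (hH s).eigenvectorUnitary.2).1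
    simpa [star_eq_conjTranspose, U] using this
  have hdiag : ∀ s, (U s)ᴴ * block T s s * U s = diagonal (fun i => ((hH s).eigenvalues i : ℂ)) := by
    intro s
    have hspec := herm_spectral (hH s)
    calc (U s)ᴴ * block T s s * U s
        = (U s)ᴴ * (U s * diagonal (fun i => ((hH s).eigenvalues i : ℂ)) * (U s)ᴴ) * U s := by
          congr 2
      _ = ((U s)ᴴ * U s) * diagonal (fun i => ((hH s).eigenvalues i : ℂ)) * ((U s)ᴴ * U s) := by
          simp only [Matrix.mul_assoc]
      _ = _ := by rw [hU1, Matrix.one_mul, Matrix.mul_one]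
  let V : Matrix (Bool × e) (Bool × e) ℂ := Matrix.of fun p q => if p.1 = q.1 then U p.1 p.2 q.2 else 0
  have hV : Vᴴ * V = 1 := by
    ext ⟨s, k⟩ ⟨t, l⟩
    simp only [Matrix.mul_apply, Fintype.sum_prod_type, conjTranspose_apply, V, Matrix.of_apply]
    by_cases hst : s = t
    · subst hst
      have h := congrFun (congrFun (hU1 s) k) l
      simp only [Matrix.mul_apply, conjTranspose_apply] at h
      cases s <;> simpa [Fintype.sum_bool, Matrix.one_apply] using h
    · have : (1 : Matrix (Bool × e) (Bool × e) ℂ) (s, k) (t, l) = 0 := by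
        rw [Matrix.one_apply_ne]; intro h; exact hst (Prod.ext_iff.mp h).1
      rw [this]
      cases s <;> cases t <;> simp_all
  have hS := vnEntropy_le_diag hT V hV
  have hkey : ∀ (s : Bool) (k : e), ((Vᴴ * T * V) (s, k) (s, k)).re = (hH s).eigenvalues k := by
    intro s k
    have h := congrFun (congrFun (hdiag s) k) k
    rw [diagonal_apply_eq] at h
    have h2 : (Vᴴ * T * V) (s, k) (s, k) = ((U s)ᴴ * block T s s * U s) k k := by
      simp only [Matrix.mul_apply, Fintype.sum_prod_type, conjTranspose_apply, V, Matrix.of_apply,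
        block]
      cases s <;> simp
    rw [h2, h]
    simp
  rw [Fintype.sum_prod_type, Fintype.sum_bool] at hS
  simp only [hkey] at hS
  rw [vnEntropy_eq_sum (hH false), vnEntropy_eq_sum (hH true)]
  linarith

end Crest.Agent.GADAdd
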