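import Crest.Agent.Lib.GADAdd.Integrate

/-!
# Real-variable core of (Z₃)

`core_real`: the per-`s` inequalities of `Z3.lean` integrate, through the monotone-limit principle of
`Integrate.lean`, to an entropy inequality between the eigenvalue families.
-/

set_option autoImplicit false

open Filter Topology

namespace Crest.Agent.GADAdd

section Z3core

theorem hasDerivAt_XiSum {ι : Type*} [Fintype ι] (a : ι → ℝ) (ha : ∀ i, 0 ≤ a i) {s : ℝ}
    (hs : 0 < s) :
    HasDerivAt (XiSum a) (∑ i, Real.log (a i + s) - (Fintype.card ι : ℝ) * Real.log s) s := by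
  have h : HasDerivAt (fun s => ∑ i, Xi (a i) s) (∑ i, (Real.log (a i + s) - Real.log s)) s :=
    HasDerivAt.fun_sum (fun i _ => hasDerivAt_Xi (ha i) hs)
  have h2 : ∑ i, (Real.log (a i + s) - Real.log s)
      = ∑ i, Real.log (a i + s) - (Fintype.card ι : ℝ) * Real.log s := by
    rw [Finset.sum_sub_distrib]; simp [Finset.card_univ]
  rw [← h2]; exact h

theorem tendsto_XiSum {ι : Type*} [Fintype ι] (a : ι → ℝ) (ha : ∀ i, 0 ≤ a i) :
    Tendsto (fun s => XiSum a s - (∑ i, a i) * (Real.log s + 1)) atTop (𝓝 0) := by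
  have h := tendsto_finsetSum (Finset.univ : Finset ι) (fun i _ => tendsto_Xi (a i) (ha i))
  simp only [Finset.sum_const_zero] at h
  refine h.congr (fun s => ?_)
  simp only [XiSum, Finset.sum_sub_distrib, Finset.sum_mul]
  rw [← Finset.sum_sub_distrib, ← Finset.sum_sub_distrib, ← Finset.sum_sub_distrib]
  refine Finset.sum_congr rfl fun i _ => ?_
  ring

theorem continuous_XiSum {ι : Type*} [Fintype ι] (a : ι → ℝ) : Continuous (XiSum a) := by
  unfold XiSum
  exact continuous_finsetSum _ (fun i _ => continuous_Xi (a i))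

theorem XiSum_zero {ι : Type*} [Fintype ι] (a : ι → ℝ) :
    XiSum a 0 = - ∑ i, Real.negMulLog (a i) := by
  simp [XiSum, Xi_zero, Finset.sum_neg_distrib]

variable {x y tp tm : ℝ}

theorem hasDerivAt_c_gam (h : Roots x y tp tm) {c : ℝ} (hc : x = 0 → c = 0) {s r : ℝ}
    (hs : 0 < s) (hr : 0 ≤ r) :
    HasDerivAt (fun s => c * gam x y tp tm s r) (c * gradWeight x y tp tm s r) s := by
  rcases h.x_nonneg.eq_or_lt with hx | hx
  · have hc0 := hc hx.symm
    simpa [hc0] using hasDerivAt_const s (0 : ℝ)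
  · exact (hasDerivAt_gam h hx hs hr).const_mul c

theorem tendsto_c_gam (h : Roots x y tp tm) {c : ℝ} (hc : x = 0 → c = 0) {r : ℝ} (hr : 0 ≤ r) :
    Tendsto (fun s => c * gam x y tp tm s r) atTop (𝓝 0) := by
  rcases h.x_nonneg.eq_or_lt with hx | hx
  · have hc0 := hc hx.symm
    simp [hc0]
  · simpa using (tendsto_gam h hx hr).const_mul c

theorem continuousOn_c_gam (h : Roots x y tp tm) {c : ℝ} (hc : x = 0 → c = 0) {r : ℝ}
    (hr : 0 ≤ r) :
    ContinuousOn (fun s => c * gam x y tp tm s r) (Set.Ici 0) := by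
  rcases h.x_nonneg.eq_or_lt with hx | hx
  · have hc0 := hc hx.symm
    simpa [hc0] using continuousOn_const
  · exact continuousOn_const.mul (continuousOn_gam h hx hr)

/-- The real-variable core of (Z₃): the per-`s` inequalities integrate to an entropy inequality. -/
theorem core_real {ιT ιY ιP ιL ιR : Type*} [Fintype ιT] [Fintype ιY] [Fintype ιP] [Fintype ιL]
    [Fintype ιR]
    (lT : ιT → ℝ) (lY : ιY → ℝ) (lP : ιP → ℝ) (r : ιL → ℝ) (r' : ιR → ℝ) (π : ιL → ℝ)
    (π' : ιR → ℝ) (h : Roots x y tp tm)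
    (hlT : ∀ i, 0 ≤ lT i) (hlY : ∀ i, 0 ≤ lY i) (hlP : ∀ i, 0 ≤ lP i) (hr : ∀ i, 0 ≤ r i)
    (hr' : ∀ i, 0 ≤ r' i) (hπ : ∀ i, 0 ≤ π i) (hπ' : ∀ i, 0 ≤ π' i)
    (hcard : Fintype.card ιT = Fintype.card ιY + Fintype.card ιP)
    (htrT : ∑ i, lT i = ∑ i, r i + ∑ i, lP i + ∑ i, lY i)
    (htrP : ∑ i, lP i = x * ∑ i, r i) (htrY : ∑ i, lY i = y * ∑ i, r i)
    (hrr : ∑ i, r' i = ∑ i, r i)
    (hπs : ∑ i, π i = ∑ i, lP i) (hπs' : ∑ i, π' i = ∑ i, lY i)
    (hperS : ∀ s, 0 < s →
      ∑ i, gradWeight x y tp tm s (r i) * (π i - x * r i)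
        + ∑ j, gradWeight y x tp tm s (r' j) * (π' j - y * r' j)
      ≤ ∑ i, Real.log (lT i + s) - ∑ i, Real.log (lY i + s) - ∑ i, Real.log (lP i + s)
        - ∑ i, (Real.log (tp * r i + s) + Real.log (tm * r i + s)
            - Real.log (x * r i + s) - Real.log (y * r i + s))) :
    ∑ i, Real.negMulLog (lY i) + ∑ i, Real.negMulLog (lP i)
      + ∑ i, (Real.negMulLog (tp * r i) + Real.negMulLog (tm * r i)
          - Real.negMulLog (x * r i) - Real.negMulLog (y * r i))
    ≤ ∑ i, Real.negMulLog (lT i) := by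
  classical
  have hx := h.x_nonneg
  have hy := h.y_nonneg
  have htm := h.tm_nonneg
  have htp : 0 ≤ tp := htm.trans h.lt.le
  have hsumtt := h.sum
  -- zero-coefficient facts
  have hc1 : x = 0 → ∀ i, π i - x * r i = 0 := by
    intro hx0 i
    have : ∑ i, π i = 0 := by rw [hπs, htrP, hx0, zero_mul]
    have h0 := (Finset.sum_eq_zero_iff_of_nonneg (fun i _ => hπ i)).1 this i (Finset.mem_univ i)
    rw [h0, hx0]; ring
  have hc2 : y = 0 → ∀ i, π' i - y * r' i = 0 := by
    intro hy0 i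
    have : ∑ i, π' i = 0 := by rw [hπs', htrY, hy0, zero_mul]
    have h0 := (Finset.sum_eq_zero_iff_of_nonneg (fun i _ => hπ' i)).1 this i (Finset.mem_univ i)
    rw [h0, hy0]; ring
  set G1 : ℝ → ℝ := fun s => ∑ i, (π i - x * r i) * gam x y tp tm s (r i) with hG1
  set G2 : ℝ → ℝ := fun s => ∑ j, (π' j - y * r' j) * gam y x tp tm s (r' j) with hG2
  set Xp : ιL → ℝ := fun i => tp * r i with hXp
  set Xm : ιL → ℝ := fun i => tm * r i with hXm
  set Xx : ιL → ℝ := fun i => x * r i with hXx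
  set Xy : ιL → ℝ := fun i => y * r i with hXy
  have hXpn : ∀ i, 0 ≤ Xp i := fun i => mul_nonneg htp (hr i)
  have hXmn : ∀ i, 0 ≤ Xm i := fun i => mul_nonneg htm (hr i)
  have hXxn : ∀ i, 0 ≤ Xx i := fun i => mul_nonneg hx (hr i)
  have hXyn : ∀ i, 0 ≤ Xy i := fun i => mul_nonneg hy (hr i)
  let Ω : ℝ → ℝ := fun s => XiSum lT s - XiSum lY s - XiSum lP s - XiSum Xp s - XiSum Xm s
    + XiSum Xx s + XiSum Xy s - G1 s - G2 s
  let Ω' : ℝ → ℝ := fun s =>
    (∑ i, Real.log (lT i + s) - (Fintype.card ιT : ℝ) * Real.log s)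
    - (∑ i, Real.log (lY i + s) - (Fintype.card ιY : ℝ) * Real.log s)
    - (∑ i, Real.log (lP i + s) - (Fintype.card ιP : ℝ) * Real.log s)
    - (∑ i, Real.log (Xp i + s) - (Fintype.card ιL : ℝ) * Real.log s)
    - (∑ i, Real.log (Xm i + s) - (Fintype.card ιL : ℝ) * Real.log s)
    + (∑ i, Real.log (Xx i + s) - (Fintype.card ιL : ℝ) * Real.log s)
    + (∑ i, Real.log (Xy i + s) - (Fintype.card ιL : ℝ) * Real.log s)
    - ∑ i, (π i - x * r i) * gradWeight x y tp tm s (r i)
    - ∑ j, (π' j - y * r' j) * gradWeight y x tp tm s (r' j)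
  have hG1d : ∀ s, 0 < s → HasDerivAt G1 (∑ i, (π i - x * r i) * gradWeight x y tp tm s (r i)) s :=
    fun s hs => HasDerivAt.fun_sum (fun i _ => hasDerivAt_c_gam h (hc1 · i) hs (hr i))
  have hG2d : ∀ s, 0 < s →
      HasDerivAt G2 (∑ j, (π' j - y * r' j) * gradWeight y x tp tm s (r' j)) s :=
    fun s hs => HasDerivAt.fun_sum (fun i _ => hasDerivAt_c_gam h.symm (hc2 · i) hs (hr' i))
  have hd : ∀ s, 0 < s → HasDerivAt Ω (Ω' s) s := by
    intro s hs
    exact ((((((((hasDerivAt_XiSum lT hlT hs).sub (hasDerivAt_XiSum lY hlY hs)).sub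
      (hasDerivAt_XiSum lP hlP hs)).sub (hasDerivAt_XiSum Xp hXpn hs)).sub
      (hasDerivAt_XiSum Xm hXmn hs)).add (hasDerivAt_XiSum Xx hXxn hs)).add
      (hasDerivAt_XiSum Xy hXyn hs)).sub (hG1d s hs)).sub (hG2d s hs)
  have hn : ∀ s, 0 < s → 0 ≤ Ω' s := by
    intro s hs
    have hp := hperS s hs
    have e1 : ∑ i, (Real.log (tp * r i + s) + Real.log (tm * r i + s)
            - Real.log (x * r i + s) - Real.log (y * r i + s))
        = ∑ i, Real.log (Xp i + s) + ∑ i, Real.log (Xm i + s)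
          - ∑ i, Real.log (Xx i + s) - ∑ i, Real.log (Xy i + s) := by
      simp only [Finset.sum_sub_distrib, Finset.sum_add_distrib, hXp, hXm, hXx, hXy]
    have e2 : ∑ i, gradWeight x y tp tm s (r i) * (π i - x * r i)
        = ∑ i, (π i - x * r i) * gradWeight x y tp tm s (r i) :=
      Finset.sum_congr rfl fun i _ => mul_comm _ _
    have e3 : ∑ j, gradWeight y x tp tm s (r' j) * (π' j - y * r' j)
        = ∑ j, (π' j - y * r' j) * gradWeight y x tp tm s (r' j) :=
      Finset.sum_congr rfl fun i _ => mul_comm _ _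
    rw [e1, e2, e3] at hp
    have hc' : (Fintype.card ιT : ℝ) = Fintype.card ιY + Fintype.card ιP := by exact_mod_cast hcard
    simp only [Ω', hc']
    linarith
  have hc : ContinuousOn Ω (Set.Ici 0) := by
    have c1 : ContinuousOn G1 (Set.Ici 0) :=
      continuousOn_finsetSum _ (fun i _ => continuousOn_c_gam h (hc1 · i) (hr i))
    have c2 : ContinuousOn G2 (Set.Ici 0) :=
      continuousOn_finsetSum _ (fun i _ => continuousOn_c_gam h.symm (hc2 · i) (hr' i))
    exact ((((((((continuous_XiSum lT).sub (continuous_XiSum lY)).sub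
      (continuous_XiSum lP)).sub (continuous_XiSum Xp)).sub (continuous_XiSum Xm)).add
      (continuous_XiSum Xx)).add (continuous_XiSum Xy)).continuousOn.sub c1).sub c2
  have hl : Tendsto Ω atTop (𝓝 0) := by
    have t1 : Tendsto G1 atTop (𝓝 0) := by
      have := tendsto_finsetSum (Finset.univ : Finset ιL)
        (fun i _ => tendsto_c_gam h (hc1 · i) (hr i))
      simpa using this
    have t2 : Tendsto G2 atTop (𝓝 0) := by
      have := tendsto_finsetSum (Finset.univ : Finset ιR)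
        (fun i _ => tendsto_c_gam h.symm (hc2 · i) (hr' i))
      simpa using this
    have t := ((((((((tendsto_XiSum lT hlT).sub (tendsto_XiSum lY hlY)).sub
      (tendsto_XiSum lP hlP)).sub (tendsto_XiSum Xp hXpn)).sub (tendsto_XiSum Xm hXmn)).add
      (tendsto_XiSum Xx hXxn)).add (tendsto_XiSum Xy hXyn)).sub t1).sub t2
    simp only [sub_self, add_zero] at t
    refine t.congr (fun s => ?_)
    have hNet : ∑ i, lT i - ∑ i, lY i - ∑ i, lP i - ∑ i, Xp i - ∑ i, Xm i + ∑ i, Xx i + ∑ i, Xy i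
        = 0 := by
      simp only [hXp, hXm, hXx, hXy, ← Finset.mul_sum]
      rw [htrT]
      have : tp * ∑ i, r i + tm * ∑ i, r i = (1 + x + y) * ∑ i, r i := by
        rw [← add_mul, hsumtt]
      linarith
    have : XiSum lT s - (∑ i, lT i) * (Real.log s + 1) - (XiSum lY s - (∑ i, lY i) * (Real.log s + 1))
        - (XiSum lP s - (∑ i, lP i) * (Real.log s + 1)) - (XiSum Xp s - (∑ i, Xp i) * (Real.log s + 1))
        - (XiSum Xm s - (∑ i, Xm i) * (Real.log s + 1)) + (XiSum Xx s - (∑ i, Xx i) * (Real.log s + 1))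
        + (XiSum Xy s - (∑ i, Xy i) * (Real.log s + 1)) - G1 s - G2 s
        = Ω s - (∑ i, lT i - ∑ i, lY i - ∑ i, lP i - ∑ i, Xp i - ∑ i, Xm i + ∑ i, Xx i + ∑ i, Xy i)
            * (Real.log s + 1) := by
      simp only [Ω]; ring
    rw [hNet, zero_mul, sub_zero] at this
    exact this
  have hΩ0 : Ω 0 ≤ 0 := nonpos_at_zero_of_deriv_nonneg hc hd hn hl
  -- the value at `0`
  have hG10 : G1 0 ≤ 0 := by
    rcases hx.eq_or_lt with hx0 | hx0
    · have : G1 0 = 0 := by
        simp only [hG1]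
        refine Finset.sum_eq_zero fun i _ => ?_
        rw [hc1 hx0.symm i, zero_mul]
      exact this.le
    · exact linear_term_at_zero h hx0 r π hr hπ (by rw [hπs, htrP])
  have hG20 : G2 0 ≤ 0 := by
    rcases hy.eq_or_lt with hy0 | hy0
    · have : G2 0 = 0 := by
        simp only [hG2]
        refine Finset.sum_eq_zero fun i _ => ?_
        rw [hc2 hy0.symm i, zero_mul]
      exact this.le
    · exact linear_term_at_zero h.symm hy0 r' π' hr' hπ' (by rw [hπs', htrY, hrr])
  have hval : Ω 0 = - ∑ i, Real.negMulLog (lT i) + ∑ i, Real.negMulLog (lY i)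
      + ∑ i, Real.negMulLog (lP i) + ∑ i, Real.negMulLog (Xp i) + ∑ i, Real.negMulLog (Xm i)
      - ∑ i, Real.negMulLog (Xx i) - ∑ i, Real.negMulLog (Xy i) - G1 0 - G2 0 := by
    simp only [Ω, XiSum_zero]; ring
  have e1 : ∑ i, (Real.negMulLog (tp * r i) + Real.negMulLog (tm * r i)
          - Real.negMulLog (x * r i) - Real.negMulLog (y * r i))
      = ∑ i, Real.negMulLog (Xp i) + ∑ i, Real.negMulLog (Xm i)
        - ∑ i, Real.negMulLog (Xx i) - ∑ i, Real.negMulLog (Xy i) := by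
    simp only [Finset.sum_sub_distrib, Finset.sum_add_distrib, hXp, hXm, hXx, hXy]
  rw [e1]
  linarith

end Z3core

end Crest.Agent.GADAdd
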