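import Crest.Agent.Lib.GADAdd.Spectral
import Crest.Agent.Lib.GADAdd.TangentLogDet
import Crest.Agent.Lib.GADAdd.Integrate
import Crest.Agent.Lib.GADAdd.Z3Core
import Crest.Agent.Lib.GADAdd.PerS

/-!
# The core entropy inequality (Z₃)

`S(ZZᴴ) + S(P) + S(YYᴴ) + η t₁ + η t₂ ≤ S(T) + η u + η v + η w`,
`T = [[ZZᴴ + P, ZYᴴ], [YZᴴ, YYᴴ]]`, `u, v, w` the traces, `t₁ + t₂ = u + v + w`, `t₁ t₂ = v w`.
-/

set_option autoImplicit false

open Matrix
open scoped ComplexOrder

namespace Crest.Agent.GADAdd
open Crest.Quantum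

variable {L R : Type*} [Fintype L] [DecidableEq L] [Fintype R] [DecidableEq R]

private theorem re_trace_nonneg_of_psd {n : Type*} [Fintype n] [DecidableEq n]
    {A : Matrix n n ℂ} (hA : A.PosSemidef) : 0 ≤ A.trace.re := by
  rw [re_trace_eq_sum_eigenvalues hA.isHermitian]
  exact Finset.sum_nonneg fun i _ => hA.eigenvalues_nonneg i

private theorem mul_negMulLog_div {u t : ℝ} (hu : 0 < u) :
    u * Real.negMulLog (t / u) = Real.negMulLog t + t * Real.log u := by
  by_cases ht : t = 0
  · subst ht; simp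
  · simp only [Real.negMulLog]
    rw [Real.log_div ht hu.ne']
    field_simp
    ring

private theorem trace_fromBlocks' {n m : Type*} [Fintype n] [Fintype m]
    (A : Matrix n n ℂ) (B : Matrix n m ℂ) (C : Matrix m n ℂ) (D : Matrix m m ℂ) :
    (fromBlocks A B C D).trace = A.trace + D.trace := by
  simp [Matrix.trace, Fintype.sum_sum_type]

private theorem sum_negMulLog_scale {ι : Type*} [Fintype ι] (r : ι → ℝ) (a b c d : ℝ) :
    ∑ i, (Real.negMulLog (a * r i) + Real.negMulLog (b * r i)
        - Real.negMulLog (c * r i) - Real.negMulLog (d * r i))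
      = (a + b - c - d) * ∑ i, Real.negMulLog (r i)
        + (∑ i, r i) * (Real.negMulLog a + Real.negMulLog b - Real.negMulLog c - Real.negMulLog d) := by
  rw [Finset.mul_sum, Finset.sum_mul, ← Finset.sum_add_distrib]
  refine Finset.sum_congr rfl fun i _ => ?_
  simp only [Real.negMulLog_mul]
  ring

private theorem trace_unitary_conj {n : Type*} [Fintype n] [DecidableEq n] {U A : Matrix n n ℂ}
    (hU : U * Uᴴ = 1) : (Uᴴ * A * U).trace = A.trace := by
  rw [Matrix.trace_mul_comm, ← Matrix.mul_assoc, hU, Matrix.one_mul]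

private theorem eigU_mul {n : Type*} [Fintype n] [DecidableEq n] {A : Matrix n n ℂ}
    (hA : A.IsHermitian) :
    (hA.eigenvectorUnitary : Matrix n n ℂ) * (hA.eigenvectorUnitary : Matrix n n ℂ)ᴴ = 1 := by
  have := Unitary.coe_mul_star_self hA.eigenvectorUnitary
  simpa [Matrix.star_eq_conjTranspose] using this

theorem Z3_ordered (Z Y : Matrix L R ℂ) {P : Matrix L L ℂ} (hP : P.PosSemidef) {t₁ t₂ : ℝ}
    (ht₁ : 0 ≤ t₁) (ht₂ : 0 ≤ t₂) (ht : t₂ ≤ t₁)
    (hsum : t₁ + t₂ = (Z * Zᴴ).trace.re + P.trace.re + (Y * Yᴴ).trace.re)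
    (hprod : t₁ * t₂ = P.trace.re * (Y * Yᴴ).trace.re) :
    vnEntropy (Z * Zᴴ) + vnEntropy P + vnEntropy (Y * Yᴴ) + Real.negMulLog t₁ + Real.negMulLog t₂ ≤
      vnEntropy (Tmat Z Y P) + Real.negMulLog (Z * Zᴴ).trace.re + Real.negMulLog P.trace.re
        + Real.negMulLog (Y * Yᴴ).trace.re := by
  classical
  have hRLp := posSemidef_self_mul_conjTranspose Z
  have hRRp := posSemidef_conjTranspose_mul_self Z
  have hYLp := posSemidef_self_mul_conjTranspose Y
  have hYRp := posSemidef_conjTranspose_mul_self Y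
  have hu0 : 0 ≤ (Z * Zᴴ).trace.re := re_trace_nonneg_of_psd hRLp
  have hv0 : 0 ≤ P.trace.re := re_trace_nonneg_of_psd hP
  have hw0 : 0 ≤ (Y * Yᴴ).trace.re := re_trace_nonneg_of_psd hYLp
  generalize hu : (Z * Zᴴ).trace.re = u at *
  generalize hv : P.trace.re = v at *
  generalize hw : (Y * Yᴴ).trace.re = w at *
  rcases hu0.eq_or_lt with hu1 | hupos
  · -- `u = 0`: the matrix is block diagonal
    subst hu1
    have htr0 : (Z * Zᴴ).trace = 0 := by
      apply Complex.ext
      · simpa using hu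
      · have := hRLp.trace_nonneg
        have := (Complex.le_def.1 this).2
        simpa using this.symm
    have hZ : Z = 0 := trace_mul_conjTranspose_self_eq_zero_iff.1 htr0
    have hT : Tmat Z Y P = fromBlocks P 0 0 (Y * Yᴴ) := by
      subst hZ; simp [Tmat]
    have hS : vnEntropy (Z * Zᴴ) = 0 := by subst hZ; simp
    rw [hT, vnEntropy_fromBlocks_zero hP.isHermitian hYLp.isHermitian, hS]
    have hfac : (t₁ - v) * (t₁ - w) = 0 := by
      have : t₂ = v + w - t₁ := by linarith
      subst this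
      nlinarith
    simp only [Real.negMulLog_zero]
    rcases mul_eq_zero.1 hfac with h | h
    · have h1 : t₁ = v := by linarith
      have h2 : t₂ = w := by linarith
      rw [h1, h2]; linarith
    · have h1 : t₁ = w := by linarith
      have h2 : t₂ = v := by linarith
      rw [h1, h2]; linarith
  · -- main case
    have hne : t₂ < t₁ := by
      refine lt_of_le_of_ne ht ?_
      intro h
      have h3 : (t₁ - t₂) ^ 2 = (u + v + w) ^ 2 - 4 * (v * w) := by
        rw [← hsum, ← hprod]; ring
      rw [h] at h3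
      nlinarith [mul_nonneg hu0 hv0, mul_nonneg hu0 hw0, sq_nonneg (v - w), sq_pos_of_pos hupos]
    have hroots : Roots (v / u) (w / u) (t₁ / u) (t₂ / u) := by
      refine ⟨div_nonneg hv0 hu0, div_nonneg hw0 hu0, div_nonneg ht₂ hu0,
        div_lt_div_of_pos_right hne hupos, ?_, ?_⟩
      · field_simp; linarith
      · field_simp; linarith
    let hRL : (Z * Zᴴ).IsHermitian := hRLp.isHermitian
    let hRR : (Zᴴ * Z).IsHermitian := hRRp.isHermitian
    let U : Matrix L L ℂ := hRL.eigenvectorUnitary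
    let V : Matrix R R ℂ := hRR.eigenvectorUnitary
    let r := hRL.eigenvalues
    let r' := hRR.eigenvalues
    let π : L → ℝ := fun i => (Uᴴ * P * U) i i |>.re
    let π' : R → ℝ := fun j => (Vᴴ * (Yᴴ * Y) * V) j j |>.re
    have hUU : U * Uᴴ = 1 := eigU_mul hRL
    have hVV : V * Vᴴ = 1 := eigU_mul hRR
    have hsr : ∑ i, r i = u := by
      rw [← hu]; exact (re_trace_eq_sum_eigenvalues hRL).symm
    have hsr' : ∑ i, r' i = u := by
      rw [← hu, Matrix.trace_mul_comm]; exact (re_trace_eq_sum_eigenvalues hRR).symm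
    have hsP : ∑ i, hP.isHermitian.eigenvalues i = v := by
      rw [← hv]; exact (re_trace_eq_sum_eigenvalues hP.isHermitian).symm
    have hsY : ∑ i, hYLp.isHermitian.eigenvalues i = w := by
      rw [← hw]; exact (re_trace_eq_sum_eigenvalues hYLp.isHermitian).symm
    have hsT : ∑ i, (Tmat_isHermitian Z Y hP).eigenvalues i = u + v + w := by
      rw [← re_trace_eq_sum_eigenvalues (Tmat_isHermitian Z Y hP)]
      rw [Tmat, trace_fromBlocks', Matrix.trace_add, Complex.add_re, Complex.add_re, hu, hv, hw]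
    have hsπ : ∑ i, π i = v := by
      have : ∑ i, π i = (Uᴴ * P * U).trace.re := by
        simp [π, Matrix.trace, Complex.re_sum]
      rw [this, trace_unitary_conj hUU, hv]
    have hsπ' : ∑ i, π' i = w := by
      have : ∑ i, π' i = (Vᴴ * (Yᴴ * Y) * V).trace.re := by
        simp [π', Matrix.trace, Complex.re_sum]
      rw [this, trace_unitary_conj hVV, Matrix.trace_mul_comm, hw]
    have hπn : ∀ i, 0 ≤ π i := fun i =>
      (Complex.le_def.1 (hP.conjTranspose_mul_mul_same U).diag_nonneg).1
    have hπ'n : ∀ i, 0 ≤ π' i := fun i =>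
      (Complex.le_def.1 (hYRp.conjTranspose_mul_mul_same V).diag_nonneg).1
    have hcore := core_real (Tmat_isHermitian Z Y hP).eigenvalues hYLp.isHermitian.eigenvalues
      hP.isHermitian.eigenvalues r r' π π' hroots
      (fun i => (Tmat_posSemidef Z Y hP).eigenvalues_nonneg i)
      (fun i => hYLp.eigenvalues_nonneg i)
      (fun i => hP.eigenvalues_nonneg i)
      (fun i => hRLp.eigenvalues_nonneg i)
      (fun i => hRRp.eigenvalues_nonneg i) hπn hπ'n
      (by simp [Fintype.card_sum])
      (by rw [hsT, hsr, hsP, hsY])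
      (by rw [hsP, hsr]; field_simp)
      (by rw [hsY, hsr]; field_simp)
      (by rw [hsr, hsr'])
      (by rw [hsπ, hsP]) (by rw [hsπ', hsY])
      (fun s hs => perS Z Y hP hroots hs)
    rw [← vnEntropy_eq_sum hYLp.isHermitian, ← vnEntropy_eq_sum hP.isHermitian,
      ← vnEntropy_eq_sum (Tmat_isHermitian Z Y hP)] at hcore
    -- the explicit sum
    have hexp : ∑ i, (Real.negMulLog (t₁ / u * r i) + Real.negMulLog (t₂ / u * r i)
          - Real.negMulLog (v / u * r i) - Real.negMulLog (w / u * r i))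
        = vnEntropy (Z * Zᴴ) + u * (Real.negMulLog (t₁ / u) + Real.negMulLog (t₂ / u)
            - Real.negMulLog (v / u) - Real.negMulLog (w / u)) := by
      have h1 : t₁ / u + t₂ / u - v / u - w / u = 1 := by
        field_simp; linarith
      rw [sum_negMulLog_scale, h1, one_mul, hsr, vnEntropy_eq_sum hRL]
    rw [hexp] at hcore
    have hsc : u * (Real.negMulLog (t₁ / u) + Real.negMulLog (t₂ / u)
            - Real.negMulLog (v / u) - Real.negMulLog (w / u))
        = Real.negMulLog t₁ + Real.negMulLog t₂ - Real.negMulLog v - Real.negMulLog w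
          - Real.negMulLog u := by
      have e : u * (Real.negMulLog (t₁ / u) + Real.negMulLog (t₂ / u)
            - Real.negMulLog (v / u) - Real.negMulLog (w / u))
          = u * Real.negMulLog (t₁ / u) + u * Real.negMulLog (t₂ / u)
            - u * Real.negMulLog (v / u) - u * Real.negMulLog (w / u) := by ring
      rw [e, mul_negMulLog_div hupos, mul_negMulLog_div hupos, mul_negMulLog_div hupos,
        mul_negMulLog_div hupos]
      have hηu : Real.negMulLog u = - (u * Real.log u) := by simp [Real.negMulLog]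
      rw [hηu]
      have : t₁ * Real.log u + t₂ * Real.log u = (u + v + w) * Real.log u := by
        rw [← add_mul, hsum]
      nlinarith
    rw [hsc] at hcore
    linarith

/-- **(Z₃)**. -/
theorem Z3 (Z Y : Matrix L R ℂ) {P : Matrix L L ℂ} (hP : P.PosSemidef) {t₁ t₂ : ℝ}
    (ht₁ : 0 ≤ t₁) (ht₂ : 0 ≤ t₂)
    (hsum : t₁ + t₂ = (Z * Zᴴ).trace.re + P.trace.re + (Y * Yᴴ).trace.re)
    (hprod : t₁ * t₂ = P.trace.re * (Y * Yᴴ).trace.re) :
    vnEntropy (Z * Zᴴ) + vnEntropy P + vnEntropy (Y * Yᴴ) + Real.negMulLog t₁ + Real.negMulLog t₂ ≤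
      vnEntropy (Tmat Z Y P) + Real.negMulLog (Z * Zᴴ).trace.re + Real.negMulLog P.trace.re
        + Real.negMulLog (Y * Yᴴ).trace.re := by
  rcases le_total t₂ t₁ with h | h
  · exact Z3_ordered Z Y hP ht₁ ht₂ h hsum hprod
  · have := Z3_ordered Z Y hP ht₂ ht₁ h (by linarith) (by linarith)
    linarith

end Crest.Agent.GADAdd
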