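import Crest.Agent.Lib.GADAdd.Z3
import Crest.Prelude.Def_AmpDamp

/-!
# (Z_g): the conditional-entropy bound for the GAD channel

Decomposition: with `a = 1-γν, b = γ(1-ν), c = γν, d = 1-b, λ = √(1-γ)`, `τ = Φ(u_p)`,
`t00 = a(1-p)+bp`, `t11 = c(1-p)+dp`, `D = det τ = p b t11 + (1-p) c t00`; if `D > 0`:
`T = T_A + T_B`, `T_A = [[a₁Q₀+bQ₁, √(a₁b₁)C],[.., b₁Q₁]]`, `a₁ = p²bλ²/D`, `b₁ = b t11²/D`;
`T_B = [[b₂Q₀, √(a₂b₂)C],[.., a₂Q₁+cQ₀]]`, `a₂ = (1-p)²cλ²/D`, `b₂ = c t00²/D`;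
`a₁+b₂ = a`, `b₁+a₂ = d`, `√(a₁b₁)+√(a₂b₂) = λ`, traces `m = p b t11/D`, `1-m`.
If `D = 0` then `γ = 0`, or `ν = 0`, or `ν = 1`: one piece suffices.
-/

set_option autoImplicit false

open Matrix
open scoped ComplexOrder

namespace Crest.Agent.GADAdd
open Crest.Quantum Crest.MathPhysics.AmpDamp

variable {e : Type*} [Fintype e] [DecidableEq e]

/-- `det Φ(u_p)`. -/
noncomputable def gadDet (γ ν p : ℝ) : ℝ := γ * ν * (1 - ν) + γ * (1 - γ) * (p - ν) ^ 2

/-- `g(p) = S(Φ(u_p))`. -/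
noncomputable def gadG (γ ν p : ℝ) : ℝ :=
  Real.binEntropy ((1 + Real.sqrt (1 - 4 * gadDet γ ν p)) / 2)

theorem gadRate_eq (γ ν p : ℝ) :
    gadRate γ ν p = Real.binEntropy ((1 - γ) * p + γ * ν) - gadG γ ν p := rfl

/-- The GAD channel acting on the qubit factor of a matrix indexed by `Bool × e`. -/
noncomputable def gadId (γ ν : ℝ) (W : Matrix (Bool × e) (Bool × e) ℂ) :
    Matrix (Bool × e) (Bool × e) ℂ :=
  Matrix.of fun x y => ∑ s' : Bool, ∑ t' : Bool,
    qubitCoeff (gadMap γ ν) x.1 y.1 s' t' * W (s', x.2) (t', y.2)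

theorem qubitTensor_eq_gadId {d : Type*} [Fintype d] [DecidableEq d] (γ ν : ℝ)
    (Ψ : Matrix d d ℂ → Matrix e e ℂ) (ρ : Matrix (Bool × d) (Bool × d) ℂ) :
    qubitTensor (gadMap γ ν) Ψ ρ = gadId γ ν (blockwise (k := Bool) Ψ ρ) := rfl

omit [Fintype e] [DecidableEq e] in
theorem gadId_ff (γ ν : ℝ) (W : Matrix (Bool × e) (Bool × e) ℂ) (i j : e) :
    gadId γ ν W (false, i) (false, j) =
      ((1 - γ * ν : ℝ) : ℂ) * W (false, i) (false, j)
        + ((γ * (1 - ν) : ℝ) : ℂ) * W (true, i) (true, j) := by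
  simp [gadId, qubitCoeff, gadMap, Matrix.single_apply]; ring

omit [Fintype e] [DecidableEq e] in
theorem gadId_tt (γ ν : ℝ) (W : Matrix (Bool × e) (Bool × e) ℂ) (i j : e) :
    gadId γ ν W (true, i) (true, j) =
      ((γ * ν : ℝ) : ℂ) * W (false, i) (false, j)
        + ((1 - γ + γ * ν : ℝ) : ℂ) * W (true, i) (true, j) := by
  simp [gadId, qubitCoeff, gadMap, Matrix.single_apply]; ring

omit [Fintype e] [DecidableEq e] in
theorem gadId_ft (γ ν : ℝ) (W : Matrix (Bool × e) (Bool × e) ℂ) (i j : e) :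
    gadId γ ν W (false, i) (true, j) = ((Real.sqrt (1 - γ) : ℝ) : ℂ) * W (false, i) (true, j) := by
  simp [gadId, qubitCoeff, gadMap, Matrix.single_apply]

omit [Fintype e] [DecidableEq e] in
theorem gadId_tf (γ ν : ℝ) (W : Matrix (Bool × e) (Bool × e) ℂ) (i j : e) :
    gadId γ ν W (true, i) (false, j) = ((Real.sqrt (1 - γ) : ℝ) : ℂ) * W (true, i) (false, j) := by
  simp [gadId, qubitCoeff, gadMap, Matrix.single_apply]

/-- The four blocks of `gadId`. -/
theorem block_gadId_ff (γ ν : ℝ) (W : Matrix (Bool × e) (Bool × e) ℂ) :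
    block (gadId γ ν W) false false =
      ((1 - γ * ν : ℝ) : ℂ) • block W false false + ((γ * (1 - ν) : ℝ) : ℂ) • block W true true := by
  ext i j
  simp only [block, Matrix.of_apply, gadId_ff, Matrix.add_apply, Matrix.smul_apply, smul_eq_mul]

theorem block_gadId_tt (γ ν : ℝ) (W : Matrix (Bool × e) (Bool × e) ℂ) :
    block (gadId γ ν W) true true =
      ((γ * ν : ℝ) : ℂ) • block W false false + ((1 - γ + γ * ν : ℝ) : ℂ) • block W true true := by
  ext i j
  simp only [block, Matrix.of_apply, gadId_tt, Matrix.add_apply, Matrix.smul_apply, smul_eq_mul]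

theorem block_gadId_ft (γ ν : ℝ) (W : Matrix (Bool × e) (Bool × e) ℂ) :
    block (gadId γ ν W) false true = ((Real.sqrt (1 - γ) : ℝ) : ℂ) • block W false true := by
  ext i j
  simp only [block, Matrix.of_apply, gadId_ft, Matrix.smul_apply, smul_eq_mul]

theorem block_gadId_tf (γ ν : ℝ) (W : Matrix (Bool × e) (Bool × e) ℂ) :
    block (gadId γ ν W) true false = ((Real.sqrt (1 - γ) : ℝ) : ℂ) • block W true false := by
  ext i j
  simp only [block, Matrix.of_apply, gadId_tf, Matrix.smul_apply, smul_eq_mul]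

/-- A general AD-form piece: `[[α Q₀ + κ Q₁, √(αβ) C],[√(αβ) C†, β Q₁]]`. -/
noncomputable def pieceMat (α κ β : ℝ) (W : Matrix (Bool × e) (Bool × e) ℂ) :
    Matrix (Bool × e) (Bool × e) ℂ :=
  Matrix.of fun x y =>
    match x.1, y.1 with
    | false, false => (α : ℂ) * W (false, x.2) (false, y.2) + (κ : ℂ) * W (true, x.2) (true, y.2)
    | false, true => ((Real.sqrt (α * β) : ℝ) : ℂ) * W (false, x.2) (true, y.2)
    | true, false => ((Real.sqrt (α * β) : ℝ) : ℂ) * W (true, x.2) (false, y.2)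
    | true, true => (β : ℂ) * W (true, x.2) (true, y.2)

/-- A factorisation of a positive semidefinite matrix. -/
theorem exists_factor {W : Matrix (Bool × e) (Bool × e) ℂ} (hW : W.PosSemidef) :
    ∃ N : Bool → Matrix e (Bool × e) ℂ, ∀ s t, block W s t = N s * (N t)ᴴ := by
  classical
  have hH := hW.isHermitian
  set U : Matrix (Bool × e) (Bool × e) ℂ := (hH.eigenvectorUnitary : Matrix (Bool × e) (Bool × e) ℂ) with hU
  set lam := hH.eigenvalues with hlam
  let B : Matrix (Bool × e) (Bool × e) ℂ := U * diagonal (fun i => ((Real.sqrt (lam i) : ℝ) : ℂ))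
  have hB : W = B * Bᴴ := by
    have h1 := herm_spectral hH
    have h2 : diagonal (fun i => ((Real.sqrt (lam i) : ℝ) : ℂ))
        * diagonal (fun i => ((Real.sqrt (lam i) : ℝ) : ℂ)) = diagonal (fun i => ((lam i : ℝ) : ℂ)) := by
      rw [diagonal_mul_diagonal]
      congr 1
      funext i
      rw [← Complex.ofReal_mul, Real.mul_self_sqrt (hW.eigenvalues_nonneg i)]
    have h3 : (diagonal (fun i => ((Real.sqrt (lam i) : ℝ) : ℂ)))ᴴ
        = diagonal (fun i => ((Real.sqrt (lam i) : ℝ) : ℂ)) := by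
      rw [diagonal_conjTranspose]
      congr 1
      funext i
      simp
    simp only [B]
    rw [conjTranspose_mul, h3, Matrix.mul_assoc, ← Matrix.mul_assoc (diagonal _) (diagonal _), h2,
      ← Matrix.mul_assoc]
    exact h1
  refine ⟨fun s => Matrix.of fun i k => B (s, i) k, fun s t => ?_⟩
  ext i j
  rw [hB]
  simp [block, Matrix.mul_apply, Matrix.conjTranspose_apply]

theorem smul_mul_conj {K : Type*} [Fintype K] (a b : ℝ) (A B : Matrix e K ℂ) :
    ((a : ℂ) • A) * ((b : ℂ) • B)ᴴ = ((a * b : ℝ) : ℂ) • (A * Bᴴ) := by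
  rw [conjTranspose_smul, Matrix.smul_mul, Matrix.mul_smul, smul_smul]
  simp

omit [Fintype e] in
theorem block_posSemidef {W : Matrix (Bool × e) (Bool × e) ℂ} (hW : W.PosSemidef) (s : Bool) :
    (block W s s).PosSemidef :=
  hW.submatrix (fun i => (s, i))

omit [Fintype e] [DecidableEq e] in
theorem trace_re_nonneg [Fintype e] {A : Matrix e e ℂ} (hA : A.PosSemidef) : 0 ≤ A.trace.re :=
  (Complex.le_def.mp hA.trace_nonneg).1

theorem trace_smul_re (c : ℝ) (A : Matrix e e ℂ) : ((c : ℂ) • A).trace.re = c * A.trace.re := by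
  rw [Matrix.trace_smul, smul_eq_mul, Complex.re_ofReal_mul]

theorem pieceMat_eq_submatrix {W : Matrix (Bool × e) (Bool × e) ℂ}
    {N : Bool → Matrix e (Bool × e) ℂ} (hN : ∀ s t, block W s t = N s * (N t)ᴴ) {α κ β : ℝ}
    (hα : 0 ≤ α) (hβ : 0 ≤ β) :
    pieceMat α κ β W = (Tmat (((Real.sqrt α : ℝ) : ℂ) • N false) (((Real.sqrt β : ℝ) : ℂ) • N true)
        ((κ : ℂ) • block W true true)).submatrix (Equiv.boolProdEquivSum e) (Equiv.boolProdEquivSum e) := by
  have hZZ : (((Real.sqrt α : ℝ) : ℂ) • N false) * (((Real.sqrt α : ℝ) : ℂ) • N false)ᴴ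
      = (α : ℂ) • block W false false := by
    rw [smul_mul_conj, Real.mul_self_sqrt hα, hN]
  have hYY : (((Real.sqrt β : ℝ) : ℂ) • N true) * (((Real.sqrt β : ℝ) : ℂ) • N true)ᴴ
      = (β : ℂ) • block W true true := by
    rw [smul_mul_conj, Real.mul_self_sqrt hβ, hN]
  have hZY : (((Real.sqrt α : ℝ) : ℂ) • N false) * (((Real.sqrt β : ℝ) : ℂ) • N true)ᴴ
      = ((Real.sqrt (α * β) : ℝ) : ℂ) • block W false true := by
    rw [smul_mul_conj, Real.sqrt_mul hα, hN]
  have hYZ : (((Real.sqrt β : ℝ) : ℂ) • N true) * (((Real.sqrt α : ℝ) : ℂ) • N false)ᴴ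
      = ((Real.sqrt (α * β) : ℝ) : ℂ) • block W true false := by
    rw [smul_mul_conj, mul_comm (Real.sqrt β), Real.sqrt_mul hα, hN]
  ext ⟨s, i⟩ ⟨t, j⟩
  cases s <;> cases t
  · change (α : ℂ) * W (false, i) (false, j) + (κ : ℂ) * W (true, i) (true, j) = _
    change _ = (((Real.sqrt α : ℝ) : ℂ) • N false * (((Real.sqrt α : ℝ) : ℂ) • N false)ᴴ
      + (κ : ℂ) • block W true true) i j
    rw [hZZ]; rfl
  · change ((Real.sqrt (α * β) : ℝ) : ℂ) * W (false, i) (true, j) = _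
    change _ = (((Real.sqrt α : ℝ) : ℂ) • N false * (((Real.sqrt β : ℝ) : ℂ) • N true)ᴴ) i j
    rw [hZY]; rfl
  · change ((Real.sqrt (α * β) : ℝ) : ℂ) * W (true, i) (false, j) = _
    change _ = (((Real.sqrt β : ℝ) : ℂ) • N true * (((Real.sqrt α : ℝ) : ℂ) • N false)ᴴ) i j
    rw [hYZ]; rfl
  · change (β : ℂ) * W (true, i) (true, j) = _
    change _ = (((Real.sqrt β : ℝ) : ℂ) • N true * (((Real.sqrt β : ℝ) : ℂ) • N true)ᴴ) i j
    rw [hYY]; rfl

/-- The bound for one piece, from (Z₃). Here `p₀, p₁` are the traces of the diagonal blocks. -/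
theorem piece_bound {W : Matrix (Bool × e) (Bool × e) ℂ} (hW : W.PosSemidef) {α κ β t₁ t₂ : ℝ}
    (hα : 0 ≤ α) (hκ : 0 ≤ κ) (hβ : 0 ≤ β) (ht₁ : 0 ≤ t₁) (ht₂ : 0 ≤ t₂)
    (hsum : t₁ + t₂ = α * (block W false false).trace.re + (κ + β) * (block W true true).trace.re)
    (hprod : t₁ * t₂ = κ * (block W true true).trace.re * (β * (block W true true).trace.re)) :
    α * (vnEntropy (block W false false) - Real.negMulLog (block W false false).trace.re)
      + (κ + β) * (vnEntropy (block W true true) - Real.negMulLog (block W true true).trace.re)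
      + Real.negMulLog t₁ + Real.negMulLog t₂ ≤ vnEntropy (pieceMat α κ β W) := by
  obtain ⟨N, hN⟩ := exists_factor hW
  have hQ0 := block_posSemidef hW false
  have hQ1 := block_posSemidef hW true
  set Z := ((Real.sqrt α : ℝ) : ℂ) • N false with hZ
  set Y := ((Real.sqrt β : ℝ) : ℂ) • N true with hY
  have hZZ : Z * Zᴴ = (α : ℂ) • block W false false := by
    rw [hZ, smul_mul_conj, Real.mul_self_sqrt hα, hN]
  have hYY : Y * Yᴴ = (β : ℂ) • block W true true := by
    rw [hY, smul_mul_conj, Real.mul_self_sqrt hβ, hN]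
  have hP : ((κ : ℂ) • block W true true).PosSemidef := by
    apply hQ1.smul
    exact_mod_cast hκ
  have hpiece : vnEntropy (pieceMat α κ β W) = vnEntropy (Tmat Z Y ((κ : ℂ) • block W true true)) := by
    rw [pieceMat_eq_submatrix hN hα hβ, ← vnEntropy_reindex (Equiv.boolProdEquivSum e).symm]
    rfl
  have key := Z3 Z Y hP ht₁ ht₂
    (by rw [hZZ, hYY, trace_smul_re, trace_smul_re, trace_smul_re]; rw [hsum]; ring)
    (by rw [hYY, trace_smul_re, trace_smul_re]; exact hprod)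
  rw [hZZ, hYY, trace_smul_re, trace_smul_re, trace_smul_re,
    vnEntropy_smul hQ0.isHermitian hα hQ0, vnEntropy_smul hQ1.isHermitian hβ hQ1,
    vnEntropy_smul hQ1.isHermitian hκ hQ1, Real.negMulLog_mul, Real.negMulLog_mul,
    Real.negMulLog_mul, ← hpiece] at key
  linarith

theorem pieceMat_trace_re (α κ β : ℝ) (W : Matrix (Bool × e) (Bool × e) ℂ) :
    (pieceMat α κ β W).trace.re =
      α * (block W false false).trace.re + (κ + β) * (block W true true).trace.re := by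
  simp only [Matrix.trace, Fintype.sum_prod_type, Fintype.sum_bool, Matrix.diag_apply, pieceMat,
    Matrix.of_apply, block, Complex.add_re, Complex.re_sum, Complex.re_ofReal_mul,
    Finset.mul_sum, ← Finset.sum_add_distrib, add_mul]
  apply Finset.sum_congr rfl
  intro i _
  ring

theorem pieceMat_posSemidef {W : Matrix (Bool × e) (Bool × e) ℂ} (hW : W.PosSemidef) {α κ β : ℝ}
    (hα : 0 ≤ α) (hκ : 0 ≤ κ) (hβ : 0 ≤ β) : (pieceMat α κ β W).PosSemidef := by
  obtain ⟨N, hN⟩ := exists_factor hW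
  rw [pieceMat_eq_submatrix hN hα hβ]
  apply PosSemidef.submatrix
  apply Tmat_posSemidef
  apply (block_posSemidef hW true).smul
  exact_mod_cast hκ

/-- Swap the qubit basis. -/
def swB (e : Type*) : Bool × e ≃ Bool × e := (Equiv.boolNot).prodCongr (Equiv.refl e)

/-- The core of (Z_g): given a decomposition into two pieces. -/
theorem Zg_core {γ ν : ℝ} {W : Matrix (Bool × e) (Bool × e) ℂ} (hW : W.PosSemidef)
    {a₁ b₁ a₂ b₂ m lp lm p₀ p : ℝ} (hp₀ : (block W false false).trace.re = p₀)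
    (hp : (block W true true).trace.re = p)
    (ha₁ : 0 ≤ a₁) (hb₁ : 0 ≤ b₁) (ha₂ : 0 ≤ a₂) (hb₂ : 0 ≤ b₂)
    (hb : 0 ≤ γ * (1 - ν)) (hc : 0 ≤ γ * ν)
    (hm0 : 0 ≤ m) (hm1 : m ≤ 1) (hlp : 0 ≤ lp) (hlm : 0 ≤ lm) (hl : lp + lm = 1)
    (h1 : a₁ + b₂ = 1 - γ * ν) (h2 : b₁ + a₂ = 1 - γ + γ * ν)
    (h3 : Real.sqrt (a₁ * b₁) + Real.sqrt (a₂ * b₂) = Real.sqrt (1 - γ))
    (htrA : m = a₁ * p₀ + (γ * (1 - ν) + b₁) * p)
    (htrB : 1 - m = a₂ * p + (γ * ν + b₂) * p₀)
    (hprA : (m * lp) * (m * lm) = γ * (1 - ν) * p * (b₁ * p))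
    (hprB : ((1 - m) * lp) * ((1 - m) * lm) = γ * ν * p₀ * (b₂ * p₀)) :
    Real.negMulLog lp + Real.negMulLog lm + vnEntropy (block W false false)
      + vnEntropy (block W true true) - (Real.negMulLog p₀ + Real.negMulLog p) ≤
      vnEntropy (gadId γ ν W) := by
  set W' : Matrix (Bool × e) (Bool × e) ℂ := W.submatrix (swB e) (swB e) with hW'
  have hW'psd : W'.PosSemidef := hW.submatrix _
  have hb0 : block W' false false = block W true true := by ext i j; rfl
  have hb1 : block W' true true = block W false false := by ext i j; rfl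
  set TA := pieceMat a₁ (γ * (1 - ν)) b₁ W with hTA
  set TB' := pieceMat a₂ (γ * ν) b₂ W' with hTB'
  set TB := TB'.submatrix (swB e) (swB e) with hTB
  have hdec : gadId γ ν W = TA + TB := by
    ext ⟨s, i⟩ ⟨t, j⟩
    cases s <;> cases t
    · rw [gadId_ff]
      change _ = ((a₁ : ℂ) * W (false, i) (false, j) + ((γ * (1 - ν) : ℝ) : ℂ) * W (true, i) (true, j))
        + (b₂ : ℂ) * W (false, i) (false, j)
      have h1' : ((1 - γ * ν : ℝ) : ℂ) = (a₁ : ℂ) + (b₂ : ℂ) := by rw [← h1]; push_cast; ring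
      rw [h1']; ring
    · rw [gadId_ft, ← h3]
      change _ = ((Real.sqrt (a₁ * b₁) : ℝ) : ℂ) * W (false, i) (true, j)
        + ((Real.sqrt (a₂ * b₂) : ℝ) : ℂ) * W (false, i) (true, j)
      push_cast; ring
    · rw [gadId_tf, ← h3]
      change _ = ((Real.sqrt (a₁ * b₁) : ℝ) : ℂ) * W (true, i) (false, j)
        + ((Real.sqrt (a₂ * b₂) : ℝ) : ℂ) * W (true, i) (false, j)
      push_cast; ring
    · rw [gadId_tt]
      change _ = (b₁ : ℂ) * W (true, i) (true, j)
        + ((a₂ : ℂ) * W (true, i) (true, j) + ((γ * ν : ℝ) : ℂ) * W (false, i) (false, j))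
      have h2' : ((1 - γ + γ * ν : ℝ) : ℂ) = (b₁ : ℂ) + (a₂ : ℂ) := by rw [← h2]; push_cast; ring
      rw [h2']; ring
  have hTApsd : TA.PosSemidef := pieceMat_posSemidef hW ha₁ hb hb₁
  have hTB'psd : TB'.PosSemidef := pieceMat_posSemidef hW'psd ha₂ hc hb₂
  have hTBpsd : TB.PosSemidef := hTB'psd.submatrix _
  have hSB : vnEntropy TB = vnEntropy TB' := by
    rw [← vnEntropy_reindex (swB e) TB']
    have : (reindex (swB e) (swB e)) TB' = TB := by
      ext ⟨s, i⟩ ⟨t, j⟩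
      cases s <;> cases t <;> rfl
    rw [this]
  have htrTA : TA.trace.re = m := by rw [hTA, pieceMat_trace_re, hp₀, hp, htrA]
  have htrTB' : TB'.trace.re = 1 - m := by
    rw [hTB', pieceMat_trace_re, hb0, hb1, hp₀, hp, htrB]
  have htrTB : TB.trace.re = 1 - m := by
    rw [← htrTB', hTB]
    simp only [Matrix.trace, Matrix.diag_apply, Matrix.submatrix_apply]
    rw [Equiv.sum_comp (swB e) (fun x => TB' x x)]
  have hA := piece_bound hW (α := a₁) (κ := γ * (1 - ν)) (β := b₁) (t₁ := m * lp) (t₂ := m * lm)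
    ha₁ hb hb₁ (mul_nonneg hm0 hlp) (mul_nonneg hm0 hlm)
    (by rw [hp₀, hp, ← htrA, ← mul_add, hl, mul_one]) (by rw [hp, hprA])
  have hB := piece_bound hW'psd (α := a₂) (κ := γ * ν) (β := b₂) (t₁ := (1 - m) * lp)
    (t₂ := (1 - m) * lm) ha₂ hc hb₂ (mul_nonneg (by linarith) hlp) (mul_nonneg (by linarith) hlm)
    (by rw [hb0, hb1, hp₀, hp, ← htrB, ← mul_add, hl, mul_one]) (by rw [hb1, hp₀, hprB])
  rw [hb0, hb1, hp₀, hp] at hB
  rw [hp₀, hp] at hA
  have hconc := vnEntropy_concave hTApsd hTBpsd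
  rw [htrTA, htrTB, ← hdec, hSB] at hconc
  have hone : m + (1 - m) = 1 := by ring
  rw [hone, Real.negMulLog_one] at hconc
  rw [Real.negMulLog_mul, Real.negMulLog_mul] at hA
  rw [Real.negMulLog_mul, Real.negMulLog_mul] at hB
  have e1 : lp * Real.negMulLog m + lm * Real.negMulLog m = Real.negMulLog m := by
    rw [← add_mul, hl, one_mul]
  have e2 : lp * Real.negMulLog (1 - m) + lm * Real.negMulLog (1 - m) = Real.negMulLog (1 - m) := by
    rw [← add_mul, hl, one_mul]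
  set S0 := vnEntropy (block W false false)
  set S1 := vnEntropy (block W true true)
  set E0 := Real.negMulLog p₀
  set E1 := Real.negMulLog p
  set G := Real.negMulLog lp + Real.negMulLog lm with hG
  have h5 : (a₁ + (γ * ν + b₂)) = 1 := by rw [add_comm (γ * ν), ← add_assoc, h1]; ring
  have h6 : (γ * (1 - ν) + b₁) + a₂ = 1 := by rw [add_assoc, h2]; ring
  have hsum : (a₁ + (γ * ν + b₂)) * (S0 - E0) + ((γ * (1 - ν) + b₁) + a₂) * (S1 - E1) + G
      + Real.negMulLog m + Real.negMulLog (1 - m)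
      ≤ vnEntropy TA + vnEntropy TB' := by
    rw [hG]
    nlinarith [hA, hB, e1, e2]
  rw [h5, h6] at hsum
  linarith

theorem gadDet_nonneg {γ ν : ℝ} (hγ : γ ∈ Set.Icc (0 : ℝ) 1) (hν : ν ∈ Set.Icc (0 : ℝ) 1) (p : ℝ) :
    0 ≤ gadDet γ ν p := by
  unfold gadDet
  have h1 : 0 ≤ γ * ν * (1 - ν) :=
    mul_nonneg (mul_nonneg hγ.1 hν.1) (by linarith [hν.2])
  have h2 : 0 ≤ γ * (1 - γ) * (p - ν) ^ 2 :=
    mul_nonneg (mul_nonneg hγ.1 (by linarith [hγ.2])) (sq_nonneg _)
  linarith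

/-- `D` as a determinant: `D = t₀₀ t₁₁ - (1-γ) p (1-p)`. -/
theorem gadDet_eq (γ ν p : ℝ) :
    gadDet γ ν p = (1 - p + γ * (p - ν)) * (p - γ * (p - ν)) - (1 - γ) * (p * (1 - p)) := by
  unfold gadDet; ring

theorem gadDet_le {γ ν p : ℝ} (hγ : γ ∈ Set.Icc (0 : ℝ) 1) (hp : p ∈ Set.Icc (0 : ℝ) 1) :
    4 * gadDet γ ν p ≤ 1 := by
  rw [gadDet_eq]
  have h1 : 0 ≤ (1 - γ) * (p * (1 - p)) :=
    mul_nonneg (by linarith [hγ.2]) (mul_nonneg hp.1 (by linarith [hp.2]))
  nlinarith [sq_nonneg ((1 - p + γ * (p - ν)) - (p - γ * (p - ν)))]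

/-- **(Z_g)**. -/
theorem Zg {γ ν : ℝ} (hγ : γ ∈ Set.Icc (0 : ℝ) 1) (hν : ν ∈ Set.Icc (0 : ℝ) 1)
    {W : Matrix (Bool × e) (Bool × e) ℂ} (hW : W.PosSemidef) (htr : W.trace = 1) :
    gadG γ ν (block W true true).trace.re + vnEntropy (block W false false)
      + vnEntropy (block W true true) - Real.binEntropy (block W true true).trace.re ≤
      vnEntropy (gadId γ ν W) := by
  have hγ0 := hγ.1
  have hγ1 := hγ.2
  have hν0 := hν.1
  have hν1 := hν.2
  set p := (block W true true).trace.re with hpdef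
  set p₀ := (block W false false).trace.re with hp₀def
  have hp1 : p₀ + p = 1 := by
    have h := congrArg Complex.re htr
    simp only [Matrix.trace, Fintype.sum_prod_type, Fintype.sum_bool, Matrix.diag_apply,
      Complex.add_re, Complex.one_re] at h
    have e0 : p₀ = (∑ i, W (false, i) (false, i)).re := rfl
    have e1 : p = (∑ i, W (true, i) (true, i)).re := rfl
    rw [e0, e1]
    linarith
  have hpnn : 0 ≤ p := trace_re_nonneg (block_posSemidef hW true)
  have hp₀nn : 0 ≤ p₀ := trace_re_nonneg (block_posSemidef hW false)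
  have hp₀eq : p₀ = 1 - p := by linarith
  have hple : p ≤ 1 := by linarith
  set D := gadDet γ ν p with hD
  have hD0 : 0 ≤ D := gadDet_nonneg hγ hν p
  have hD4 : 4 * D ≤ 1 := gadDet_le hγ ⟨hpnn, hple⟩
  set r := Real.sqrt (1 - 4 * D) with hr
  have hr0 : 0 ≤ r := Real.sqrt_nonneg _
  have hrsq : r * r = 1 - 4 * D := Real.mul_self_sqrt (by linarith)
  have hr1 : r ≤ 1 := by
    rw [hr]; apply Real.sqrt_le_one.mpr ?_ |>.trans_eq rfl <;> linarith
  set lp := (1 + r) / 2 with hlp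
  set lm := (1 - r) / 2 with hlm
  have hl : lp + lm = 1 := by rw [hlp, hlm]; ring
  have hll : lp * lm = D := by
    rw [hlp, hlm]
    have : (1 + r) / 2 * ((1 - r) / 2) = (1 - r * r) / 4 := by ring
    rw [this, hrsq]; ring
  have hlp0 : 0 ≤ lp := by rw [hlp]; linarith
  have hlm0 : 0 ≤ lm := by rw [hlm]; linarith
  have hG : gadG γ ν p = Real.negMulLog lp + Real.negMulLog lm := by
    unfold gadG
    rw [← hD, ← hr, ← hlp, Real.binEntropy_eq_negMulLog_add_negMulLog_one_sub]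
    have : 1 - lp = lm := by linarith
    rw [this]
  have hbin : Real.binEntropy p = Real.negMulLog p₀ + Real.negMulLog p := by
    rw [Real.binEntropy_eq_negMulLog_add_negMulLog_one_sub, hp₀eq]; ring
  rw [hG, hbin]
  set b := γ * (1 - ν) with hb
  set c := γ * ν with hc
  have hb0 : 0 ≤ b := mul_nonneg hγ0 (by linarith)
  have hc0 : 0 ≤ c := mul_nonneg hγ0 hν0
  by_cases hDpos : 0 < D
  · -- the generic decomposition
    set t00 := 1 - p + γ * (p - ν) with ht00
    set t11 := p - γ * (p - ν) with ht11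
    have ht00a : t00 = (1 - γ * ν) * (1 - p) + b * p := by rw [ht00, hb]; ring
    have ht11a : t11 = c * (1 - p) + (1 - γ + γ * ν) * p := by rw [ht11, hc]; ring
    have ht00nn : 0 ≤ t00 := by
      rw [ht00a]
      have : 0 ≤ 1 - γ * ν := by nlinarith
      have h1p : 0 ≤ 1 - p := by linarith
      positivity
    have ht11nn : 0 ≤ t11 := by
      rw [ht11a]
      have h1 : 0 ≤ 1 - γ + γ * ν := by nlinarith
      have h1p : 0 ≤ 1 - p := by linarith
      positivity
    have hDne : D ≠ 0 := hDpos.ne'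
    have hDA : D = p * b * t11 + (1 - p) * c * t00 := by
      rw [hD, gadDet, ht11, ht00, hb, hc]; ring
    have hDB : D = t00 * t11 - (1 - γ) * (p * (1 - p)) := by
      rw [hD, gadDet_eq]
    have hsum01 : t00 + t11 = 1 := by rw [ht00, ht11]; ring
    set a₁ := p ^ 2 * b * (1 - γ) / D with ha₁
    set b₁ := b * t11 ^ 2 / D with hb₁
    set a₂ := (1 - p) ^ 2 * c * (1 - γ) / D with ha₂
    set b₂ := c * t00 ^ 2 / D with hb₂
    set m := p * b * t11 / D with hm
    have h1γ : 0 ≤ 1 - γ := by linarith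
    have h1p : 0 ≤ 1 - p := by linarith
    have ha₁0 : 0 ≤ a₁ := by rw [ha₁]; positivity
    have hb₁0 : 0 ≤ b₁ := by rw [hb₁]; positivity
    have ha₂0 : 0 ≤ a₂ := by rw [ha₂]; positivity
    have hb₂0 : 0 ≤ b₂ := by rw [hb₂]; positivity
    have hm0 : 0 ≤ m := by rw [hm]; positivity
    have hm1' : 1 - m = (1 - p) * c * t00 / D := by
      rw [hm]; field_simp; rw [hDA]; ring
    have hm1 : m ≤ 1 := by
      have : 0 ≤ (1 - p) * c * t00 / D := by positivity
      linarith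
    have h1 : a₁ + b₂ = 1 - γ * ν := by
      rw [ha₁, hb₂, ← add_div, div_eq_iff hDne, hD, gadDet, hb, hc, ht00]; ring
    have h2 : b₁ + a₂ = 1 - γ + γ * ν := by
      rw [hb₁, ha₂, ← add_div, div_eq_iff hDne, hD, gadDet, hb, hc, ht11]; ring
    have hs1 : Real.sqrt (a₁ * b₁) = m * Real.sqrt (1 - γ) := by
      have : a₁ * b₁ = m ^ 2 * (1 - γ) := by
        rw [ha₁, hb₁, hm]; field_simp
      rw [this, Real.sqrt_mul (sq_nonneg m), Real.sqrt_sq hm0]
    have hs2 : Real.sqrt (a₂ * b₂) = (1 - m) * Real.sqrt (1 - γ) := by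
      have : a₂ * b₂ = (1 - m) ^ 2 * (1 - γ) := by
        rw [ha₂, hb₂, hm1']; field_simp
      rw [this, Real.sqrt_mul (sq_nonneg _), Real.sqrt_sq (by linarith)]
    have h3 : Real.sqrt (a₁ * b₁) + Real.sqrt (a₂ * b₂) = Real.sqrt (1 - γ) := by
      rw [hs1, hs2]; ring
    have htrA : m = a₁ * p₀ + (b + b₁) * p := by
      rw [hp₀eq, hm, ha₁, hb₁]
      field_simp
      have : t11 = 1 - t00 := by linarith
      rw [hDB]
      rw [this]
      ring
    have htrB : 1 - m = a₂ * p + (c + b₂) * p₀ := by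
      rw [hp₀eq, hm1', ha₂, hb₂]
      field_simp
      have : t11 = 1 - t00 := by linarith
      rw [hDB]
      rw [this]
      ring
    have hprA : (m * lp) * (m * lm) = b * p * (b₁ * p) := by
      have : (m * lp) * (m * lm) = m ^ 2 * (lp * lm) := by ring
      rw [this, hll, hm, hb₁]; field_simp
    have hprB : ((1 - m) * lp) * ((1 - m) * lm) = c * p₀ * (b₂ * p₀) := by
      have : ((1 - m) * lp) * ((1 - m) * lm) = (1 - m) ^ 2 * (lp * lm) := by ring
      rw [this, hll, hm1', hb₂, hp₀eq]; field_simp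
    exact Zg_core hW rfl rfl ha₁0 hb₁0 ha₂0 hb₂0 hb0 hc0 hm0 hm1 hlp0 hlm0 hl h1 h2 h3 htrA htrB
      hprA hprB
  · -- degenerate case
    have hD00 : D = 0 := le_antisymm (not_lt.mp hDpos) hD0
    have h1 : γ * ν * (1 - ν) = 0 := by
      have h1' : 0 ≤ γ * ν * (1 - ν) := mul_nonneg (mul_nonneg hγ0 hν0) (by linarith)
      have h2' : 0 ≤ γ * (1 - γ) * (p - ν) ^ 2 :=
        mul_nonneg (mul_nonneg hγ0 (by linarith)) (sq_nonneg _)
      have : D = γ * ν * (1 - ν) + γ * (1 - γ) * (p - ν) ^ 2 := rfl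
      linarith
    have h2 : γ * (1 - γ) * (p - ν) ^ 2 = 0 := by
      have h2' : 0 ≤ γ * (1 - γ) * (p - ν) ^ 2 :=
        mul_nonneg (mul_nonneg hγ0 (by linarith)) (sq_nonneg _)
      have : D = γ * ν * (1 - ν) + γ * (1 - γ) * (p - ν) ^ 2 := rfl
      linarith
    by_cases hc00 : c = 0
    · -- one straight piece
      have hνγ : γ * ν = 0 := hc00
      have h1b : 0 ≤ 1 - b := by rw [hb]; nlinarith
      have hγb : 1 - b = 1 - γ := by rw [hb]; linarith [hνγ, mul_sub γ 1 ν]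
      refine Zg_core (a₁ := 1) (b₁ := 1 - b) (a₂ := 0) (b₂ := 0) (m := 1) hW rfl rfl
        zero_le_one h1b le_rfl le_rfl hb0 hc0 zero_le_one le_rfl hlp0 hlm0 hl ?_ ?_ ?_ ?_ ?_ ?_ ?_
      · rw [hνγ]; ring
      · rw [hνγ, hb]; linarith [hνγ, mul_sub γ 1 ν]
      · rw [hγb]; simp
      · rw [hb]; linarith [hp1]
      · rw [hνγ]; ring
      · have : (1 * lp) * (1 * lm) = lp * lm := by ring
        rw [this, hll, hD00, hb]
        rcases mul_eq_zero.mp hνγ with h0 | h0
        · rw [h0]; ring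
        · rw [h0] at h2
          have : γ * (1 - 0) * p * ((1 - γ * (1 - 0)) * p) = γ * (1 - γ) * (p - 0) ^ 2 := by ring
          rw [h0, this, h2]
      · rw [hνγ]; ring
    · -- ν = 1: one swapped piece
      have hν1' : ν = 1 := by
        have : γ * ν ≠ 0 := hc00
        have h' : γ * ν * (1 - ν) = 0 := h1
        rcases mul_eq_zero.mp h' with h0 | h0
        · exact absurd h0 this
        · linarith
      have hbb : b = 0 := by rw [hb, hν1']; ring
      have hcc : c = γ := by rw [hc, hν1']; ring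
      have h1c : 0 ≤ 1 - c := by rw [hcc]; linarith
      refine Zg_core (a₁ := 0) (b₁ := 0) (a₂ := 1) (b₂ := 1 - c) (m := 0) hW rfl rfl
        le_rfl le_rfl zero_le_one h1c hb0 hc0 le_rfl zero_le_one hlp0 hlm0 hl ?_ ?_ ?_ ?_ ?_ ?_ ?_
      · rw [hν1', hcc]; ring
      · rw [hν1']; ring
      · rw [hcc]; simp
      · rw [hν1']; ring
      · rw [hν1', hcc]
        have : 1 * p + (γ * 1 + (1 - γ)) * p₀ = p + p₀ := by ring
        rw [this]; linarith
      · rw [hν1']; ring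
      · have : ((1 - 0) * lp) * ((1 - 0) * lm) = lp * lm := by ring
        rw [this, hll, hD00, hc, hν1', hp₀eq]
        have h3 : γ * (1 - γ) * (p - 1) ^ 2 = 0 := by rw [hν1'] at h2; exact h2
        have : γ * 1 * (1 - p) * ((1 - γ * 1) * (1 - p)) = γ * (1 - γ) * (p - 1) ^ 2 := by ring
        rw [this, h3]

end Crest.Agent.GADAdd
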